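import Vale.Agent.P178.Simp

/-!
P178: normalised cocycles on simplicial sets and their alternating extensions.
-/

namespace Vale.Agent.P178

open CategoryTheory Opposite Simplicial

universe u v

variable {M : Type v} [AddCommGroup M]

section res
variable (X : SSet.{u})

/-- Restriction of a simplex along a monotone map. -/
def altRes {m n : ℕ} (f : Fin (m + 1) →o Fin (n + 1)) (x : X _⦋n⦌) : X _⦋m⦌ :=
  X.map (SimplexCategory.mkHom f).op x

theorem altRes_map {k m n : ℕ} (f : Fin (k + 1) →o Fin (m + 1))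
    (θ : (⦋m⦌ : SimplexCategory) ⟶ ⦋n⦌) (x : X _⦋n⦌) :
    altRes X f (X.map θ.op x) = altRes X (θ.toOrderHom.comp f) x := by
  unfold altRes
  rw [← Functor.map_comp_apply, ← op_comp]
  rfl

theorem altRes_res {k m n : ℕ} (f : Fin (k + 1) →o Fin (m + 1)) (g : Fin (m + 1) →o Fin (n + 1))
    (x : X _⦋n⦌) : altRes X f (altRes X g x) = altRes X (g.comp f) x :=
  altRes_map X f (SimplexCategory.mkHom g) x

theorem altRes_id {n : ℕ} (x : X _⦋n⦌) : altRes X OrderHom.id x = x :=
  Functor.map_id_apply X _ x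

theorem alt_δ {n : ℕ} (i : Fin (n + 2)) (x : X _⦋n + 1⦌) :
    X.δ i x = altRes X (Fin.succAboveOrderEmb i).toOrderHom x := rfl

theorem alt_σ {n : ℕ} (i : Fin (n + 1)) (x : X _⦋n⦌) :
    X.σ i x = altRes X i.predAboveOrderHom x := rfl

open Classical in
/-- Evaluation of a cochain on a tuple of vertices of a simplex. -/
noncomputable def altEv (c : X _⦋4⦌ → M) {n : ℕ} (x : X _⦋n⦌) (w : Fin 5 → Fin (n + 1)) : M :=
  if h : Monotone w then c (altRes X ⟨w, h⟩ x) else 0

theorem altEv_hom (c : X _⦋4⦌ → M) {n : ℕ} (x : X _⦋n⦌) (f : Fin 5 →o Fin (n + 1)) :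
    c (altRes X f x) = altEv X c x f := by
  unfold altEv
  rw [dif_pos f.monotone]
  rfl

theorem altEv_map (c : X _⦋4⦌ → M) {m n : ℕ} (θ : (⦋m⦌ : SimplexCategory) ⟶ ⦋n⦌) (x : X _⦋n⦌)
    {w : Fin 5 → Fin (m + 1)} (hw : Monotone w) :
    altEv X c (X.map θ.op x) w = altEv X c x (θ.toOrderHom ∘ w) := by
  unfold altEv
  rw [dif_pos hw, dif_pos (θ.toOrderHom.monotone.comp hw), altRes_map]
  rfl

theorem altEv_coc (c : X _⦋4⦌ → M) (hc : ∀ y, (sssOf X).cob (n := 4) c y = 0) {n : ℕ}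
    (x : X _⦋n⦌) {w : Fin 6 → Fin (n + 1)} (hw : Monotone w) :
    ∑ i : Fin 6, (-1 : ℤ) ^ (i : ℕ) • altEv X c x (w ∘ i.succAbove) = 0 := by
  rw [← hc (altRes X (m := 5) ⟨w, hw⟩ x)]
  refine Finset.sum_congr rfl fun i _ => ?_
  have e : c (X.δ i (altRes X (m := 5) ⟨w, hw⟩ x)) = altEv X c x (w ∘ i.succAbove) := by
    rw [alt_δ, altRes_res, altEv_hom X c]
    rfl
  rw [← e]
  rfl

theorem altEv_deg (c : X _⦋4⦌ → M) {i : Fin 4} (hn : ∀ y : X _⦋3⦌, c (X.σ i y) = 0) {n : ℕ}
    (x : X _⦋n⦌) {w : Fin 5 → Fin (n + 1)} (hw : w i.castSucc = w i.succ) :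
    altEv X c x w = 0 := by
  unfold altEv
  split_ifs with h
  · rw [← hn (altRes X (m := 3)
      (OrderHom.comp ⟨w, h⟩ (Fin.succAboveOrderEmb i.castSucc).toOrderHom) x), alt_σ, altRes_res]
    congr 2
    ext a : 2
    show w a = w (i.castSucc.succAbove (i.predAbove a))
    by_cases ha : a = i.castSucc
    · subst ha
      rw [Fin.predAbove_castSucc_self, Fin.succAbove_castSucc_self, hw]
    · rw [Fin.succAbove_predAbove ha]
  · rfl

end res

theorem alt_dec1 : ∀ i j : Fin 4, i < j → ∀ k : Fin 5, k ≠ i.castSucc ∧ k ≠ i.succ →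
    ∃ l : Fin 4, l < j ∧ i.predAbove (k.succAbove (j.predAbove l.castSucc)) =
      i.predAbove (k.succAbove (j.predAbove l.succ)) := by decide

theorem alt_dec2 : ∀ (i : Fin 4) (a : Fin 4), i.predAbove (i.castSucc.succAbove a) = a ∧
    i.predAbove (i.succ.succAbove a) = a := by decide

theorem alt_dec3 : ∀ (j : Fin 4) (k : Fin 5), k < j.castSucc →
    (∃ l : Fin 4, l < j ∧ j.predAbove (k.succAbove (j.predAbove l.castSucc)) =
      j.predAbove (k.succAbove (j.predAbove l.succ))) ∧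
    ∃ l : Fin 4, l < j ∧ j.predAbove (j.castSucc.predAbove
        ((j.castSucc.castSucc.succAbove k).succAbove l.castSucc)) =
      j.predAbove (j.castSucc.predAbove
        ((j.castSucc.castSucc.succAbove k).succAbove l.succ)) := by decide

theorem alt_dec4 : ∀ (j : Fin 4) (k : Fin 5), ¬ k < j.castSucc →
    ((j.castSucc.castSucc.succAbove k : Fin 6) : ℕ) = k + 1 ∧ ∀ a : Fin 5,
      j.predAbove (j.castSucc.predAbove ((j.castSucc.castSucc.succAbove k).succAbove a)) =
        j.predAbove (k.succAbove (j.predAbove a)) := by decide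

theorem alt_dec5 : ∀ (j : Fin 4) (a : Fin 5),
    j.castSucc.predAbove (j.castSucc.castSucc.succAbove a) = a := by decide

theorem alt_step (X : SSet.{u}) (c : X _⦋4⦌ → M) (hc : ∀ y, (sssOf X).cob (n := 4) c y = 0)
    (j : Fin 4) (hn : ∀ i < j, ∀ y : X _⦋3⦌, c (X.σ i y) = 0) (i : Fin 4) (hi : i ≤ j)
    (y : X _⦋3⦌) :
    c (X.σ i y) = (sssOf X).cob (n := 3) (fun z => (-1 : ℤ) ^ (j : ℕ) • c (X.σ j z)) (X.σ i y) := by
  have e : (sssOf X).cob (n := 3) (fun z => (-1 : ℤ) ^ (j : ℕ) • c (X.σ j z)) (X.σ i y) =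
      (-1 : ℤ) ^ (j : ℕ) • ∑ k : Fin 5, (-1 : ℤ) ^ (k : ℕ) •
        altEv X c y (fun a => i.predAbove (k.succAbove (j.predAbove a))) := by
    rw [Finset.smul_sum]
    refine Finset.sum_congr rfl fun k _ => ?_
    have e1 : c (X.σ j (X.δ k (X.σ i y))) =
        altEv X c y (fun a => i.predAbove (k.succAbove (j.predAbove a))) := by
      rw [alt_σ, alt_δ, alt_σ, altRes_res, altRes_res, altEv_hom X c]
      rfl
    rw [← e1, smul_comm]
    rfl
  rw [e]
  rcases hi.lt_or_eq with hi | rfl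
  · rw [hn i hi, Fintype.sum_eq_add i.castSucc i.succ (Fin.castSucc_lt_succ (i := i)).ne]
    · simp only [(alt_dec2 i _).1, (alt_dec2 i _).2, Fin.val_castSucc, Fin.val_succ, pow_succ,
        mul_neg, mul_one, neg_smul, add_neg_cancel, smul_zero]
    · intro k hk
      obtain ⟨l, hl, h⟩ := alt_dec1 i j hi k hk
      rw [altEv_deg X c (hn l hl) y h, smul_zero]
  · have h1 := altEv_coc X c hc y (w := fun a => i.predAbove (i.castSucc.predAbove a))
      ((Fin.predAbove_right_monotone i).comp (Fin.predAbove_right_monotone i.castSucc))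
    rw [Fin.sum_univ_succAbove _ i.castSucc.castSucc] at h1
    have h2 : ∀ k : Fin 5, (-1 : ℤ) ^ ((i.castSucc.castSucc.succAbove k : Fin 6) : ℕ) •
        altEv X c y ((fun a => i.predAbove (i.castSucc.predAbove a)) ∘
          (i.castSucc.castSucc.succAbove k).succAbove) =
        -((-1 : ℤ) ^ (k : ℕ) • altEv X c y fun a => i.predAbove (k.succAbove (i.predAbove a))) := by
      intro k
      by_cases hk : k < i.castSucc
      · obtain ⟨⟨l, hl, h⟩, l', hl', h'⟩ := alt_dec3 i k hk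
        rw [altEv_deg X c (hn l' hl') y h', altEv_deg X c (hn l hl) y h, smul_zero, smul_zero,
          neg_zero]
      · obtain ⟨h, h'⟩ := alt_dec4 i k hk
        rw [h, pow_succ, mul_neg, mul_one, neg_smul]
        congr 3
        exact funext h'
    have h3 : ((fun a => i.predAbove (i.castSucc.predAbove a)) ∘
        i.castSucc.castSucc.succAbove) = i.predAboveOrderHom := by
      funext a
      simp only [Function.comp_apply, alt_dec5]
      rfl
    simp only [h2, Finset.sum_neg_distrib, h3, Fin.val_castSucc] at h1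
    rw [← add_neg_eq_zero.1 h1, smul_smul, ← pow_add, ← two_mul, pow_mul, neg_one_sq, one_pow,
      one_smul, alt_σ, altEv_hom X c]

/-- Every 4-cocycle is cohomologous to one vanishing on degenerate simplices. -/
theorem exists_normalized (X : SSet.{u}) (c : X _⦋4⦌ → M) (hc : ∀ y, (sssOf X).cob (n := 4) c y = 0) :
    ∃ (c' : X _⦋4⦌ → M) (η : X _⦋3⦌ → M), (∀ y, c' y = c y - (sssOf X).cob (n := 3) η y) ∧
      ∀ (i : Fin 4) (y : X _⦋3⦌), c' (X.σ i y) = 0 := by
  have key : ∀ j : ℕ, j ≤ 4 → ∃ η : X _⦋3⦌ → M, ∀ i : Fin 4, (i : ℕ) < j → ∀ y : X _⦋3⦌,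
      c (X.σ i y) - (sssOf X).cob (n := 3) η (X.σ i y) = 0 := by
    intro j
    induction j with
    | zero => exact fun _ => ⟨0, fun i hi => absurd hi (Nat.not_lt_zero _)⟩
    | succ j ih =>
      intro hj
      obtain ⟨η, hη⟩ := ih (by omega)
      have hc' : ∀ y, (sssOf X).cob (n := 4)
          (fun z => c z - (sssOf X).cob (n := 3) η z) y = 0 := by
        intro y
        rw [← sub_eq_zero.2 ((hc y).trans ((sssOf X).cob_cob η y).symm)]
        unfold SSS.cob
        rw [← Finset.sum_sub_distrib]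
        exact Finset.sum_congr rfl fun i _ => smul_sub _ _ _
      have st := alt_step X (fun z => c z - (sssOf X).cob (n := 3) η z) hc' ⟨j, by omega⟩
        (fun i hi y => hη i hi y)
      obtain ⟨η', hη'⟩ : ∃ η' : X _⦋3⦌ → M, ∀ i : Fin 4, (i : ℕ) < j + 1 → ∀ y : X _⦋3⦌,
          c (X.σ i y) - (sssOf X).cob (n := 3) η (X.σ i y) =
            (sssOf X).cob (n := 3) η' (X.σ i y) :=
        ⟨_, fun i hi y => st i (Nat.lt_succ_iff.1 hi) y⟩
      refine ⟨fun z => η z + η' z, fun i hi y => ?_⟩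
      have e : (sssOf X).cob (n := 3) (fun z => η z + η' z) (X.σ i y) =
          (sssOf X).cob (n := 3) η (X.σ i y) + (sssOf X).cob (n := 3) η' (X.σ i y) := by
        unfold SSS.cob
        rw [← Finset.sum_add_distrib]
        exact Finset.sum_congr rfl fun i _ => smul_add _ _ _
      refine sub_eq_zero.2 (Eq.trans ?_ e.symm)
      rw [← hη' i hi y]
      abel
  obtain ⟨η, hη⟩ := key 4 le_rfl
  exact ⟨fun y => c y - (sssOf X).cob (n := 3) η y, η, fun _ => rfl, fun i y => hη i i.2 y⟩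

/-- Cocycles on the full simplex with vertex set `V` (all tuples, not only monotone ones). -/
def IsTupCoc {V : Type*} {k : ℕ} (A : (Fin k → V) → M) : Prop :=
  ∀ w : Fin (k + 1) → V, ∑ i : Fin (k + 1), (-1 : ℤ) ^ (i : ℕ) • A (w ∘ i.succAbove) = 0

theorem alt_dec6 : ∀ (j : Fin 5) (i : Fin 6), i ≠ j.castSucc → i ≠ j.succ →
    ∃ a : Fin 4, ∀ t : Fin 5, Equiv.swap j.castSucc j.succ (i.succAbove t) =
      i.succAbove (Equiv.swap a.castSucc a.succ t) := by decide

theorem alt_dec7 : ∀ (j : Fin 5) (t : Fin 5),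
    Equiv.swap j.castSucc j.succ (j.castSucc.succAbove t) = j.succ.succAbove t ∧
    Equiv.swap j.castSucc j.succ (j.succ.succAbove t) = j.castSucc.succAbove t := by decide

theorem alt_tup {V : Type*} [LinearOrder V] (A : (Fin 5 → V) → M)
    (h1 : ∀ (w : Fin 5 → V) (a : Fin 4), A (w ∘ Equiv.swap a.castSucc a.succ) = -A w)
    (h2 : ∀ w : Fin 6 → V, Monotone w →
      ∑ i : Fin 6, (-1 : ℤ) ^ (i : ℕ) • A (w ∘ i.succAbove) = 0) : IsTupCoc A := by
  obtain ⟨D, hD⟩ : ∃ D : (Fin 6 → V) → M,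
      ∀ w, D w = ∑ i : Fin 6, (-1 : ℤ) ^ (i : ℕ) • A (w ∘ i.succAbove) := ⟨_, fun _ => rfl⟩
  have hs : ∀ (w : Fin 6 → V) (j : Fin 5), D (w ∘ Equiv.swap j.castSucc j.succ) = -D w := by
    intro w j
    rw [hD, hD, ← Finset.sum_neg_distrib, ← Equiv.sum_comp (Equiv.swap j.castSucc j.succ)]
    refine Finset.sum_congr rfl fun i _ => ?_
    by_cases hi : i = j.castSucc
    · subst hi
      have e : (w ∘ Equiv.swap j.castSucc j.succ) ∘ j.succ.succAbove =
          w ∘ j.castSucc.succAbove := funext fun t => congrArg w (alt_dec7 j t).2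
      rw [Equiv.swap_apply_left, e, Fin.val_succ, Fin.val_castSucc, pow_succ, mul_neg, mul_one,
        neg_smul]
    · by_cases hi' : i = j.succ
      · subst hi'
        have e : (w ∘ Equiv.swap j.castSucc j.succ) ∘ j.castSucc.succAbove =
            w ∘ j.succ.succAbove := funext fun t => congrArg w (alt_dec7 j t).1
        rw [Equiv.swap_apply_right, e, Fin.val_succ, Fin.val_castSucc, pow_succ, mul_neg, mul_one,
          neg_smul, neg_neg]
      · obtain ⟨a, ha⟩ := alt_dec6 j i hi hi'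
        have e : (w ∘ Equiv.swap j.castSucc j.succ) ∘ i.succAbove =
            (w ∘ i.succAbove) ∘ Equiv.swap a.castSucc a.succ :=
          funext fun t => congrArg w (ha t)
        rw [Equiv.swap_apply_of_ne_of_ne hi hi', e, h1, smul_neg]
  have hp : ∀ π : Equiv.Perm (Fin 6), ∀ w : Fin 6 → V, D (w ∘ π) = 0 → D w = 0 := by
    intro π
    have hπ : π ∈ Submonoid.closure
        (Set.range fun i : Fin 5 => Equiv.swap i.castSucc i.succ) := by
      rw [Equiv.Perm.mclosure_swap_castSucc_succ]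
      trivial
    induction hπ using Submonoid.closure_induction with
    | mem π hπ =>
      obtain ⟨j, rfl⟩ := hπ
      intro w hw
      rw [hs] at hw
      exact neg_eq_zero.1 hw
    | one => exact fun w hw => hw
    | mul π ρ _ _ i1 i2 => exact fun w hw => i1 w (i2 (w ∘ π) hw)
  intro w
  rw [← hD]
  refine hp (Tuple.sort w) w ?_
  rw [hD]
  exact h2 _ (Tuple.monotone_sort w)

/-- The alternating extension. -/
noncomputable def altA (X : SSet.{u}) (c : X _⦋4⦌ → M) (n : ℕ) (x : X _⦋n⦌)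
    (w : Fin 5 → Fin (n + 1)) : M :=
  ((Equiv.Perm.sign (Tuple.sort w) : ℤˣ) : ℤ) • altEv X c x (w ∘ Tuple.sort w)

theorem altA_mono (X : SSet.{u}) (c : X _⦋4⦌ → M) (n : ℕ) (x : X _⦋n⦌)
    {w : Fin 5 → Fin (n + 1)} (hw : Monotone w) : altA X c n x w = altEv X c x w := by
  unfold altA
  rw [Tuple.sort_eq_refl_iff_monotone.2 hw]
  simp

theorem altA_deg (X : SSet.{u}) (c : X _⦋4⦌ → M)
    (hn : ∀ (i : Fin 4) (y : X _⦋3⦌), c (X.σ i y) = 0) (n : ℕ) (x : X _⦋n⦌)
    (w : Fin 5 → Fin (n + 1)) (hw : ¬ Function.Injective w) : altA X c n x w = 0 := by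
  unfold altA
  have h1 : ¬ StrictMono (w ∘ Tuple.sort w) := fun h =>
    hw ((Equiv.injective_comp (Tuple.sort w) w).1 h.injective)
  rw [Fin.strictMono_iff_lt_succ] at h1
  push Not at h1
  obtain ⟨i, hi⟩ := h1
  rw [altEv_deg X c (hn i) x
    (le_antisymm (Tuple.monotone_sort w (Fin.castSucc_lt_succ (i := i)).le) hi), smul_zero]

theorem altA_perm (X : SSet.{u}) (c : X _⦋4⦌ → M)
    (hn : ∀ (i : Fin 4) (y : X _⦋3⦌), c (X.σ i y) = 0) (n : ℕ) (x : X _⦋n⦌)
    (w : Fin 5 → Fin (n + 1)) (π : Equiv.Perm (Fin 5)) :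
    ((Equiv.Perm.sign π : ℤˣ) : ℤ) • altA X c n x (w ∘ π) = altA X c n x w := by
  by_cases hw : Function.Injective w
  · have e1 := Tuple.comp_perm_comp_sort_eq_comp_sort (f := w) (σ := π)
    have e2 : π * Tuple.sort (w ∘ π) = Tuple.sort w := by
      ext a : 1
      exact hw (congrFun e1 a)
    unfold altA
    rw [e1, smul_smul, ← Units.val_mul, ← map_mul, e2]
  · rw [altA_deg X c hn n x w hw,
      altA_deg X c hn n x _ (fun h => hw ((Equiv.injective_comp π w).1 h)), smul_zero]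

/-- Alternating extension of a normalised cocycle. -/
theorem exists_alt (X : SSet.{u}) (c : X _⦋4⦌ → M) (hc : ∀ y, (sssOf X).cob (n := 4) c y = 0)
    (hn : ∀ (i : Fin 4) (y : X _⦋3⦌), c (X.σ i y) = 0) :
    ∃ A : ∀ n : ℕ, X _⦋n⦌ → (Fin 5 → Fin (n + 1)) → M,
      (∀ n x, IsTupCoc (A n x)) ∧
      (∀ n x v, ¬ Function.Injective v → A n x v = 0) ∧
      (∀ (m n : ℕ) (θ : (⦋m⦌ : SimplexCategory) ⟶ ⦋n⦌) (x : X _⦋n⦌) v,
        A m (X.map θ.op x) v = A n x (θ.toOrderHom ∘ v)) ∧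
      ∀ x, A 4 x id = c x := by
  refine ⟨altA X c, fun n x => alt_tup _ (fun w a => ?_) (fun w hw => ?_), altA_deg X c hn,
    fun m n θ x w => ?_, fun x => ?_⟩
  · rw [← altA_perm X c hn n x w (Equiv.swap a.castSucc a.succ),
      Equiv.Perm.sign_swap (Fin.castSucc_lt_succ (i := a)).ne]
    simp
  · rw [← altEv_coc X c hc x hw]
    refine Finset.sum_congr rfl fun i _ => ?_
    rw [altA_mono X c n x (hw.comp (Fin.strictMono_succAbove i).monotone)]
  · refine Eq.trans ?_ (altA_perm X c hn n x (θ.toOrderHom ∘ w) (Tuple.sort w))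
    have hm : Monotone ((θ.toOrderHom ∘ w) ∘ Tuple.sort w) :=
      θ.toOrderHom.monotone.comp (Tuple.monotone_sort w)
    have e := altA_mono X c n x hm
    rw [e]
    unfold altA
    rw [altEv_map X c θ x (Tuple.monotone_sort w)]
    rfl
  · rw [altA_mono X c 4 x monotone_id]
    exact (altEv_hom X c x OrderHom.id).symm.trans (congrArg c (altRes_id X x))

end Vale.Agent.P178
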