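import Mathlib

/-!
P178: inhomogeneous cocycles of monoids with trivial coefficients, and the torus pairing.
-/

namespace Vale.Agent.P178

universe u v

section
variable {G : Type u} {M : Type v} [AddCommGroup M]

/-- 1-cocycles. -/
def IsCoc1 [Mul G] (o : G → M) : Prop := ∀ g h, o h - o (g * h) + o g = 0

/-- 2-cocycles. -/
def IsCoc2 [Mul G] (o : G → G → M) : Prop :=
  ∀ g h k, o h k - o (g * h) k + o g (h * k) - o g h = 0

/-- 3-cocycles. -/
def IsCoc3 [Mul G] (o : G → G → G → M) : Prop :=
  ∀ g h k l, o h k l - o (g * h) k l + o g (h * k) l - o g h (k * l) + o g h k = 0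

/-- Every 1-cocycle with values in an abelian group (universe `v`) vanishes. -/
def H1Zero (G : Type u) [Mul G] : Prop :=
  ∀ (M : Type v) [AddCommGroup M] (o : G → M), IsCoc1 o → ∀ g, o g = 0

/-- Every 2-cocycle with values in an abelian group (universe `v`) is a coboundary. -/
def H2Zero (G : Type u) [Mul G] : Prop :=
  ∀ (M : Type v) [AddCommGroup M] (o : G → G → M), IsCoc2 o →
    ∃ b : G → M, ∀ g h, o g h = b h - b (g * h) + b g

/-- Value of a 3-cochain on the torus chain. -/
def tau (o : G → G → G → M) (g h k : G) : M :=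
  o g h k - o g k h - o h g k + o h k g + o k g h - o k h g

theorem tau_swap12 (o : G → G → G → M) (g h k : G) : tau o h g k = - tau o g h k := by
  unfold tau; abel

theorem tau_swap23 (o : G → G → G → M) (g h k : G) : tau o g k h = - tau o g h k := by
  unfold tau; abel

theorem tau_self23 (o : G → G → G → M) (g h : G) : tau o g h h = 0 := by
  unfold tau; abel

theorem IsCoc3.comp {H : Type*} [Mul G] [Mul H] {o : G → G → G → M} (ho : IsCoc3 o)
    (f : H → G) (hf : ∀ a b, f (a * b) = f a * f b) :
    IsCoc3 (fun a b c => o (f a) (f b) (f c)) := by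
  intro a b c d
  simpa [hf] using ho (f a) (f b) (f c) (f d)

variable [Monoid G] {o : G → G → G → M}

/-- Additivity in the first variable on the centraliser of the other two. -/
theorem tau_mul (ho : IsCoc3 o) {g g' h k : G} (hk : Commute h k) (gh : Commute g h)
    (gk : Commute g k) (g'h : Commute g' h) (g'k : Commute g' k) :
    tau o (g * g') h k = tau o g h k + tau o g' h k := by
  have e1 := ho g g' h k
  have e2 := ho g g' k h
  have e3 := ho g h g' k
  have e4 := ho g k g' h
  have e5 := ho g h k g'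
  have e6 := ho g k h g'
  have e7 := ho h g g' k
  have e8 := ho k g g' h
  have e9 := ho h g k g'
  have e10 := ho k g h g'
  have e11 := ho h k g g'
  have e12 := ho k h g g'
  simp only [← hk.eq, ← gh.eq, ← gk.eq, ← g'h.eq, ← g'k.eq] at e1 e2 e3 e4 e5 e6 e7 e8 e9 e10 e11 e12
  unfold tau
  linear_combination (norm := abel1) -e1 + e2 + e3 - e4 - e5 + e6 - e7 + e8 + e9 - e10 - e11 + e12

/-- If `ρ : H → G` has image commuting with `k` and `H² (H) = 0`, torus classes of commuting
pairs of `H` with `k` vanish. -/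
theorem tau_eq_zero_of_H2Zero (ho : IsCoc3 o) {H : Type*} [Monoid H] (hH : H2Zero.{_, v} H)
    (ρ : H →* G) {k : G} (hk : ∀ a, Commute (ρ a) k) {a b : H} (hab : Commute a b) :
    tau o (ρ a) (ρ b) k = 0 := by
  obtain ⟨β, hβ⟩ := hH M (fun x y => o k (ρ x) (ρ y) - o (ρ x) k (ρ y) + o (ρ x) (ρ y) k) (by
    intro x y z
    have e1 := ho k (ρ x) (ρ y) (ρ z)
    have e2 := ho (ρ x) k (ρ y) (ρ z)
    have e3 := ho (ρ x) (ρ y) k (ρ z)
    have e4 := ho (ρ x) (ρ y) (ρ z) k
    simp only [← (hk x).eq, ← (hk y).eq, ← (hk z).eq] at e1 e2 e3 e4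
    simp only [map_mul]
    linear_combination (norm := abel1) -e1 + e2 - e3 + e4)
  have e1 := hβ a b
  have e2 := hβ b a
  rw [← hab.eq] at e2
  unfold tau
  linear_combination (norm := abel1) e1 - e2

/-- Intertwined endomorphisms give the same torus pairing. -/
theorem tau_intertwine (ho : IsCoc3 o) (φ : G → G) (hφ : ∀ a b, φ (a * b) = φ a * φ b) (e : G)
    (he : ∀ a, a * e = e * φ a) {g h k : G} (gh : Commute g h) (gk : Commute g k)
    (hk : Commute h k) : tau o (φ g) (φ h) (φ k) = tau o g h k := by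
  have key : ∀ a b c, o (φ a) (φ b) (φ c) - o a b c =
      (o e (φ b) (φ c) - o b e (φ c) + o b c e) -
      (o e (φ (a * b)) (φ c) - o (a * b) e (φ c) + o (a * b) c e) +
      (o e (φ a) (φ (b * c)) - o a e (φ (b * c)) + o a (b * c) e) -
      (o e (φ a) (φ b) - o a e (φ b) + o a b e) := by
    intro a b c
    have e1 := ho e (φ a) (φ b) (φ c)
    have e2 := ho a e (φ b) (φ c)
    have e3 := ho a b e (φ c)
    have e4 := ho a b c e
    simp only [he] at e2 e3 e4
    simp only [hφ]
    linear_combination (norm := abel1) e1 - e2 + e3 - e4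
  have k1 := key g h k
  have k2 := key g k h
  have k3 := key h g k
  have k4 := key h k g
  have k5 := key k g h
  have k6 := key k h g
  simp only [← gh.eq, ← gk.eq, ← hk.eq] at k1 k2 k3 k4 k5 k6
  unfold tau
  linear_combination (norm := abel1) k1 - k2 - k3 + k4 + k5 - k6

end

/-- The monoid `G ⊔ H` attached to `ι : G →* H` (a one object model of the mapping cylinder). -/
def Cyl {G H : Type u} [Group G] [Group H] (_ι : G →* H) : Type u := G ⊕ H

namespace Cyl
variable {G H : Type u} [Group G] [Group H] (ι : G →* H)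

/-- The projection to `H`. -/
def pr : Cyl ι → H := Sum.elim ι id

instance : Monoid (Cyl ι) where
  mul a b := match a, b with
    | Sum.inl g, Sum.inl g' => Sum.inl (g * g')
    | a, b => Sum.inr (pr ι a * pr ι b)
  one := Sum.inl 1
  mul_assoc := by
    rintro (a | a) (b | b) (c | c)
    · exact congrArg Sum.inl (mul_assoc a b c)
    · exact congrArg Sum.inr (show ι (a * b) * c = ι a * (ι b * c) by rw [map_mul, mul_assoc])
    · exact congrArg Sum.inr (mul_assoc (ι a) b (ι c))
    · exact congrArg Sum.inr (mul_assoc (ι a) b c)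
    · exact congrArg Sum.inr (show a * ι b * ι c = a * ι (b * c) by rw [map_mul, mul_assoc])
    · exact congrArg Sum.inr (mul_assoc a (ι b) c)
    · exact congrArg Sum.inr (mul_assoc a b (ι c))
    · exact congrArg Sum.inr (mul_assoc a b c)
  one_mul := by
    rintro (a | a)
    · exact congrArg Sum.inl (one_mul a)
    · exact congrArg Sum.inr (show ι 1 * a = a by simp)
  mul_one := by
    rintro (a | a)
    · exact congrArg Sum.inl (mul_one a)
    · exact congrArg Sum.inr (show a * ι 1 = a by simp)

/-- Inclusion of `G`. -/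
def inl : G →* Cyl ι where
  toFun g := Sum.inl g
  map_one' := rfl
  map_mul' _ _ := rfl

theorem inl_injective : Function.Injective (inl ι) := fun _ _ h => Sum.inl_injective h

/-- The projection as a monoid homomorphism. -/
def prHom : Cyl ι →* H where
  toFun := pr ι
  map_one' := ι.map_one
  map_mul' := by
    rintro (a | a) (b | b)
    · exact ι.map_mul a b
    · rfl
    · rfl
    · rfl

@[simp] theorem prHom_inl (g : G) : prHom ι (inl ι g) = ι g := rfl

/-- Inclusion of `H` (multiplicative, not unital). -/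
def inr (h : H) : Cyl ι := Sum.inr h

theorem inr_mul (a b : H) : inr ι (a * b) = inr ι a * inr ι b := rfl

theorem mul_e (x : Cyl ι) : x * inr ι 1 = inr ι 1 * inr ι (prHom ι x) := by
  rcases x with a | a
  · exact congrArg Sum.inr (show ι a * 1 = 1 * ι a by simp)
  · exact congrArg Sum.inr (show a * 1 = 1 * a by simp)

theorem h1Zero (hG : H1Zero.{_, v} G) (hH : H1Zero.{_, v} H) : H1Zero.{_, v} (Cyl ι) := by
  intro M _ o ho x
  rcases x with a | a
  · exact hG M (fun g => o (inl ι g)) (fun g g' => ho (inl ι g) (inl ι g')) a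
  · exact hH M (fun g => o (inr ι g)) (fun g g' => ho (inr ι g) (inr ι g')) a

theorem h2_rel (hG : H1Zero.{_, v} G) (hH : H2Zero.{_, v} H) {M : Type v} [AddCommGroup M]
    (o : Cyl ι → Cyl ι → M) (ho : IsCoc2 o) (h0 : ∀ g g', o (inl ι g) (inl ι g') = 0) :
    ∃ b : Cyl ι → M, (∀ g, b (inl ι g) = 0) ∧ ∀ x y, o x y = b y - b (x * y) + b x := by
  obtain ⟨β, hβ⟩ := hH M (fun a b => o (inr ι a) (inr ι b))
    (fun a b c => ho (inr ι a) (inr ι b) (inr ι c))
  let b : Cyl ι → M := fun x =>
    β (prHom ι x) + o x (inr ι 1) - o (inr ι 1) (inr ι (prHom ι x))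
  have hb : ∀ x y, o x y = b y - b (x * y) + b x := by
    intro x y
    have e1 := ho (inr ι 1) (inr ι (prHom ι x)) (inr ι (prHom ι y))
    have e2 := ho x (inr ι 1) (inr ι (prHom ι y))
    have e3 := ho x y (inr ι 1)
    have e4 := hβ (prHom ι x) (prHom ι y)
    simp only [mul_e] at e2 e3
    simp only [b, map_mul, inr_mul]
    linear_combination (norm := abel1) -e1 + e2 - e3 + e4
  refine ⟨b, hG M (fun g => b (inl ι g)) (fun g g' => ?_), hb⟩
  beta_reduce
  rw [map_mul, ← hb, h0]

/-- If all 3-cocycles of `H` kill the image torus, then all 3-cocycles of the cylinder kill the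
torus of `G`. -/
theorem tau_inl {M : Type v} [AddCommGroup M] {g h k : G} (gh : Commute g h) (gk : Commute g k)
    (hk : Commute h k)
    (hH : ∀ o' : H → H → H → M, IsCoc3 o' → tau o' (ι g) (ι h) (ι k) = 0)
    (o : Cyl ι → Cyl ι → Cyl ι → M) (ho : IsCoc3 o) :
    tau o (inl ι g) (inl ι h) (inl ι k) = 0 := by
  rw [← tau_intertwine ho (fun x => inr ι (prHom ι x)) (fun a b => by rw [map_mul, inr_mul])
    (inr ι 1) (mul_e ι) (gh.map _) (gk.map _) (hk.map _)]
  exact hH (fun a b c => o (inr ι a) (inr ι b) (inr ι c)) (ho.comp _ (inr_mul ι))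

end Cyl

end Vale.Agent.P178
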