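import Vale.Agent.P178.Stage
import Vale.Agent.P178.Coc

/-!
P178: nerves of monoids and inhomogeneous cochains.
-/

namespace Vale.Agent.P178

open CategoryTheory

universe v

/-- The one object category of a monoid, with diagrammatic composition. -/
def BM (G : Type) [Monoid G] : Type := Unit

instance (G : Type) [Monoid G] : Category (BM G) where
  Hom _ _ := G
  id _ := (1 : G)
  comp f g := (f * g : G)
  id_comp := one_mul
  comp_id := mul_one
  assoc := mul_assoc

/-- The object. -/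
def BM.pt (G : Type) [Monoid G] : BM G := ()

variable {G H : Type} [Monoid G] [Monoid H]

/-- Elements as morphisms. -/
def BM.hom (g : G) : BM.pt G ⟶ BM.pt G := g

/-- The functor induced by a homomorphism. -/
def bmMap (f : G →* H) : BM G ⥤ BM H where
  obj _ := BM.pt H
  map g := f g
  map_id _ := f.map_one
  map_comp a b := f.map_mul a b

/-- The semi-simplicial set of a monoid. -/
abbrev barS (G : Type) [Monoid G] : SSS.{0} := sssOf (nerve (BM G))

/-- The edges of a simplex. -/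
def barEdge {n : ℕ} (y : ComposableArrows (BM G) n) (i : ℕ) (hi : i < n) : G := y.map' i (i + 1)

theorem bar_ext {n : ℕ} {y y' : ComposableArrows (BM G) n}
    (h : ∀ i hi, barEdge y i hi = barEdge y' i hi) : y = y' :=
  ComposableArrows.ext (fun _ => rfl) fun i hi =>
    (h i hi).trans ((one_mul _).symm.trans (congrArg (1 * ·) (mul_one _).symm))

instance : Subsingleton ((barS G).Y 0) :=
  ⟨fun _ _ => bar_ext fun _ hi => absurd hi (Nat.not_lt_zero _)⟩

/-- 1-simplices. -/
def bar1 (g : G) : (barS G).Y 1 := ComposableArrows.mk₁ (BM.hom g)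

/-- 2-simplices. -/
def bar2 (g h : G) : (barS G).Y 2 := ComposableArrows.mk₂ (BM.hom g) (BM.hom h)

/-- 4-simplices. -/
def bar4 (g h k l : G) : (barS G).Y 4 :=
  ComposableArrows.mk₄ (BM.hom g) (BM.hom h) (BM.hom k) (BM.hom l)

/-- 3-simplices. -/
def bar3 (g h k : G) : (barS G).Y 3 :=
  ComposableArrows.mk₃ (BM.hom g) (BM.hom h) (BM.hom k)

/-- An injective homomorphism gives an embedding. -/
def barEmb (f : G →* H) (hf : Function.Injective f) : SSSEmb (barS G) (barS H) where
  j _ y := (nerveMap (bmMap f)).app _ y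
  inj _ _ _ h := bar_ext fun i hi => hf (congrArg (fun y => barEdge y i hi) h)
  d_j _ _ _ := rfl
  surj0 _ := ⟨ComposableArrows.mk₀ (BM.pt G), Subsingleton.elim _ _⟩

theorem barEmb_bar3 (f : G →* H) (hf : Function.Injective f) (g h k : G) :
    (barEmb f hf).j 3 (bar3 g h k) = bar3 (f g) (f h) (f k) := by
  refine bar_ext fun i hi => ?_
  interval_cases i <;> rfl

theorem barEmb_bar2 (f : G →* H) (hf : Function.Injective f) (g h : G) :
    (barEmb f hf).j 2 (bar2 g h) = bar2 (f g) (f h) := by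
  refine bar_ext fun i hi => ?_
  interval_cases i <;> rfl

theorem bar1_eq (y : (barS G).Y 1) : y = bar1 (barEdge y 0 one_pos) := by
  refine bar_ext fun i hi => ?_
  interval_cases i
  rfl

theorem bar2_eq (y : (barS G).Y 2) : y = bar2 (barEdge y 0 two_pos) (barEdge y 1 one_lt_two) := by
  refine bar_ext fun i hi => ?_
  interval_cases i <;> rfl

theorem cob_bar2 {M : Type v} [AddCommGroup M] (o : (barS G).Y 1 → M) (g h : G) :
    (barS G).cob o (bar2 g h) = o (bar1 h) - o (bar1 (g * h)) + o (bar1 g) := by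
  have e0 : (barS G).d 0 (bar2 g h) = bar1 h := bar1_eq _
  have e1 : (barS G).d 1 (bar2 g h) = bar1 (g * h) := bar1_eq _
  have e2 : (barS G).d 2 (bar2 g h) = bar1 g := bar1_eq _
  rw [SSS.cob, Fin.sum_univ_three, e0, e1, e2]
  norm_num [sub_eq_add_neg]

theorem cob_bar3 {M : Type v} [AddCommGroup M] (o : (barS G).Y 2 → M) (g h k : G) :
    (barS G).cob o (bar3 g h k)
      = o (bar2 h k) - o (bar2 (g * h) k) + o (bar2 g (h * k)) - o (bar2 g h) := by
  have e0 : (barS G).d 0 (bar3 g h k) = bar2 h k := bar2_eq _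
  have e1 : (barS G).d 1 (bar3 g h k) = bar2 (g * h) k := bar2_eq _
  have e2 : (barS G).d 2 (bar3 g h k) = bar2 g (h * k) := bar2_eq _
  have e3 : (barS G).d 3 (bar3 g h k) = bar2 g h := bar2_eq _
  rw [SSS.cob, Fin.sum_univ_four, e0, e1, e2, e3]
  norm_num [sub_eq_add_neg]

theorem bar3_eq (y : (barS G).Y 3) : y = bar3 (barEdge y 0 (by norm_num))
    (barEdge y 1 (by norm_num)) (barEdge y 2 (by norm_num)) := by
  refine bar_ext fun i hi => ?_
  interval_cases i <;> rfl

theorem cob_bar4 {M : Type v} [AddCommGroup M] (o : (barS G).Y 3 → M) (g h k l : G) :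
    (barS G).cob o (bar4 g h k l) = o (bar3 h k l) - o (bar3 (g * h) k l)
      + o (bar3 g (h * k) l) - o (bar3 g h (k * l)) + o (bar3 g h k) := by
  have e0 : (barS G).d 0 (bar4 g h k l) = bar3 h k l := bar3_eq _
  have e1 : (barS G).d 1 (bar4 g h k l) = bar3 (g * h) k l := bar3_eq _
  have e2 : (barS G).d 2 (bar4 g h k l) = bar3 g (h * k) l := bar3_eq _
  have e3 : (barS G).d 3 (bar4 g h k l) = bar3 g h (k * l) := bar3_eq _
  have e4 : (barS G).d 4 (bar4 g h k l) = bar3 g h k := bar3_eq _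
  rw [SSS.cob, Fin.sum_univ_five, e0, e1, e2, e3, e4]
  norm_num [sub_eq_add_neg]

theorem isCoc2_bar {M : Type v} [AddCommGroup M] (o : (barS G).Y 2 → M)
    (ho : ∀ y, (barS G).cob o y = 0) : IsCoc2 fun g h => o (bar2 g h) :=
  fun g h k => (cob_bar3 o g h k).symm.trans (ho _)

theorem eq_cob_bar {M : Type v} [AddCommGroup M] (o : (barS G).Y 2 → M) (b : G → M)
    (hb : ∀ g h, o (bar2 g h) = b h - b (g * h) + b g) (y : (barS G).Y 2) :
    o y = (barS G).cob (fun y : (barS G).Y 1 => b (barEdge y 0 one_pos)) y := by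
  rw [bar2_eq y, cob_bar2]
  exact hb _ _

theorem bar_h1 (hG : H1Zero.{_, v} G) (M : Type v) [AddCommGroup M] (o : (barS G).Y 1 → M)
    (ho : ∀ y, (barS G).cob o y = 0) (y : (barS G).Y 1) : o y = 0 := by
  rw [bar1_eq y]
  exact hG M (fun g => o (bar1 g)) (fun g h => (cob_bar2 o g h).symm.trans (ho _)) _

theorem bar_h2 (hG : H2Zero.{_, v} G) (M : Type v) [AddCommGroup M] (o : (barS G).Y 2 → M)
    (ho : ∀ y, (barS G).cob o y = 0) : ∃ β : (barS G).Y 1 → M, ∀ y, o y = (barS G).cob β y := by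
  obtain ⟨b, hb⟩ := hG M _ (isCoc2_bar o ho)
  exact ⟨_, eq_cob_bar o b hb⟩

theorem bar_h2_rel {G H : Type} [Group G] [Group H] (ι : G →* H) (hG : H1Zero.{_, v} G)
    (hH : H2Zero.{_, v} H) (M : Type v) [AddCommGroup M] (o : (barS (Cyl ι)).Y 2 → M)
    (ho : ∀ y, (barS (Cyl ι)).cob o y = 0)
    (h0 : ∀ y, o ((barEmb (Cyl.inl ι) (Cyl.inl_injective ι)).j 2 y) = 0) :
    ∃ β : (barS (Cyl ι)).Y 1 → M, (∀ y, β ((barEmb (Cyl.inl ι) (Cyl.inl_injective ι)).j 1 y) = 0) ∧
      ∀ y, o y = (barS (Cyl ι)).cob β y := by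
  obtain ⟨b, hb0, hb⟩ := Cyl.h2_rel ι hG hH _ (isCoc2_bar o ho) fun g g' => by
    have h := h0 (bar2 g g')
    rwa [barEmb_bar2] at h
  exact ⟨_, fun y => hb0 (barEdge y 0 one_pos), eq_cob_bar o b hb⟩

theorem isCoc3_bar {M : Type v} [AddCommGroup M] (o : (barS G).Y 3 → M)
    (ho : ∀ y, (barS G).cob o y = 0) : IsCoc3 fun g h k => o (bar3 g h k) :=
  fun g h k l => (cob_bar4 o g h k l).symm.trans (ho _)

/-- The torus chain. -/
noncomputable def torus (g h k : G) : (barS G).Y 3 →₀ ℤ :=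
  tau (fun a b c => Finsupp.single (bar3 a b c) (1 : ℤ)) g h k

theorem pairing_torus {M : Type v} [AddCommGroup M] (o : (barS G).Y 3 → M) (g h k : G) :
    pairing (torus g h k) o = tau (fun a b c => o (bar3 a b c)) g h k := by
  show Finsupp.linearCombination ℤ o (torus g h k) = _
  simp only [torus, tau, map_add, map_sub, Finsupp.linearCombination_single, one_smul]

theorem torus_isCycle {g h k : G} (gh : Commute g h) (gk : Commute g k) (hk : Commute h k) :
    (barS G).IsCycle (n := 2) (torus g h k) := by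
  rw [SSS.IsCycle, pairing_torus]
  simp only [tau, cob_bar3, ← gh.eq, ← gk.eq, ← hk.eq]
  abel

end Vale.Agent.P178
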