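import Vale.Agent.P178.RingAux

/-!
P178: the regular local ring of the counterexample.
`A = ℤ[a,y,z]/(ζ² + ζ + 1)` localised at `(3, a - 1, y, z)`, where `ζ = a³ + y z`.
`B = ℤ[x]/(x⁶ + 3, 3 x)`, `a ↦ 1 + x`, `y, z ↦ 0`; the three partial derivatives descend to
derivations `A → B`.
-/

namespace Vale.Agent.P178

/-- logarithmic derivative of a unit -/
def dlog {A B : Type} [CommRing A] [CommRing B] [Algebra A B] (D : Derivation ℤ A B) (u : Aˣ) : B :=
  algebraMap A B ((u⁻¹ : Aˣ) : A) * D (u : A)

/-- The data of the counterexample. -/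
structure RingData where
  A : Type
  B : Type
  [ringA : CommRing A]
  [ringB : CommRing B]
  [alg : Algebra A B]
  [reg : IsRegularLocalRing A]
  [dom : IsDomain A]
  [locB : IsLocalRing B]
  D : Fin 3 → Derivation ℤ A B
  u : Aˣ
  t : Aˣ
  z : Aˣ
  a : Aˣ
  y : A
  two_ne : (2 : A) ≠ 0
  three_ne : (3 : A) ≠ 0
  y_ne : y ≠ 0
  hz : z ^ 3 = 1
  hy : y + t = 1
  hu : (u : A) * y + ((t * a ^ 3 * z⁻¹ : Aˣ) : A) = 1
  det_ne : 4 * Matrix.det (Matrix.of fun i j : Fin 3 => dlog (D i) (![u, t, z] j)) ≠ 0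

attribute [instance] RingData.ringA RingData.ringB RingData.alg RingData.reg RingData.dom
  RingData.locB

noncomputable instance : Algebra AR BR :=
  (IsLocalization.lift (M := mC.primeCompl) (g := toB) fun c => toB_unit c.1 c.2).toAlgebra

theorem algebraMap_AB (c : CR) : algebraMap AR BR (algebraMap CR AR c) = toB c :=
  IsLocalization.lift_eq (M := mC.primeCompl) _ c

instance : Nontrivial BR := ⟨⟨3, 0, b_three_ne⟩⟩

instance : IsLocalRing BR := by
  refine IsLocalRing.of_surjective' (algebraMap AR BR) fun b => ?_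
  obtain ⟨p, rfl⟩ := Ideal.Quotient.mk_surjective b
  refine ⟨algebraMap CR AR (Polynomial.aeval cx p), ?_⟩
  rw [algebraMap_AB]
  have : toB.comp (Polynomial.aeval cx : Polynomial ℤ →ₐ[ℤ] CR).toRingHom =
      Ideal.Quotient.mk _ := by
    ext
    · simp
    · simp [toB, bx]
  exact DFunLike.congr_fun this p

/-- derivations over the integers -/
abbrev DerZ (A B : Type) [CommRing A] [CommRing B] [Algebra A B] : Type := Derivation ℤ A B

open TrivSqZeroExt in
/-- The derivation attached to a homomorphism to the dual numbers. -/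
def derOfHom {A B : Type} [CommRing A] [CommRing B] [Algebra A B] (τ : A →+* TrivSqZeroExt B B)
    (h : ∀ a, (τ a).fst = algebraMap A B a) : DerZ A B :=
  Derivation.mk' ((sndHom B B).toAddMonoidHom.comp τ.toAddMonoidHom).toIntLinearMap fun a b => by
    change (τ (a * b)).snd = a • (τ b).snd + b • (τ a).snd
    rw [map_mul, snd_mul, h, h, Algebra.smul_def a, Algebra.smul_def b]
    simp [mul_comm]

open TrivSqZeroExt in
theorem exists_deriv (e : Fin 3 → BR) : ∃ D : DerZ AR BR,
    D (algebraMap CR AR cx) = e 0 ∧ D (algebraMap CR AR cy) = e 1 ∧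
      D (algebraMap CR AR cz) = e 2 := by
  let σ : CR →+* TrivSqZeroExt BR BR := liftC (inl bx + inr (e 0)) (inr (e 1)) (inr (e 2)) (by
    ext
    · simpa using b_rel
    · simp [snd_pow]
      linear_combination (e 0) * b_nine + (e 0) * (2 * (5 + 10 * bx + 10 * bx ^ 2 + 5 * bx ^ 3 +
        bx ^ 4) + 2 + bx) * bx3)
  have hσ : ∀ c, (σ c).fst = toB c := fun c => DFunLike.congr_fun
    (c_hom_ext (f := (fstHom ℤ BR BR).toRingHom.comp σ) (g := toB) (by simp [σ, toB])
      (by simp [σ, toB]) (by simp [σ, toB])) c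
  let τ : AR →+* TrivSqZeroExt BR BR := IsLocalization.lift (S := AR) (P := TrivSqZeroExt BR BR) (M := mC.primeCompl) (g := σ)
    fun c => isUnit_iff_isUnit_fst.2 (by rw [hσ]; exact toB_unit c.1 c.2)
  have hτ : ∀ c, τ (algebraMap CR AR c) = σ c := fun c =>
    IsLocalization.lift_eq (M := mC.primeCompl) _ c
  have hτ' : ∀ a, (τ a).fst = algebraMap AR BR a := fun a => DFunLike.congr_fun
    (IsLocalization.ringHom_ext mC.primeCompl (j := (fstHom ℤ BR BR).toRingHom.comp τ)
      (k := algebraMap AR BR) (RingHom.ext fun c => by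
        change (τ (algebraMap CR AR c)).fst = algebraMap AR BR (algebraMap CR AR c)
        rw [hτ, hσ, algebraMap_AB])) a
  refine ⟨derOfHom τ hτ', ?_, ?_, ?_⟩
  · change (τ _).snd = _
    rw [hτ]; simp [σ]
  · change (τ _).snd = _
    rw [hτ]; simp [σ]
  · change (τ _).snd = _
    rw [hτ]; simp [σ]

theorem unit_of_res (c : CR) (h : resC c = 1) : IsUnit (algebraMap CR AR c) :=
  IsLocalization.map_units (M := mC.primeCompl) AR ⟨c, fun hc => by
    have : resC c = 0 := hc
    rw [h] at this
    exact one_ne_zero this⟩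

theorem exists_ringData : Nonempty RingData := by
  classical
  choose D hx hy hz using fun i : Fin 3 => exists_deriv (Pi.single i 1)
  set x := algebraMap CR AR cx with hxd
  set y := algebraMap CR AR cy with hyd
  set z := algebraMap CR AR cz with hzd
  have bX : algebraMap AR BR x = bx := by rw [hxd, algebraMap_AB]; simp [toB]
  have bY : algebraMap AR BR y = 0 := by rw [hyd, algebraMap_AB]; simp [toB]
  have bZ : algebraMap AR BR z = 0 := by rw [hzd, algebraMap_AB]; simp [toB]
  have rel : ((1 + x) ^ 3 + y * z) ^ 2 + ((1 + x) ^ 3 + y * z) + 1 = 0 := by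
    simpa using congrArg (algebraMap CR AR) c_rel
  obtain ⟨a, ha⟩ := unit_of_res (1 + cx) (by simp [resC])
  obtain ⟨t, ht⟩ := unit_of_res (1 - cy) (by simp [resC])
  obtain ⟨w, hw⟩ := unit_of_res ((1 + cx) ^ 3 + cy * cz) (by simp [resC])
  obtain ⟨u, hu⟩ := unit_of_res (1 + (1 - cy) * cz * ((1 + cx) ^ 3 + cy * cz) ^ 2) (by simp [resC])
  simp only [map_add, map_sub, map_mul, map_pow, map_one, ← hxd, ← hyd, ← hzd] at ha ht hw hu
  have hw3 : w ^ 3 = 1 := by
    ext
    rw [Units.val_pow_eq_pow_val, hw, Units.val_one]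
    linear_combination ((1 + x) ^ 3 + y * z - 1) * rel
  have hwi : ((w⁻¹ : ARˣ) : AR) = ((1 + x) ^ 3 + y * z) ^ 2 := by
    rw [show w⁻¹ = w ^ 2 from inv_eq_of_mul_eq_one_right (by rw [← hw3, pow_succ' w 2]),
      Units.val_pow_eq_pow_val, hw]
  have inj : Function.Injective (algebraMap CR AR) :=
    IsLocalization.injective AR mC.primeCompl_le_nonZeroDivisors
  have h3 : (3 : AR) ≠ 0 := fun h => b_three_ne (by
    simpa [map_ofNat] using congrArg (algebraMap AR BR) h)
  have bu : algebraMap AR BR ((u⁻¹ : ARˣ) : AR) = 1 := by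
    have h1 : algebraMap AR BR (u : AR) = 1 := by simp [hu, bZ]
    have := congrArg (algebraMap AR BR) u.mul_inv
    rwa [map_mul, h1, one_mul, map_one] at this
  have bt : algebraMap AR BR ((t⁻¹ : ARˣ) : AR) = 1 := by
    have h1 : algebraMap AR BR (t : AR) = 1 := by simp [ht, bY]
    have := congrArg (algebraMap AR BR) t.mul_inv
    rwa [map_mul, h1, one_mul, map_one] at this
  have du : ∀ i, dlog (D i) u = (1 + bx) ^ 6 * (Pi.single i 1 : Fin 3 → BR) 2 := by
    intro i
    rw [dlog, bu, hu]
    simp [Derivation.leibniz_pow, Algebra.smul_def, bX, bY, bZ, hz]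
    ring
  have dt : ∀ i, dlog (D i) t = - (Pi.single i 1 : Fin 3 → BR) 1 := by
    intro i
    rw [dlog, bt, ht]
    simp [hy]
  have dw : ∀ i, dlog (D i) w = 3 * (1 + bx) ^ 8 * (Pi.single i 1 : Fin 3 → BR) 0 := by
    intro i
    rw [dlog, hwi, hw]
    simp [Derivation.leibniz_pow, Algebra.smul_def, bX, bY, bZ, hx]
    ring
  refine ⟨{ A := AR, B := BR, D := D, u := u, t := t, z := w, a := a, y := y
            two_ne := fun h => ?_, three_ne := h3, y_ne := fun h => cy_ne (inj (h.trans (map_zero _).symm))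
            hz := hw3, hy := by rw [ht]; ring, hu := ?_, det_ne := ?_ }⟩
  · have : IsUnit (algebraMap CR AR (-2)) := unit_of_res _ (by rw [map_neg, map_ofNat]; rfl)
    rw [map_neg, map_ofNat, h, neg_zero] at this
    exact not_isUnit_zero this
  · rw [Units.val_mul, Units.val_mul, Units.val_pow_eq_pow_val, hwi, hu, ht, ha]
    linear_combination (1 - y) * ((1 + x) ^ 3 + y * z - 1) * rel
  · rw [Matrix.det_fin_three]
    simp only [Matrix.of_apply, Matrix.cons_val_zero, Matrix.cons_val_one, Matrix.cons_val_two,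
      Matrix.head_cons, Matrix.tail_cons, du, dt, dw]
    simp
    intro h
    have h14 : 3 * (1 + bx) ^ 14 = 3 := by
      have : ∀ n : ℕ, 3 * (1 + bx) ^ n = 3 := by
        intro n
        induction n with
        | zero => simp
        | succ n ih => linear_combination (1 + bx) * ih + bx3
      exact this 14
    exact b_three_ne (by linear_combination h - 4 * h14 - b_nine)

end Vale.Agent.P178
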