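import Vale.Agent.P178.Trace
import Vale.Agent.P178.Ring

/-!
P178: connections on projective modules relative to three derivations `A → B`.
-/

namespace Vale.Agent.P178

open CategoryTheory TensorProduct

variable {A B : Type} [CommRing A] [CommRing B] [Algebra A B] (D : Fin 3 → Derivation ℤ A B)
  {M N P : Type} [AddCommGroup M] [Module A M] [AddCommGroup N] [Module A N] [AddCommGroup P]
  [Module A P]

/-- Triples of connections. -/
@[ext] structure Conn (P : Type) [AddCommGroup P] [Module A P] where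
  nab : Fin 3 → (P →+ B ⊗[A] P)
  leib : ∀ i (r : A) x, nab i (r • x) = D i r ⊗ₜ[A] x + r • nab i x

variable {D}

/-- The difference of two connections, as an `A`-linear map. -/
noncomputable def Conn.diffA (c c' : Conn D P) (i : Fin 3) : P →ₗ[A] B ⊗[A] P where
  toFun x := c'.nab i x - c.nab i x
  map_add' x y := by
    rw [map_add, map_add]
    abel
  map_smul' r x := by
    rw [c.leib, c'.leib, RingHom.id_apply, smul_sub]
    abel

/-- The difference of two connections, as a `B`-linear endomorphism. -/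
noncomputable def Conn.diff (c c' : Conn D P) (i : Fin 3) : Module.End B (B ⊗[A] P) :=
  (c.diffA c' i).liftBaseChange B

theorem Conn.diff_one_tmul (c c' : Conn D P) (i : Fin 3) (x : P) :
    c.diff c' i ((1 : B) ⊗ₜ[A] x) = c'.nab i x - c.nab i x := by
  rw [Conn.diff, LinearMap.liftBaseChange_tmul, one_smul]
  rfl

theorem conn_ext {X : Type} [AddCommGroup X] [Module B X] {f g : B ⊗[A] P →ₗ[B] X}
    (h : ∀ x, f ((1 : B) ⊗ₜ[A] x) = g ((1 : B) ⊗ₜ[A] x)) : f = g := by
  refine LinearMap.ext fun y => ?_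
  induction y using TensorProduct.induction_on with
  | zero => rw [map_zero, map_zero]
  | tmul s x =>
    have : s ⊗ₜ[A] x = s • ((1 : B) ⊗ₜ[A] x) := by rw [smul_tmul', smul_eq_mul, mul_one]
    rw [this, map_smul, map_smul, h]
  | add y z hy hz => rw [map_add, map_add, hy, hz]

theorem Conn.diff_self (c : Conn D P) (i : Fin 3) : c.diff c i = 0 :=
  conn_ext fun x => by rw [Conn.diff_one_tmul, sub_self, LinearMap.zero_apply]

theorem Conn.diff_add (c c' c'' : Conn D P) (i : Fin 3) :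
    c.diff c' i + c'.diff c'' i = c.diff c'' i :=
  conn_ext fun x => by
    rw [LinearMap.add_apply, Conn.diff_one_tmul, Conn.diff_one_tmul, Conn.diff_one_tmul]
    abel

/-- The cup product of the three differences. -/
noncomputable def Conn.phi (c₀ c₁ c₂ c₃ : Conn D P) : Module.End B (B ⊗[A] P) :=
  c₀.diff c₁ 0 * c₁.diff c₂ 1 * c₂.diff c₃ 2

theorem Conn.phi_coc (c₀ c₁ c₂ c₃ c₄ : Conn D P) :
    phi c₁ c₂ c₃ c₄ + phi c₀ c₁ c₃ c₄ + phi c₀ c₁ c₂ c₃ = phi c₀ c₂ c₃ c₄ + phi c₀ c₁ c₂ c₄ := by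
  simp only [phi]
  rw [← diff_add c₀ c₁ c₂ 0, ← diff_add c₁ c₂ c₃ 1, ← diff_add c₂ c₃ c₄ 2]
  noncomm_ring

/-- Connections compatible with a linear relation. -/
def ConnRel (Γ : Submodule A (N × M)) (cN : Conn D N) (cM : Conn D M) : Prop :=
  ∀ i, ∀ x ∈ Γ, (cN.nab i x.1, cM.nab i x.2) ∈ relBC B Γ

theorem connRel_id (c : Conn D M) : ConnRel (relId A M) c c := by
  intro i x hx
  rw [relBC_id]
  exact congrArg (c.nab i) hx

theorem ConnRel.comp [Module.Projective A N] {Γ : Submodule A (N × M)} {Γ' : Submodule A (P × N)}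
    (h : IsQRel Γ) (h' : IsQRel Γ') {cM : Conn D M} {cN : Conn D N} {cP : Conn D P}
    (r : ConnRel Γ cN cM) (r' : ConnRel Γ' cP cN) : ConnRel (relComp Γ Γ') cP cM := by
  rintro i x ⟨n, h1, h2⟩
  rw [relBC_comp B h h']
  exact ⟨cN.nab i n, r' i _ h1, r i _ h2⟩

theorem ConnRel.relEnd_diff {Γ : Submodule A (N × M)} {cM cM' : Conn D M} {cN cN' : Conn D N}
    (r : ConnRel Γ cN cM) (r' : ConnRel Γ cN' cM') (i : Fin 3) :
    RelEnd (relBC B Γ) (cN.diff cN' i) (cM.diff cM' i) := by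
  have h : relBC B Γ ≤ (relBC B Γ).comap ((cN.diff cN' i).prodMap (cM.diff cM' i)) := by
    refine Submodule.span_le.2 ?_
    rintro _ ⟨x, hx, rfl⟩
    have := (relBC B Γ).sub_mem (r' i x hx) (r i x hx)
    rw [Prod.mk_sub_mk, ← Conn.diff_one_tmul, ← Conn.diff_one_tmul] at this
    exact this
  exact fun x hx => h hx

/-- The connection attached to a basis. -/
theorem exists_conn_basis {ι : Type} [Fintype ι] (b : Module.Basis ι A P) :
    ∃ c : Conn D P, ∀ i k, c.nab i (b k) = 0 := by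
  classical
  refine ⟨⟨fun i => AddMonoidHom.mk' (fun x => ∑ k, D i (b.repr x k) ⊗ₜ[A] b k) ?_, ?_⟩, ?_⟩
  · intro x y
    simp only [map_add, Finsupp.add_apply, add_tmul, Finset.sum_add_distrib]
  · intro i r x
    simp only [AddMonoidHom.mk'_apply, map_smul, Finsupp.smul_apply, smul_eq_mul,
      Derivation.leibniz, add_tmul, Finset.sum_add_distrib, Finset.smul_sum]
    rw [add_comm]
    congr 1
    · conv_rhs => rw [← b.sum_repr x, tmul_sum]
      exact Finset.sum_congr rfl fun k _ => smul_tmul _ _ _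
  · intro i k
    simp only [AddMonoidHom.mk'_apply, Module.Basis.repr_self]
    refine Finset.sum_eq_zero fun j _ => ?_
    rw [Finsupp.single_apply]
    split_ifs <;> simp

theorem nonempty_conn [IsLocalRing A] [Module.Finite A P] [Module.Projective A P] :
    Nonempty (Conn D P) := by
  have : Module.Free A P := Module.free_of_flat_of_isLocalRing
  obtain ⟨c, -⟩ := exists_conn_basis (D := D) (Module.Free.chooseBasis A P)
  exact ⟨c⟩

theorem conn_mem_relBC (S : Type) [CommRing S] [Algebra A S] {Γ : Submodule A (N × M)}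
    {f : P →ₗ[A] N} {g : P →ₗ[A] M} (h : ∀ x, (f x, g x) ∈ Γ) (y : S ⊗[A] P) :
    (f.baseChange S y, g.baseChange S y) ∈ relBC S Γ := by
  induction y using TensorProduct.induction_on with
  | zero =>
    rw [map_zero, map_zero]
    exact (relBC S Γ).zero_mem
  | tmul s x =>
    have := (relBC S Γ).smul_mem s (Submodule.subset_span ⟨_, h x, rfl⟩)
    simpa [smul_tmul'] using this
  | add y z hy hz =>
    rw [map_add, map_add]
    exact (relBC S Γ).add_mem hy hz

/-- Connections extend along morphisms of `Q`. -/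
theorem exists_connRel [IsLocalRing A] [Module.Finite A M] [Module.Projective A M]
    [Module.Finite A N] [Module.Projective A N] {Γ : Submodule A (N × M)} (h : IsQRel Γ)
    (cM : Conn D M) : ∃ cN : Conn D N, ConnRel Γ cN cM := by
  obtain ⟨c⟩ := nonempty_conn (D := D) (P := N)
  obtain ⟨E, hE⟩ : ∃ E, E = Γ.map (LinearMap.fst A N M) := ⟨_, rfl⟩
  have hadm : Module.Projective A (N ⧸ E) := hE ▸ h.adm
  obtain ⟨σ, hσ⟩ := Module.projective_lifting_property E.mkQ LinearMap.id E.mkQ_surjective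
  have hσ' : ∀ y, E.mkQ (σ y) = y := fun y => LinearMap.congr_fun hσ y
  obtain ⟨s, hs⟩ := Module.projective_lifting_property (LinearMap.snd A N M ∘ₗ Γ.subtype)
    LinearMap.id fun m => by
      obtain ⟨n, hn⟩ := h.surj m
      exact ⟨⟨_, hn⟩, rfl⟩
  obtain ⟨L, hL⟩ := Module.projective_lifting_property
    ((LinearMap.fst A N M ∘ₗ Γ.subtype).codRestrict E fun x => hE ▸ ⟨_, x.2, rfl⟩)
    ((LinearMap.id - σ ∘ₗ E.mkQ).codRestrict E fun x => by
      rw [← Submodule.Quotient.mk_eq_zero, ← Submodule.mkQ_apply]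
      simp only [LinearMap.sub_apply, LinearMap.id_apply, LinearMap.comp_apply, map_sub, hσ',
        sub_self]) (by
      rintro ⟨x, hx⟩
      rw [hE] at hx
      obtain ⟨y, hy, rfl⟩ := hx
      exact ⟨⟨y, hy⟩, rfl⟩)
  obtain ⟨s₁, hs₁⟩ : ∃ s₁ : M →ₗ[A] N, ∀ m, (s₁ m, m) ∈ Γ := by
    refine ⟨LinearMap.fst A N M ∘ₗ Γ.subtype ∘ₗ s, fun m => ?_⟩
    have h1 : (s m).1.2 = m := LinearMap.congr_fun hs m
    have h2 : ((s m).1.1, (s m).1.2) ∈ Γ := (s m).2
    rw [h1] at h2
    exact h2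
  obtain ⟨e, p, h1, h2, h3⟩ : ∃ (e : N →ₗ[A] N) (p : N →ₗ[A] M), (∀ x, (x - e x, p x) ∈ Γ) ∧
      (∀ x, e (e x) = e x) ∧ ∀ x ∈ Γ, e x.1 = 0 := by
    refine ⟨σ ∘ₗ E.mkQ, LinearMap.snd A N M ∘ₗ Γ.subtype ∘ₗ L, fun x => ?_, fun x => ?_,
      fun x hx => ?_⟩
    · have h1 : (L x).1.1 = x - σ (E.mkQ x) := congrArg Subtype.val (LinearMap.congr_fun hL x)
      have h2 : ((L x).1.1, (L x).1.2) ∈ Γ := (L x).2
      rw [h1] at h2
      exact h2
    · simp only [LinearMap.comp_apply, hσ']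
    · have : E.mkQ x.1 = 0 := (Submodule.Quotient.mk_eq_zero E).2 (hE ▸ ⟨_, hx, rfl⟩)
      rw [LinearMap.comp_apply, this, map_zero]
  have h4 : ∀ x ∈ Γ, p x.1 = x.2 := by
    intro x hx
    have := Γ.sub_mem (h1 x.1) hx
    rw [h3 x hx, sub_zero] at this
    refine sub_eq_zero.1 (h.graph _ ?_)
    rw [← sub_self x.1]
    exact this
  have h5 : ∀ x, ((LinearMap.id - e - s₁ ∘ₗ p : N →ₗ[A] N) x, (0 : N →ₗ[A] M) x) ∈ Γ := by
    intro x
    have := Γ.sub_mem (h1 x) (hs₁ (p x))
    rw [Prod.mk_sub_mk, sub_self] at this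
    exact this
  refine ⟨⟨fun i => AddMonoidHom.mk' (fun x =>
    (LinearMap.id - e - s₁ ∘ₗ p : N →ₗ[A] N).baseChange B (c.nab i x)
      + s₁.baseChange B (cM.nab i (p x)) + e.baseChange B (c.nab i (e x))) ?_, ?_⟩, ?_⟩
  · intro x y
    simp only [map_add]
    abel
  · intro i r x
    simp only [AddMonoidHom.mk'_apply, map_smul, c.leib, cM.leib, map_add,
      LinearMap.baseChange_tmul, LinearMap.map_smul_of_tower, smul_add, h2, LinearMap.sub_apply,
      LinearMap.id_apply, LinearMap.comp_apply, tmul_sub]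
    abel
  · intro i x hx
    have := (relBC B Γ).add_mem (conn_mem_relBC B h5 (c.nab i x.1))
      (conn_mem_relBC B (g := LinearMap.id) hs₁ (cM.nab i x.2))
    simpa [h3 x hx, h4 x hx] using this

/-- The graph of an automorphism. -/
def relAut (g : P ≃ₗ[A] P) : Submodule A (P × P) := LinearMap.graph g.toLinearMap

theorem mem_relAut {g : P ≃ₗ[A] P} {x : P × P} : x ∈ relAut g ↔ x.2 = g x.1 :=
  LinearMap.mem_graph_iff _ _

theorem isQRel_relAut (g : P ≃ₗ[A] P) : IsQRel (relAut g) := by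
  refine ⟨fun m hm => (mem_relAut.1 hm).trans (map_zero g),
    fun m => ⟨g.symm m, mem_relAut.2 (g.apply_symm_apply m).symm⟩, ?_⟩
  have : (relAut g).map (LinearMap.fst A P P) = ⊤ :=
    eq_top_iff.2 fun x _ => ⟨(x, g x), mem_relAut.2 rfl, rfl⟩
  rw [this]
  have : Subsingleton (P ⧸ (⊤ : Submodule A P)) := Submodule.Quotient.subsingleton_iff.2 rfl
  infer_instance

theorem relAut_one : relAut (1 : P ≃ₗ[A] P) = relId A P :=
  Submodule.ext fun _ => mem_relAut.trans eq_comm

theorem relAut_mul (g h : P ≃ₗ[A] P) : relAut (g * h) = relComp (relAut g) (relAut h) := by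
  refine Submodule.ext fun x => mem_relAut.trans ⟨fun hx => ⟨h x.1, mem_relAut.2 rfl,
    mem_relAut.2 hx⟩, ?_⟩
  rintro ⟨n, h1, h2⟩
  exact (mem_relAut.1 h2).trans (congrArg g (mem_relAut.1 h1))

theorem relBC_relAut (S : Type) [CommRing S] [Algebra A S] (g : P ≃ₗ[A] P)
    (g' : (S ⊗[A] P) ≃ₗ[S] (S ⊗[A] P)) (h : g'.toLinearMap = g.toLinearMap.baseChange S) :
    relBC S (relAut g) = relAut g' := by
  have h' : ∀ y, g' y = g.toLinearMap.baseChange S y := fun y => LinearMap.congr_fun h y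
  refine le_antisymm (Submodule.span_le.2 ?_) fun y hy => ?_
  · rintro _ ⟨x, hx, rfl⟩
    refine mem_relAut.2 ?_
    rw [h', LinearMap.baseChange_tmul]
    exact congrArg (fun y => (1 : S) ⊗ₜ[A] y) (mem_relAut.1 hx)
  · have := conn_mem_relBC S (Γ := relAut g) (f := LinearMap.id) (g := g.toLinearMap)
      (fun x => mem_relAut.2 rfl) y.1
    rw [← h', ← mem_relAut.1 hy, LinearMap.baseChange_id] at this
    exact this

/-- Transport of a connection along an automorphism. -/
noncomputable def Conn.act (g : P ≃ₗ[A] P) (c : Conn D P) : Conn D P where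
  nab i := ((g.toLinearMap.baseChange B).toAddMonoidHom.comp (c.nab i)).comp
    g.symm.toLinearMap.toAddMonoidHom
  leib i r x := by
    simp [c.leib, LinearMap.map_smul_of_tower]

theorem Conn.act_nab (g : P ≃ₗ[A] P) (c : Conn D P) (i : Fin 3) (x : P) :
    (c.act g).nab i x = g.toLinearMap.baseChange B (c.nab i (g.symm x)) := rfl

theorem connRel_relAut_iff (g : P ≃ₗ[A] P) (cN cM : Conn D P) :
    ConnRel (relAut g) cN cM ↔ cM = cN.act g := by
  have h := relBC_relAut B g (g.baseChange A B P P) rfl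
  unfold ConnRel
  rw [h]
  constructor
  · intro H
    ext i x
    exact mem_relAut.1 (H i (g.symm x, x) (mem_relAut.2 (g.apply_symm_apply x).symm))
  · rintro rfl i x hx
    refine mem_relAut.2 ?_
    rw [mem_relAut.1 hx, Conn.act_nab, g.symm_apply_apply]
    rfl

theorem Conn.act_one (c : Conn D P) : c.act 1 = c := by
  ext i x
  exact LinearMap.congr_fun LinearMap.baseChange_id _

theorem Conn.act_mul (g h : P ≃ₗ[A] P) (c : Conn D P) : c.act (g * h) = (c.act h).act g := by
  ext i x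
  exact LinearMap.congr_fun (LinearMap.baseChange_comp h.toLinearMap g.toLinearMap) _

theorem Conn.diff_act (g : P ≃ₗ[A] P) (c c' : Conn D P) (i : Fin 3) :
    (c.act g).diff (c'.act g) i = (g.baseChange A B P P).conj (c.diff c' i) := by
  refine conn_ext fun x => ?_
  rw [Conn.diff_one_tmul, LinearEquiv.conj_apply_apply, LinearEquiv.baseChange_symm_tmul,
    Conn.diff_one_tmul, map_sub]
  rfl

theorem Conn.trace_phi_act [Module.Free A P] [Module.Finite A P] (g : P ≃ₗ[A] P)
    (c₀ c₁ c₂ c₃ : Conn D P) :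
    LinearMap.trace B _ (phi (c₀.act g) (c₁.act g) (c₂.act g) (c₃.act g)) =
      LinearMap.trace B _ (phi c₀ c₁ c₂ c₃) := by
  simp only [phi, diff_act, Module.End.mul_eq_comp, ← LinearEquiv.conj_comp]
  exact LinearMap.trace_conj' _ _

/-- The group cochain attached to a connection. -/
noncomputable def Conn.gc (c : Conn D P) (g h k : P ≃ₗ[A] P) : B :=
  - LinearMap.trace B _ (phi c (c.act g) (c.act (g * h)) (c.act (g * h * k)))

theorem conn_dlog_mul (d : Derivation ℤ A B) (u v : Aˣ) : dlog d (u * v) = dlog d u + dlog d v := by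
  have hu : algebraMap A B ((u⁻¹ : Aˣ) : A) * algebraMap A B u = 1 := by
    rw [← map_mul, Units.inv_mul, map_one]
  have hv : algebraMap A B ((v⁻¹ : Aˣ) : A) * algebraMap A B v = 1 := by
    rw [← map_mul, Units.inv_mul, map_one]
  simp only [dlog, mul_inv_rev, Units.val_mul, map_mul, Derivation.leibniz, Algebra.smul_def]
  linear_combination algebraMap A B ((v⁻¹ : Aˣ) : A) * d v * hu
    + algebraMap A B ((u⁻¹ : Aˣ) : A) * d u * hv

theorem Conn.act_nab_diag (c : Conn D P) (i : Fin 3) {x : P} (hc : c.nab i x = 0)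
    {g : P ≃ₗ[A] P} {l : Aˣ} (hg : g x = (l : A) • x) :
    (c.act g).nab i x = (-dlog (D i) l) • ((1 : B) ⊗ₜ[A] x) := by
  have h1 : g.symm x = ((l⁻¹ : Aˣ) : A) • x := by
    rw [LinearEquiv.symm_apply_eq, map_smul, hg, smul_smul, Units.inv_mul, one_smul]
  have h2 := (D i).leibniz ((l⁻¹ : Aˣ) : A) (l : A)
  rw [Units.inv_mul, Derivation.map_one_eq_zero] at h2
  rw [act_nab, h1, c.leib, hc, smul_zero, add_zero, LinearMap.baseChange_tmul,
    LinearEquiv.coe_coe, hg, ← smul_tmul, smul_tmul', smul_eq_mul, mul_one, dlog,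
    ← Algebra.smul_def, eq_neg_of_add_eq_zero_right h2.symm]

theorem Conn.diff_diag {c c' : Conn D P} {i : Fin 3} {x : P} {s t : B}
    (h : c.nab i x = s • ((1 : B) ⊗ₜ[A] x)) (h' : c'.nab i x = t • ((1 : B) ⊗ₜ[A] x)) :
    c.diff c' i ((1 : B) ⊗ₜ[A] x) = (t - s) • ((1 : B) ⊗ₜ[A] x) := by
  rw [diff_one_tmul, h, h']
  exact (sub_smul t s ((1 : B) ⊗ₜ[A] x)).symm

/-- Value on diagonal automorphisms. -/
theorem Conn.gc_diag {ι : Type} [Fintype ι] (b : Module.Basis ι A P) (c : Conn D P)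
    (hc : ∀ i k, c.nab i (b k) = 0) (g h k : P ≃ₗ[A] P) (l m n : ι → Aˣ)
    (hg : ∀ j, g (b j) = (l j : A) • b j) (hh : ∀ j, h (b j) = (m j : A) • b j)
    (hk : ∀ j, k (b j) = (n j : A) • b j) :
    c.gc g h k = ∑ j, dlog (D 0) (l j) * dlog (D 1) (m j) * dlog (D 2) (n j) := by
  classical
  have hgh : ∀ j, (g * h) (b j) = ((l j * m j : Aˣ) : A) • b j := fun j => by
    rw [LinearEquiv.mul_apply, hh, map_smul, hg, smul_smul, Units.val_mul, mul_comm]
  have hghk : ∀ j, (g * h * k) (b j) = ((l j * m j * n j : Aˣ) : A) • b j := fun j => by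
    rw [LinearEquiv.mul_apply, hk, map_smul, hgh, smul_smul, Units.val_mul _ (n j), mul_comm]
  have key : ∀ j, phi c (c.act g) (c.act (g * h)) (c.act (g * h * k)) ((1 : B) ⊗ₜ[A] b j)
      = (-(dlog (D 0) (l j) * dlog (D 1) (m j) * dlog (D 2) (n j))) • ((1 : B) ⊗ₜ[A] b j) := by
    intro j
    rw [phi, Module.End.mul_apply, Module.End.mul_apply,
      diff_diag (c.act_nab_diag 2 (hc 2 j) (hgh j)) (c.act_nab_diag 2 (hc 2 j) (hghk j)),
      map_smul, map_smul,
      diff_diag (c.act_nab_diag 1 (hc 1 j) (hg j)) (c.act_nab_diag 1 (hc 1 j) (hgh j)),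
      map_smul, diff_one_tmul,
      c.act_nab_diag 0 (hc 0 j) (hg j), hc, sub_zero, smul_smul, smul_smul,
      conn_dlog_mul _ _ (n j), conn_dlog_mul (D 1)]
    congr 1
    ring
  rw [gc, LinearMap.trace_eq_matrix_trace B (Algebra.TensorProduct.basis B b), Matrix.trace,
    ← Finset.sum_neg_distrib]
  refine Finset.sum_congr rfl fun j _ => ?_
  rw [Matrix.diag_apply, LinearMap.toMatrix_apply, Algebra.TensorProduct.basis_apply, key,
    ← Algebra.TensorProduct.basis_apply, map_smul, Module.Basis.repr_self]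
  simp

end Vale.Agent.P178
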