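import Vale.Agent.P178.Grid

/-!
P178: normalised simplicial 4-cocycles extend to singular cocycles of the geometric realisation.
-/

namespace Vale.Agent.P178

open MeasureTheory

universe u v

variable {M : Type v} [AddCommGroup M]

/-- Boundary of singular chains. -/
noncomputable def singBd {X : Type*} [TopologicalSpace X] {n : ℕ} :
    (C(Dl (n + 1), X) →₀ ℤ) →ₗ[ℤ] (C(Dl n, X) →₀ ℤ) :=
  Finsupp.linearCombination ℤ fun W =>
    ∑ i : Fin (n + 2), (-1 : ℤ) ^ (i : ℕ) • Finsupp.single (dS i W) 1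

theorem dt_vol_union {α : Type*} (S : Set α) (hS : S.Finite) (n : ℕ) (hn : S.ncard ≤ n)
    (Z : α → Set ℝ) (ε : ENNReal) (hZ : ∀ a ∈ S, volume (Z a) ≤ ε) :
    volume (⋃ a ∈ S, Z a) ≤ n * ε := by
  lift S to Finset α using hS
  rw [Set.ncard_coe_finset] at hn
  calc volume (⋃ a ∈ (S : Set α), Z a) ≤ ∑ a ∈ S, volume (Z a) := measure_biUnion_finset_le S Z
    _ ≤ S.card • ε := Finset.sum_le_card_nsmul _ _ _ hZ
    _ ≤ n * ε := by
      rw [nsmul_eq_mul]
      gcongr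

/-- The key of a grid point of a singular simplex. -/
noncomputable def dtKey {X : Type*} [TopologicalSpace X] {N k : ℕ} (σ : C(Dl k, X)) (v : Gr N k) :
    C(Dl N, X) × (Fin (N + 1) → Fin (N + 1) → Prop) :=
  (σ.comp ⟨stdSimplex.map v.1, stdSimplex.continuous_map _⟩, fun i j => v.1 i = v.1 j)

theorem dtKey_face {X : Type*} [TopologicalSpace X] {N k : ℕ} (σ : C(Dl (k + 1), X))
    (i : Fin (k + 2)) (v : Gr N k) : dtKey σ (Gr.face i v) = dtKey (dS i σ) v := by
  refine Prod.ext ?_ ?_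
  · ext1 q
    have e : stdSimplex.map (i.succAbove ∘ v.1) q = face i (stdSimplex.map v.1 q) :=
      (stdSimplex.map_comp_apply v.1 i.succAbove q).symm
    exact congrArg σ e
  · funext a b
    exact propext Fin.succAbove_right_inj

theorem dtKey_card {X : Type*} [TopologicalSpace X] {N k : ℕ} (σ : C(Dl k, X))
    (κ : C(Dl N, X) × (Fin (N + 1) → Fin (N + 1) → Prop)) :
    {v : Gr N k | dtKey σ v = κ}.Finite ∧
      {v : Gr N k | dtKey σ v = κ}.ncard ≤ (k + 1) ^ (k + 1) := by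
  have hfin : Finite (Gr N k) := inferInstanceAs (Finite {v : Fin (N + 1) → Fin (k + 1) // Monotone v})
  refine ⟨Set.toFinite _, ?_⟩
  rcases Set.eq_empty_or_nonempty {v : Gr N k | dtKey σ v = κ} with h | ⟨v₀, h₀⟩
  · rw [h]; simp
  · have key : ∀ v ∈ {v : Gr N k | dtKey σ v = κ}, Function.extend v₀.1 v.1 id ∘ v₀.1 = v.1 := by
      intro v hv
      refine Function.FactorsThrough.extend_comp id (fun a b hab => ?_)
      have e : (dtKey σ v₀).2 a b = (dtKey σ v).2 a b := by rw [h₀, hv]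
      exact e.mp hab
    calc {v : Gr N k | dtKey σ v = κ}.ncard
        ≤ (Set.univ : Set (Fin (k + 1) → Fin (k + 1))).ncard :=
          Set.ncard_le_ncard_of_injOn (fun v => Function.extend v₀.1 v.1 id)
            (fun _ _ => Set.mem_univ _) (fun v hv w hw e => Subtype.ext (by
              rw [← key v hv, ← key w hw]
              exact congrArg (· ∘ v₀.1) e))
      _ = (k + 1) ^ (k + 1) := by simp [Set.ncard_univ]

/-- The set of forbidden labels for a key. -/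
def dtBad {X : Type*} [TopologicalSpace X] {N k : ℕ} (F : Set C(Dl k, X))
    (Z : C(Dl k, X) → Gr N k → Gr N k → Set ℝ)
    (κ : C(Dl N, X) × (Fin (N + 1) → Fin (N + 1) → Prop)) : Set ℝ :=
  ⋃ σ ∈ F, ⋃ v ∈ {v : Gr N k | dtKey σ v = κ}, ⋃ q ∈ {q : Gr N k | v.Adj q},
    ⋃ q' ∈ {q' : Gr N k | q.Adj q'}, Z σ q q'

theorem dtBad_vol {X : Type*} [TopologicalSpace X] {N k : ℕ} (F : Finset C(Dl k, X))
    (Z : C(Dl k, X) → Gr N k → Gr N k → Set ℝ) (ε : ENNReal)
    (hZ : ∀ σ ∈ F, ∀ q q', q.Adj q' → volume (Z σ q q') ≤ ε)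
    (κ : C(Dl N, X) × (Fin (N + 1) → Fin (N + 1) → Prop)) :
    volume (dtBad (F : Set C(Dl k, X)) Z κ) ≤
      (F.card * ((k + 1) ^ (k + 1) * (3 ^ (k + 1) * 3 ^ (k + 1))) : ℕ) * ε := by
  have h := dt_vol_union (F : Set C(Dl k, X)) F.finite_toSet F.card (by simp)
    (fun σ => ⋃ v ∈ {v : Gr N k | dtKey σ v = κ}, ⋃ q ∈ {q : Gr N k | v.Adj q},
      ⋃ q' ∈ {q' : Gr N k | q.Adj q'}, Z σ q q') _ fun σ hσ =>
      dt_vol_union _ (dtKey_card σ κ).1 _ (dtKey_card σ κ).2 _ _ fun v _ =>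
        dt_vol_union _ v.ncard_adj_le.1 _ v.ncard_adj_le.2 _ _ fun q _ =>
          dt_vol_union _ q.ncard_adj_le.1 _ q.ncard_adj_le.2 _ ε fun q' hq' => hZ σ hσ q q' hq'
  refine h.trans (le_of_eq ?_)
  push_cast
  ring

theorem dtBad_mem {X : Type*} [TopologicalSpace X] {N k : ℕ} {F : Set C(Dl k, X)}
    {Z : C(Dl k, X) → Gr N k → Gr N k → Set ℝ} {σ : C(Dl k, X)} (hσ : σ ∈ F) {v q q' : Gr N k}
    (h1 : v.Adj q) (h2 : q.Adj q') : Z σ q q' ⊆ dtBad F Z (dtKey σ v) := by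
  intro x hx
  simp only [dtBad, Set.mem_iUnion]
  exact ⟨σ, hσ, v, rfl, q, h1, q', h2, hx⟩

theorem dt_small (δ : ℝ) (hδ : 0 < δ) : ∀ᶠ N : ℕ in Filter.atTop, 2 / (N + 1 : ℝ) < δ := by
  have h : Filter.Tendsto (fun N : ℕ => 2 * (1 / (N + 1 : ℝ))) Filter.atTop (nhds (2 * 0)) :=
    tendsto_one_div_add_atTop_nhds_zero_nat.const_mul 2
  rw [mul_zero] at h
  filter_upwards [h.eventually (gt_mem_nhds hδ)] with N hN
  rwa [mul_one_div] at hN

theorem dt_unif {X : Type*} [PseudoEMetricSpace X] {k : ℕ} (σ : C(Dl k, X)) (ε : ENNReal)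
    (hε : 0 < ε) : ∀ᶠ N : ℕ in Filter.atTop, ∀ q q' : Gr N k, q.Adj q' →
      edist (σ q.pt) (σ q'.pt) < ε := by
  have hu : UniformContinuous σ := CompactSpace.uniformContinuous_of_continuous σ.continuous
  have h := hu (edist_mem_uniformity hε)
  obtain ⟨δ, hδ, h⟩ := Metric.mem_uniformity_dist.1 (Filter.mem_map.1 h)
  filter_upwards [dt_small δ hδ] with N hN q q' hq
  exact h ((Gr.dist_pt_le hq).trans_lt hN)

theorem dt_jIdx (k : ℕ) (ε : ENNReal) (hε : 0 < ε) : ∀ᶠ N : ℕ in Filter.atTop,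
    ∀ q q' : Gr N k, q.Adj q' → ∃ Z : Set ℝ, volume Z ≤ ε ∧
      ∀ u : JI, (u : ℝ) ∉ Z → jIdx q.pt u = jIdx q'.pt u := by
  obtain ⟨δ, -, hδ, hδε⟩ := ENNReal.lt_iff_exists_real_btwn.1 hε
  have hδ' : 0 < δ := ENNReal.ofReal_pos.1 hδ
  have hc : (0 : ℝ) < ((k + 2) * (k + 1) : ℕ) := by positivity
  filter_upwards [dt_small (δ / ((k + 2) * (k + 1) : ℕ)) (by positivity)] with N hN q q' hq
  obtain ⟨Z, h1, h2⟩ := exists_jIdx_agree q.pt q'.pt
  refine ⟨Z, h1.trans ((ENNReal.ofReal_le_ofReal ?_).trans hδε.le), h2⟩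
  have := (Gr.dist_pt_le hq).trans_lt hN
  rw [lt_div_iff₀ hc] at this
  linarith

/-- The grid argument: a combination of affine simplices which bounds has total value zero. -/
theorem grid_detect {ι : Type*} (s : Finset ι) (A : ι → (Fin 5 → Fin 5) → M)
    (hA : ∀ i, IsTupCoc (A i)) (hA0 : ∀ i v, ¬ Function.Injective v → A i v = 0) (m : ι → ℤ)
    (b : C(Dl 5, DSp M) →₀ ℤ)
    (hb : singBd b = ∑ i ∈ s, m i • Finsupp.single (affD (n := 4) (A i) (hA i)) 1) :
    ∑ i ∈ s, m i • A i id = 0 := by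
  classical
  set F4 : Finset C(Dl 4, DSp M) := s.image fun i => affD (n := 4) (A i) (hA i) with hF4
  set C : ℕ := F4.card * ((4 + 1) ^ (4 + 1) * (3 ^ (4 + 1) * 3 ^ (4 + 1))) +
    b.support.card * ((5 + 1) ^ (5 + 1) * (3 ^ (5 + 1) * 3 ^ (5 + 1))) with hC
  set ε : ENNReal := ((C + 1 : ℕ) : ENNReal)⁻¹ with hε
  have hε0 : 0 < ε := ENNReal.inv_pos.2 (ENNReal.natCast_ne_top _)
  have hCε : (C : ENNReal) * ε < 1 := by
    rw [hε, ← div_eq_mul_inv, ENNReal.div_lt_iff (Or.inl (by simp)) (Or.inl (by simp)), one_mul]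
    exact_mod_cast Nat.lt_succ_self C
  obtain ⟨N, hN5, hN4⟩ := (((Filter.eventually_all_finset b.support).2
    fun W _ => dt_unif W ε hε0).and (dt_jIdx 4 ε hε0)).exists
  have hZ5 : ∀ (W : C(Dl 5, DSp M)) (q q' : Gr N 5), ∃ Z : Set ℝ, W ∈ b.support → q.Adj q' →
      AgreeOff Z (W q.pt) (W q'.pt) ∧ volume Z ≤ ε := by
    intro W q q'
    by_cases h : W ∈ b.support ∧ q.Adj q'
    · obtain ⟨Z, h1, h2⟩ := DSp.exists_agree (hN5 W h.1 q q' h.2)
      exact ⟨Z, fun _ _ => ⟨h1, h2.le⟩⟩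
    · exact ⟨∅, fun h1 h2 => (h ⟨h1, h2⟩).elim⟩
  have hZ4 : ∀ q q' : Gr N 4, ∃ Z : Set ℝ, q.Adj q' → volume Z ≤ ε ∧
      ∀ u : JI, (u : ℝ) ∉ Z → jIdx q.pt u = jIdx q'.pt u := by
    intro q q'
    by_cases h : q.Adj q'
    · obtain ⟨Z, h1⟩ := hN4 q q' h
      exact ⟨Z, fun _ => h1⟩
    · exact ⟨∅, fun h1 => (h h1).elim⟩
  choose Z5 hZ5 using hZ5
  choose Z4 hZ4 using hZ4
  have hl : ∀ κ : C(Dl N, DSp M) × (Fin (N + 1) → Fin (N + 1) → Prop), ∃ u : JI,
      (u : ℝ) ∉ dtBad (F4 : Set C(Dl 4, DSp M)) (fun _ => Z4) κ ∧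
        (u : ℝ) ∉ dtBad (b.support : Set C(Dl 5, DSp M)) Z5 κ := by
    intro κ
    by_contra hcon
    have hsub : Set.Ico (0 : ℝ) 1 ⊆ dtBad (F4 : Set C(Dl 4, DSp M)) (fun _ => Z4) κ ∪
        dtBad (b.support : Set C(Dl 5, DSp M)) Z5 κ := by
      intro x hx
      by_contra hx'
      exact hcon ⟨⟨x, hx⟩, fun h => hx' (Or.inl h), fun h => hx' (Or.inr h)⟩
    have h1 := (measure_mono (μ := volume) hsub).trans ((measure_union_le _ _).trans (add_le_add
      (dtBad_vol F4 (fun _ => Z4) ε (fun _ _ q q' h => (hZ4 q q' h).1) κ)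
      (dtBad_vol b.support Z5 ε (fun W hW q q' h => (hZ5 W q q' hW h).2) κ)))
    rw [← add_mul, ← Nat.cast_add, ← hC] at h1
    simp only [Real.volume_Ico, sub_zero, ENNReal.ofReal_one] at h1
    exact absurd hCε (not_lt.2 h1)
  choose l hl4 hl5 using hl
  obtain ⟨E, hEs, hE0, hE⟩ := exists_fund N
  let g : ∀ {k : ℕ}, C(Dl k, DSp M) → (Fin 5 → Gr N k) → M := fun σ w =>
    (σ (w 0).pt).1 fun i => l (dtKey σ (w i))
  have gface : ∀ (W : C(Dl 5, DSp M)) (i : Fin 6) (w : Fin 5 → Gr N 4),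
      g W (Gr.face i ∘ w) = g (dS i W) w := by
    intro W i w
    simp only [g, Function.comp_apply, dtKey_face, Gr.pt_face]
    rfl
  let I4 : C(Dl 4, DSp M) → M := fun σ => Finsupp.linearCombination ℤ (g σ) (E 4)
  have ha : ∀ W ∈ b.support, ∑ i : Fin 6, (-1 : ℤ) ^ (i : ℕ) • I4 (dS i W) = 0 := by
    intro W hW
    have e1 : Finsupp.linearCombination ℤ (g W) (tupBd (E 5)) =
        ∑ i : Fin 6, (-1 : ℤ) ^ (i : ℕ) • I4 (dS i W) := by
      rw [hE 4, map_sum]
      refine Finset.sum_congr rfl fun i _ => ?_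
      rw [map_smul, Finsupp.linearCombination_mapDomain]
      congr 2
      exact congrArg _ (funext fun w => gface W i w)
    rw [← e1, tupBd, Finsupp.apply_linearCombination, Finsupp.linearCombination_apply]
    refine Finset.sum_eq_zero fun w hw => ?_
    have hs := hEs 5 w hw
    have : ∑ i : Fin 6, (-1 : ℤ) ^ (i : ℕ) • g W (w ∘ i.succAbove) = 0 := by
      rw [← (W (w 0).pt).2 fun i => l (dtKey W (w i))]
      refine Finset.sum_congr rfl fun i _ => ?_
      congr 1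
      refine ((hZ5 W (w 0) (w (i.succAbove 0)) hW (hs _ _)).1 _ fun j hj => ?_).symm
      exact hl5 _ (dtBad_mem hW (hs (i.succAbove j) 0) (hs 0 (i.succAbove 0)) hj)
    simp only [Function.comp_apply, map_sum, map_smul, Finsupp.linearCombination_single, one_smul,
      this, smul_zero]
  have hb' : ∀ i ∈ s, I4 (affD (n := 4) (A i) (hA i)) = A i id := by
    intro i hi
    set σ := affD (n := 4) (A i) (hA i) with hσ
    have hσF : σ ∈ (F4 : Set C(Dl 4, DSp M)) := Finset.mem_coe.2 (Finset.mem_image_of_mem _ hi)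
    rw [← fund_degree E hE0 hE 4 (fun v => jIdx v.pt (l (dtKey σ v)))
      (fun v => v.mem_range_of_pos (jIdx_pos _ _)) (A i) (hA i) (hA0 i)]
    refine Finset.sum_congr rfl fun w hw => ?_
    have hs := hEs 4 w hw
    change (E 4) w • A i _ = (E 4) w • A i _
    congr 2
    funext j
    refine (hZ4 (w 0) (w j) (hs _ _)).2 _ fun hj => ?_
    exact hl4 _ (dtBad_mem (Z := fun _ => Z4) hσF (hs j 0) (hs 0 j) hj)
  have h := congrArg (Finsupp.linearCombination ℤ I4) hb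
  rw [singBd, Finsupp.apply_linearCombination, Finsupp.linearCombination_apply, map_sum] at h
  have h0 : (b.sum fun W a => a • ((Finsupp.linearCombination ℤ I4) ∘ fun W : C(Dl 5, DSp M) =>
      ∑ i : Fin 6, (-1 : ℤ) ^ (i : ℕ) • Finsupp.single (dS i W) (1 : ℤ)) W) = 0 := by
    refine Finset.sum_eq_zero fun W hW => ?_
    simp only [Function.comp_apply, map_sum, map_smul, Finsupp.linearCombination_single, one_smul,
      ha W hW, smul_zero]
  rw [h0] at h
  rw [h]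
  refine Finset.sum_congr rfl fun i hi => ?_
  rw [map_smul, Finsupp.linearCombination_single, one_smul, hb' i hi]

open CategoryTheory Opposite Simplicial

/-- Characteristic maps of the simplices of the geometric realisation. -/
noncomputable def chi (X : SSet.{u}) {n : ℕ} (x : X _⦋n⦌) : C(Dl n, SSet.toTop.obj X) :=
  TopCat.toSSetObjEquiv _ (op ⦋n⦌) ((sSetTopAdj.unit.app X).app _ x)

theorem chi_map (X : SSet.{u}) {m n : ℕ} (θ : (⦋m⦌ : SimplexCategory) ⟶ ⦋n⦌) (x : X _⦋n⦌)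
    (p : Dl m) : chi X (X.map θ.op x) p = chi X x (stdSimplex.map θ.toOrderHom p) := by
  have e : (sSetTopAdj.unit.app X).app _ (X.map θ.op x) =
      (TopCat.toSSet.obj (SSet.toTop.obj X)).map θ.op ((sSetTopAdj.unit.app X).app _ x) :=
    congrArg (fun g => g x) ((sSetTopAdj.unit.app X).naturality θ.op)
  unfold chi
  rw [e]
  exact TopCat.toSSetObjEquiv_naturality_apply θ _ p

theorem chi_δ (X : SSet.{u}) {n : ℕ} (i : Fin (n + 2)) (x : X _⦋n + 1⦌) :
    chi X (X.δ i x) = dS i (chi X x) := by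
  ext1 p
  exact chi_map X (SimplexCategory.δ i) x p

theorem chi_natural {X Y : SSet.{u}} (f : X ⟶ Y) {n : ℕ} (x : X _⦋n⦌) :
    chi Y (f.app _ x) = (SSet.toTop.map f).hom.comp (chi X x) := by
  have e : (sSetTopAdj.unit.app Y).app _ (f.app _ x) =
      (TopCat.toSSet.map (SSet.toTop.map f)).app _ ((sSetTopAdj.unit.app X).app (op ⦋n⦌) x) :=
    congrArg (fun g => g.app (op ⦋n⦌) x) (sSetTopAdj.unit.naturality f)
  unfold chi
  rw [e]
  rfl

theorem exists_toDSp (X : SSet.{max u v}) (A : ∀ n : ℕ, X _⦋n⦌ → (Fin 5 → Fin (n + 1)) → M)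
    (hA : ∀ n x, IsTupCoc (A n x))
    (hnat : ∀ (m n : ℕ) (θ : (⦋m⦌ : SimplexCategory) ⟶ ⦋n⦌) (x : X _⦋n⦌) v,
        A m (X.map θ.op x) v = A n x (θ.toOrderHom ∘ v)) :
    ∃ Ψ : C(SSet.toTop.obj X, DSp M), ∀ n x, Ψ.comp (chi X x) = affD (A n x) (hA n x) := by
  let T : TopCat.{max u v} := TopCat.of (ULift.{u} (DSp M))
  let up : C(DSp M, ULift.{u} (DSp M)) := ⟨ULift.up, continuous_uliftUp⟩
  let φ : X ⟶ TopCat.toSSet.obj T :=
    { app := fun n => TypeCat.ofHom fun x =>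
        (TopCat.toSSetObjEquiv T n).symm (up.comp (affD (A n.unop.len x) (hA n.unop.len x)))
      naturality := by
        rintro ⟨⟨n⟩⟩ ⟨⟨m⟩⟩ ⟨θ⟩
        ext x
        refine Eq.trans ?_ (TopCat.toSSetObjEquiv_symm_naturality (X := T) θ
          (up.comp (affD (A n x) (hA n x)))).symm
        refine congrArg (TopCat.toSSetObjEquiv T _).symm ?_
        ext1 p
        refine congrArg ULift.up (Subtype.ext (funext fun w => ?_))
        refine (hnat m n θ x _).trans (congrArg (A n x) (funext fun j => ?_))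
        exact (jIdx_map θ.toOrderHom θ.toOrderHom.monotone p (w j)).symm }
  let ψ : SSet.toTop.obj X ⟶ T := (sSetTopAdj.homEquiv X T).symm φ
  have e : sSetTopAdj.unit.app X ≫ TopCat.toSSet.map ψ = φ := by
    exact (sSetTopAdj.homEquiv_unit X T ψ).symm.trans
      ((sSetTopAdj.homEquiv X T).apply_symm_apply φ)
  refine ⟨(⟨ULift.down, continuous_uliftDown⟩ : C(ULift.{u} (DSp M), DSp M)).comp ψ.hom,
    fun n x => ?_⟩
  have e1 : (TopCat.toSSet.map ψ).app _ ((sSetTopAdj.unit.app X).app (op ⦋n⦌) x) =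
      φ.app (op ⦋n⦌) x := congrArg (fun g => g.app (op ⦋n⦌) x) e
  have e2 : ψ.hom.comp (chi X x) = up.comp (affD (A n x) (hA n x)) :=
    (congrArg (TopCat.toSSetObjEquiv T (op ⦋n⦌)) e1).trans (Equiv.apply_symm_apply _ _)
  rw [ContinuousMap.comp_assoc, e2]
  rfl

theorem singBd_map {X Y : Type*} [TopologicalSpace X] [TopologicalSpace Y] {n : ℕ} (f : C(X, Y))
    (b : C(Dl (n + 1), X) →₀ ℤ) :
    singBd (Finsupp.mapDomain f.comp b) = Finsupp.mapDomain f.comp (singBd b) := by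
  induction b using Finsupp.induction_linear with
  | zero => simp
  | add a b ha hb => simp only [Finsupp.mapDomain_add, map_add, ha, hb]
  | single W a =>
    simp only [singBd, Finsupp.mapDomain_single, Finsupp.linearCombination_single]
    change _ = Finsupp.lmapDomain ℤ ℤ f.comp _
    simp only [map_smul, map_sum, Finsupp.lmapDomain_apply, Finsupp.mapDomain_single]
    rfl

/-- A normalised simplicial cocycle extends to a singular cocycle, after enlarging the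
coefficients. -/
theorem exists_singular_extension (X : SSet.{max u v}) (c : X _⦋4⦌ → M)
    (hc : ∀ y, (sssOf X).cob (n := 4) c y = 0) (hn : ∀ (i : Fin 4) (y : X _⦋3⦌), c (X.σ i y) = 0) :
    ∃ (M' : Type (max u v)) (_ : AddCommGroup M') (i : M →+ M')
      (c' : C(Dl 4, SSet.toTop.obj X) → M'),
      Function.Injective i ∧ IsSingCoc c' ∧ ∀ x, c' (chi X x) = i (c x) := by
  let Φ : ((X _⦋4⦌ →₀ ℤ) × (C(Dl 5, SSet.toTop.obj X) →₀ ℤ)) →ₗ[ℤ]
      (M × (C(Dl 4, SSet.toTop.obj X) →₀ ℤ)) :=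
    ((Finsupp.linearCombination ℤ c).comp (LinearMap.fst _ _ _)).prod
      (singBd.comp (LinearMap.snd _ _ _) -
        (Finsupp.lmapDomain ℤ ℤ (chi X (n := 4))).comp (LinearMap.fst _ _ _))
  let N := LinearMap.range Φ
  refine ⟨(M × (C(Dl 4, SSet.toTop.obj X) →₀ ℤ)) ⧸ N, inferInstance,
    (N.mkQ.comp (LinearMap.inl ℤ _ _)).toAddMonoidHom,
    fun σ => N.mkQ (0, Finsupp.single σ 1), ?_, fun W => ?_, fun x => ?_⟩
  · refine (injective_iff_map_eq_zero _).2 fun m hm => ?_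
    obtain ⟨⟨a, b⟩, hab⟩ : (m, 0) ∈ N := (Submodule.Quotient.mk_eq_zero N).1 hm
    have h1 : Finsupp.linearCombination ℤ c a = m := congrArg Prod.fst hab
    have h2 : singBd b = Finsupp.mapDomain (chi X (n := 4)) a :=
      sub_eq_zero.1 (congrArg Prod.snd hab)
    obtain ⟨A, hA, hA0, hnat, hid⟩ := exists_alt X c hc hn
    obtain ⟨Ψ, hΨ⟩ := exists_toDSp X A hA hnat
    have h3 := grid_detect a.support (A 4) (hA 4) (hA0 4) a (Finsupp.mapDomain Ψ.comp b) (by
      rw [singBd_map, h2, ← Finsupp.mapDomain_comp, Finsupp.mapDomain]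
      refine Finset.sum_congr rfl fun x _ => ?_
      simp only [Function.comp_apply, hΨ, Finsupp.smul_single, smul_eq_mul, mul_one])
    rw [← h1, Finsupp.linearCombination_apply, ← h3]
    exact Finset.sum_congr rfl fun x _ => by rw [hid]
  · have h : N.mkQ (0, singBd (Finsupp.single W 1)) = 0 :=
      (Submodule.Quotient.mk_eq_zero N).2 ⟨(0, Finsupp.single W 1), by simp [Φ]⟩
    have h' : (N.mkQ.comp (LinearMap.inr ℤ _ _)) (singBd (Finsupp.single W 1)) = 0 := h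
    rw [← h', singBd, Finsupp.linearCombination_single, one_smul, map_sum]
    refine Finset.sum_congr rfl fun i _ => ?_
    rw [map_smul]
    rfl
  · refine ((Submodule.Quotient.eq N).2 ⟨(Finsupp.single x 1, 0), ?_⟩).symm
    simp [Φ]

end Vale.Agent.P178
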