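import Vale.Agent.P178.Bar
import Vale.Agent.P178.Conn
import Vale.Agent.P178.Detect

/-!
P178: the two cones `0 ↣ P` and `0 ↞ P` over a representation, as simplices of the nerve of `Q`.
-/

namespace Vale.Agent.P178

open CategoryTheory Opposite Simplicial TensorProduct

variable {R : Type} [CommRing R] {G H : Type} [Monoid G] [Monoid H]

/-- The functor given by a representation. -/
def repF (P : QObj R) (ρ : G →* (P.carrier ≃ₗ[R] P.carrier)) : BM G ⥤ QObj R where
  obj _ := P
  map g := ⟨relAut (ρ g), isQRel_relAut _⟩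
  map_id _ := Subtype.ext ((congrArg relAut ρ.map_one).trans relAut_one)
  map_comp _ _ := Subtype.ext ((congrArg relAut (ρ.map_mul _ _)).trans (relAut_mul _ _))

/-- The morphism `0 ↣ P`. -/
def coneA (Z P : QObj R) [Subsingleton Z.carrier] : Z ⟶ P := ⟨⊥,
  { graph := fun _ _ => Subsingleton.elim _ _
    surj := fun m => ⟨0, by rw [Subsingleton.elim m 0]; exact Submodule.zero_mem _⟩
    adm := Module.Projective.of_equiv (Submodule.quotEquivOfEqBot _ (Submodule.map_bot _)).symm }⟩

/-- The morphism `0 ↞ P`. -/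
def coneB (Z P : QObj R) [Subsingleton Z.carrier] : Z ⟶ P := ⟨⊤,
  { graph := fun _ _ => Subsingleton.elim _ _
    surj := fun _ => ⟨0, Submodule.mem_top⟩
    adm := by
      have : Subsingleton (P.carrier ⧸ (⊤ : Submodule R (P.carrier × Z.carrier)).map
          (LinearMap.fst R P.carrier Z.carrier)) :=
        Submodule.Quotient.subsingleton_iff.2
          (eq_top_iff.2 fun x _ => ⟨(x, 0), Submodule.mem_top, rfl⟩)
      infer_instance }⟩

theorem coneA_comp (Z P : QObj R) [Subsingleton Z.carrier] (g : P.carrier ≃ₗ[R] P.carrier) :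
    coneA Z P ≫ (⟨relAut g, isQRel_relAut g⟩ : P ⟶ P) = coneA Z P := by
  refine Subtype.ext (eq_bot_iff.2 ?_)
  rintro x ⟨n, h1, h2⟩
  have h3 : n = g x.1 := h1
  have h4 : n = 0 := congrArg Prod.fst ((Submodule.mem_bot R).1 h2)
  exact (Submodule.mem_bot R).2
    (Prod.ext (g.map_eq_zero_iff.1 (h3.symm.trans h4)) (Subsingleton.elim _ _))

theorem coneB_comp (Z P : QObj R) [Subsingleton Z.carrier] (g : P.carrier ≃ₗ[R] P.carrier) :
    coneB Z P ≫ (⟨relAut g, isQRel_relAut g⟩ : P ⟶ P) = coneB Z P :=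
  Subtype.ext (eq_top_iff.2 fun x _ => ⟨g x.1, rfl, Submodule.mem_top⟩)

instance (S : Type) [CommRing S] [Algebra R S] (Z : QObj R) [Subsingleton Z.carrier] :
    Subsingleton ((qBC R S).obj Z).carrier :=
  inferInstanceAs (Subsingleton (S ⊗[R] Z.carrier))

theorem qBC_coneA (S : Type) [CommRing S] [Algebra R S] (Z P : QObj R) [Subsingleton Z.carrier] :
    (qBC R S).map (coneA Z P) = coneA _ _ := by
  refine Subtype.ext (Submodule.span_eq_bot.2 ?_)
  rintro _ ⟨x, hx, rfl⟩
  rw [(Submodule.mem_bot R).1 hx]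
  exact Prod.ext (TensorProduct.tmul_zero _ _) (TensorProduct.tmul_zero _ _)

theorem qBC_coneB (S : Type) [CommRing S] [Algebra R S] (Z P : QObj R) [Subsingleton Z.carrier] :
    (qBC R S).map (coneB Z P) = coneB _ _ := by
  have key : ∀ x : S ⊗[R] P.carrier,
      (x, (0 : S ⊗[R] Z.carrier)) ∈ relBC S (⊤ : Submodule R (P.carrier × Z.carrier)) := by
    intro x
    induction x using TensorProduct.induction_on with
    | zero => exact Submodule.zero_mem _
    | tmul s p =>
      have h : s • ((1 : S) ⊗ₜ[R] p, (1 : S) ⊗ₜ[R] (0 : Z.carrier))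
          ∈ relBC S (⊤ : Submodule R (P.carrier × Z.carrier)) :=
        Submodule.smul_mem _ s (Submodule.subset_span ⟨(p, 0), Submodule.mem_top, rfl⟩)
      rwa [Prod.smul_mk, TensorProduct.smul_tmul', smul_eq_mul, mul_one, TensorProduct.tmul_zero,
        smul_zero] at h
    | add x y hx hy =>
      have h := Submodule.add_mem _ hx hy
      rwa [Prod.mk_add_mk, add_zero] at h
  refine Subtype.ext (eq_top_iff.2 ?_)
  rintro ⟨x, z⟩ _
  rw [Subsingleton.elim z 0]
  exact key x

/-- The cone over a simplex of the nerve of the monoid. -/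
def qcone {P Z : QObj R} (ρ : G →* (P.carrier ≃ₗ[R] P.carrier)) (e : Z ⟶ P) {n : ℕ}
    (y : (barS G).Y n) : (nerve (QObj R)) _⦋n + 1⦌ :=
  ComposableArrows.precomp (show ComposableArrows (QObj R) n from
    (show ComposableArrows (BM G) n from y) ⋙ repF P ρ) e

section
variable {P Z : QObj R} (ρ : G →* (P.carrier ≃ₗ[R] P.carrier))

theorem qcone_δ_zero (e e' : Z ⟶ P) {n : ℕ} (y : (barS G).Y n) :
    (nerve (QObj R)).δ 0 (qcone ρ e y) = (nerve (QObj R)).δ 0 (qcone ρ e' y) := rfl

theorem cone_heq_map {C : Type*} [Category C] {m : ℕ} (X : Fin m ⥤ C) {a b a' b' : Fin m}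
    (ha : a = a') (hb : b = b') (f : a ⟶ b) (f' : a' ⟶ b') : X.map f ≍ X.map f' := by
  subst ha hb
  rw [Subsingleton.elim f f']

theorem cone_ext {C : Type*} [Category C] {m : ℕ} {X Y : ComposableArrows C m}
    (h : ∀ i, X.obj i = Y.obj i) (w : ∀ (i : ℕ) (hi : i < m), X.map' i (i + 1) ≍ Y.map' i (i + 1)) :
    X = Y :=
  ComposableArrows.ext h fun i hi => (conj_eqToHom_iff_heq _ _ (h _) (h _)).2 (w i hi)

theorem qcone_map_zero_succ (e : Z ⟶ P)
    (he : ∀ g : P.carrier ≃ₗ[R] P.carrier, e ≫ (⟨relAut g, isQRel_relAut g⟩ : P ⟶ P) = e) {n : ℕ}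
    (y : (barS G).Y n) (b : Fin (n + 1)) (f : (0 : Fin (n + 2)) ⟶ b.succ) :
    (show ComposableArrows (QObj R) (n + 1) from qcone ρ e y).map f ≍ e := by
  obtain ⟨_ | b, hb⟩ := b
  · exact HEq.rfl
  · exact heq_of_eq (he _)

theorem qcone_δ_succ (e : Z ⟶ P)
    (he : ∀ g : P.carrier ≃ₗ[R] P.carrier, e ≫ (⟨relAut g, isQRel_relAut g⟩ : P ⟶ P) = e) {n : ℕ}
    (i : Fin (n + 2)) (y : (barS G).Y (n + 1)) :
    (nerve (QObj R)).δ i.succ (qcone ρ e y) = qcone ρ e ((barS G).d i y) := by
  refine Functor.hext (fun j => ?_) fun a b f => ?_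
  · induction j using Fin.cases with
    | zero =>
      exact congrArg (show ComposableArrows (QObj R) (n + 2) from qcone ρ e y).obj
        (Fin.succ_succAbove_zero i)
    | succ j =>
      exact congrArg (show ComposableArrows (QObj R) (n + 2) from qcone ρ e y).obj
        (Fin.succ_succAbove_succ i j)
  · induction a using Fin.cases with
    | zero =>
      induction b using Fin.cases with
      | zero =>
        exact cone_heq_map (show ComposableArrows (QObj R) (n + 2) from qcone ρ e y)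
          (Fin.succ_succAbove_zero i) (Fin.succ_succAbove_zero i) (𝟙 _) (𝟙 _)
      | succ b =>
        exact ((cone_heq_map (show ComposableArrows (QObj R) (n + 2) from qcone ρ e y)
          (Fin.succ_succAbove_zero i) (Fin.succ_succAbove_succ i b)
          (homOfLE ((Fin.strictMono_succAbove i.succ).monotone (leOfHom f)))
          (homOfLE (Fin.zero_le _))).trans (qcone_map_zero_succ ρ e he y _ _)).trans
          (qcone_map_zero_succ ρ e he _ b f).symm
    | succ a =>
      induction b using Fin.cases with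
      | zero => exact absurd (leOfHom f) (not_le.2 (Fin.succ_pos a))
      | succ b =>
        exact cone_heq_map (show ComposableArrows (QObj R) (n + 2) from qcone ρ e y)
          (Fin.succ_succAbove_succ i a) (Fin.succ_succAbove_succ i b)
          (homOfLE ((Fin.strictMono_succAbove i.succ).monotone (leOfHom f)))
          (homOfLE (Fin.succ_le_succ_iff.2 ((Fin.strictMono_succAbove i).monotone
            (Fin.succ_le_succ_iff.1 (leOfHom f)))))

theorem chi_mk₀ (Z : QObj R) (p : Dl 0) :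
    chi (nerve (QObj R)) (n := 0) (ComposableArrows.mk₀ Z) p = bqPt Z := by
  rw [Subsingleton.elim p default]
  rfl

theorem chi_qcone_vertex (e : Z ⟶ P) {n : ℕ} (y : (barS G).Y n) :
    chi _ (qcone ρ e y) (stdSimplex.vertex 0) = bqPt Z := by
  have h := chi_map (nerve (QObj R)) (SimplexCategory.const ⦋0⦌ ⦋n + 1⦌ 0) (qcone ρ e y)
    (stdSimplex.vertex 0)
  have h2 : (nerve (QObj R)).map (SimplexCategory.const ⦋0⦌ ⦋n + 1⦌ 0).op (qcone ρ e y)
      = ComposableArrows.mk₀ Z := ComposableArrows.ext₀ rfl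
  rw [stdSimplex.map_vertex, h2, chi_mk₀] at h
  exact h.symm

theorem isDCone_qcone [Subsingleton Z.carrier] :
    IsDCone (barS G) (bqPt Z) (fun _ y => chi _ (qcone ρ (coneA Z P) y))
      (fun _ y => chi _ (qcone ρ (coneB Z P) y)) where
  ha _ i y := by rw [← chi_δ, qcone_δ_succ ρ _ (coneA_comp Z P)]
  hb _ i y := by rw [← chi_δ, qcone_δ_succ ρ _ (coneB_comp Z P)]
  hab _ y := by rw [← chi_δ, ← chi_δ, qcone_δ_zero ρ _ (coneB Z P)]
  ha0 _ y := chi_qcone_vertex ρ _ y

theorem qcone_bc (S : Type) [CommRing S] [Algebra R S] (f : G →* H)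
    (ρ' : H →* (((qBC R S).obj P).carrier ≃ₗ[S] ((qBC R S).obj P).carrier))
    (hρ : ∀ g, (ρ' (f g)).toLinearMap = (ρ g).toLinearMap.baseChange S) (e : Z ⟶ P) {n : ℕ}
    (y : (barS G).Y n) :
    qcone ρ' ((qBC R S).map e) ((nerveMap (bmMap f)).app _ y) =
      (nerveMap (qBC R S)).app _ (qcone ρ e y) := by
  refine cone_ext (fun j => ?_) fun i hi => ?_
  · obtain ⟨_ | j, hj⟩ := j <;> rfl
  · obtain _ | i := i
    · exact HEq.rfl
    · exact heq_of_eq (Subtype.ext (relBC_relAut S _ _ (hρ _)).symm)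

theorem cob_qcone (e : Z ⟶ P)
    (he : ∀ g : P.carrier ≃ₗ[R] P.carrier, e ≫ (⟨relAut g, isQRel_relAut g⟩ : P ⟶ P) = e)
    {M : Type*} [AddCommGroup M] (η : (nerve (QObj R)) _⦋3⦌ → M) (y : (barS G).Y 3) :
    (sssOf (nerve (QObj R))).cob (n := 3) η (qcone ρ e y)
      = η ((nerve (QObj R)).δ 0 (qcone ρ e y))
        - (barS G).cob (n := 2) (fun y => η (qcone ρ e y)) y := by
  have h : ∀ i : Fin 4, (sssOf (nerve (QObj R))).d (n := 3) i.succ (qcone ρ e y)
      = qcone ρ e ((barS G).d i y) := fun i => qcone_δ_succ ρ e he i y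
  unfold SSS.cob
  rw [Fin.sum_univ_succ, sub_eq_add_neg, ← Finset.sum_neg_distrib]
  refine congrArg₂ (· + ·) (one_smul _ _) (Finset.sum_congr rfl fun i _ => ?_)
  rw [h, Fin.val_succ, pow_succ, mul_neg_one, neg_smul]

/-- The difference of the two cones over a cycle is a cycle. -/
theorem pairing_cone_cob [Subsingleton Z.carrier] {z : (barS G).Y 3 →₀ ℤ}
    (hz : (barS G).IsCycle (n := 2) z) {M : Type*} [AddCommGroup M]
    (η : (nerve (QObj R)) _⦋3⦌ → M) :
    pairing z (fun y => (sssOf (nerve (QObj R))).cob (n := 3) η (qcone ρ (coneB Z P) y) -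
      (sssOf (nerve (QObj R))).cob (n := 3) η (qcone ρ (coneA Z P) y)) = 0 := by
  refine Eq.trans (congrArg (pairing z) (funext fun y => ?_)) (hz.pairing_cob
    fun y => η (qcone ρ (coneA Z P) y) - η (qcone ρ (coneB Z P) y))
  rw [cob_qcone ρ _ (coneA_comp Z P), cob_qcone ρ _ (coneB_comp Z P),
    qcone_δ_zero ρ _ (coneA Z P)]
  simp only [SSS.cob, smul_sub, Finset.sum_sub_distrib]
  abel

end

/-- The constant simplex at a vertex is the characteristic map of a degenerate simplex. -/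
theorem exists_chi_const (Z : QObj R) : ∃ (y : (nerve (QObj R)) _⦋3⦌),
    chi _ ((nerve (QObj R)).σ (0 : Fin 4) y) = ContinuousMap.const _ (bqPt Z) := by
  refine ⟨(nerve (QObj R)).map (SimplexCategory.const ⦋3⦌ ⦋0⦌ 0).op (ComposableArrows.mk₀ Z),
    ContinuousMap.ext fun p => ?_⟩
  exact ((chi_map _ (SimplexCategory.σ 0) _ p).trans (chi_map _ _ _ _)).trans (chi_mk₀ Z _)

end Vale.Agent.P178
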