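import Vale.Agent.P178.Simp

/-!
P178: comparison of spherical simplices with cubical loops.
-/

namespace Vale.Agent.P178

open scoped unitInterval Topology

universe u

theorem cb_rescale {E ι κ : Type} [NormedAddCommGroup E] [NormedSpace ℝ E] [Fintype ι]
    [Nonempty ι] [Fintype κ] [Nonempty κ] (A : ι → E → ℝ) (B : κ → E → ℝ)
    (hA : ∀ i, Continuous (A i)) (hB : ∀ k, Continuous (B k))
    (hs : ∀ i t e, A i (t • e) = t * A i e) (h0 : ∀ k, B k 0 = 0)
    (hp : ∀ e, (∀ i, A i e ≤ 0) → e = 0) :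
    ∃ Φ : E → E, Continuous Φ ∧ (∀ e i, A i (Φ e) ≤ 1) ∧ (∀ e, ∃ t : ℝ, 0 < t ∧ Φ e = t • e) ∧
      ∀ e, (∃ k, B k e = 1) → ∃ i, A i (Φ e) = 1 := by
  let a : E → ℝ := fun e => Finset.univ.sup' Finset.univ_nonempty fun i => A i e
  let b : E → ℝ := fun e => Finset.univ.sup' Finset.univ_nonempty fun k => B k e
  have ha : Continuous a := Continuous.finset_sup'_apply _ fun i _ => hA i
  have hb : Continuous b := Continuous.finset_sup'_apply _ fun k _ => hB k
  have ha1 : ∀ e i, A i e ≤ a e := fun e i => Finset.le_sup' (fun i => A i e) (Finset.mem_univ i)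
  have hb1 : ∀ e k, B k e ≤ b e := fun e k => Finset.le_sup' (fun k => B k e) (Finset.mem_univ k)
  have hd : ∀ e, 0 < max (a e) (1 - b e) := by
    intro e
    by_cases h : 0 < a e
    · exact lt_max_of_lt_left h
    · obtain rfl := hp e fun i => (ha1 e i).trans (not_lt.1 h)
      refine lt_max_of_lt_right (sub_pos.2 ?_)
      simp [b, h0]
  refine ⟨fun e => (max (a e) (1 - b e))⁻¹ • e,
    ((ha.max (continuous_const.sub hb)).inv₀ fun e => (hd e).ne').smul continuous_id,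
    fun e i => ?_, fun e => ⟨_, inv_pos.2 (hd e), rfl⟩, fun e ⟨k, hk⟩ => ?_⟩
  · rw [hs, inv_mul_le_iff₀ (hd e), mul_one]
    exact (ha1 e i).trans (le_max_left _ _)
  · obtain ⟨i, -, hi⟩ := Finset.exists_mem_eq_sup' Finset.univ_nonempty fun i => A i e
    have h1 := hd e
    have h2 : max (a e) (1 - b e) = A i e := by
      have h3 := hb1 e k
      rcases max_cases (a e) (1 - b e) with h | h
      · exact h.1.trans hi
      · linarith [h.1]
    exact ⟨i, by rw [hs, h2, inv_mul_cancel₀ (h2 ▸ h1.ne')]⟩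

/-- The linear forms that cut out the cube. -/
def cbC (k : Fin 4 × Bool) (e : Fin 4 → ℝ) : ℝ := if k.2 then 2 * e k.1 else -2 * e k.1

/-- The linear forms that cut out the simplex. -/
def cbN (i : Fin 5) (e : Fin 4 → ℝ) : ℝ :=
  Fin.cases (∑ j, e j) (fun j => ∑ j, e j - 5 * e j) i

theorem cb_contC (k : Fin 4 × Bool) : Continuous (cbC k) := by
  unfold cbC
  split_ifs <;> fun_prop

theorem cb_contN (i : Fin 5) : Continuous (cbN i) := by
  unfold cbN
  refine Fin.cases ?_ (fun j => ?_) i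
  · simp only [Fin.cases_zero]
    fun_prop
  · simp only [Fin.cases_succ]
    fun_prop

theorem cb_smulC (k : Fin 4 × Bool) (t : ℝ) (e : Fin 4 → ℝ) : cbC k (t • e) = t * cbC k e := by
  simp only [cbC, Pi.smul_apply, smul_eq_mul]
  split_ifs <;> ring

theorem cb_smulN (i : Fin 5) (t : ℝ) (e : Fin 4 → ℝ) : cbN i (t • e) = t * cbN i e := by
  refine Fin.cases ?_ (fun j => ?_) i
  · simp [cbN, Finset.mul_sum]
  · simp only [cbN, Fin.cases_succ, Pi.smul_apply, smul_eq_mul, ← Finset.mul_sum]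
    ring

theorem cb_sumN (e : Fin 4 → ℝ) : ∑ i, cbN i e = 0 := by
  rw [Fin.sum_univ_succ]
  simp only [cbN, Fin.cases_zero, Fin.cases_succ, Fin.sum_univ_four]
  ring

theorem cb_posC (e : Fin 4 → ℝ) (h : ∀ k, cbC k e ≤ 0) : e = 0 := by
  funext j
  have h1 := h (j, true)
  have h2 := h (j, false)
  simp only [cbC, if_true, Bool.false_eq_true, if_false] at h1 h2
  rw [Pi.zero_apply]
  linarith

theorem cb_posN (e : Fin 4 → ℝ) (h : ∀ i, cbN i e ≤ 0) : e = 0 := by
  have h1 := (Finset.sum_eq_zero_iff_of_nonpos fun i _ => h i).1 (cb_sumN e)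
  funext j
  have h2 := h1 0 (Finset.mem_univ _)
  have h3 := h1 j.succ (Finset.mem_univ _)
  simp only [cbN, Fin.cases_zero, Fin.cases_succ] at h2 h3
  rw [Pi.zero_apply]
  linarith

theorem cb_diff (q : Dl 4) (i : Fin 5) : cbN i (fun j => q j.succ - q 0) = 1 - 5 * q i := by
  have h := stdSimplex.sum_eq_one q
  rw [Fin.sum_univ_succ] at h
  refine Fin.cases ?_ (fun j => ?_) i
  · simp only [cbN, Fin.cases_zero, Fin.sum_univ_four] at h ⊢
    linarith
  · simp only [cbN, Fin.cases_succ, Fin.sum_univ_four] at h ⊢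
    linarith

theorem cb_apply {n : ℕ} (i : Fin (n + 1)) : Continuous fun q : Dl n => q i :=
  (continuous_apply i).comp continuous_subtype_val

theorem cb_face {X : Type u} [TopologicalSpace X] {n : ℕ} {x₀ : X} {W : C(Dl (n + 1), X)}
    {i : Fin (n + 2)} (h : dS i W = ContinuousMap.const _ x₀) (p : Dl n) : W (face i p) = x₀ :=
  DFunLike.congr_fun h p

theorem exists_cube_simplex : ∃ (h : C(Fin 4 → I, Dl 4)) (g : C(Dl 4, Fin 4 → I)),
    (∀ x ∈ Cube.boundary (Fin 4), ∃ i, h x i = 0) ∧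
    ∀ q : Dl 4, (∃ i, q i = 0) → g q ∈ Cube.boundary (Fin 4) ∧ h (g q) = q := by
  obtain ⟨Φ, c1, a1, b1, d1⟩ := cb_rescale cbC cbN cb_contC cb_contN cb_smulC
    (fun i => by simpa using cb_smulN i 0 0) cb_posC
  obtain ⟨Ψ, c2, a2, b2, d2⟩ := cb_rescale cbN cbC cb_contN cb_contC cb_smulN
    (fun i => by simpa using cb_smulC i 0 0) cb_posN
  have m1 : ∀ e j, 1 / 2 + Φ e j ∈ I := fun e j => by
    have h1 := a1 e (j, true)
    have h2 := a1 e (j, false)
    simp only [cbC, if_true, Bool.false_eq_true, if_false] at h1 h2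
    constructor <;> linarith
  have m2 : ∀ e, (fun i => (1 - cbN i (Ψ e)) / 5) ∈ stdSimplex ℝ (Fin 5) := fun e =>
    ⟨fun i => by linarith [a2 e i], by
      rw [← Finset.sum_div, Finset.sum_sub_distrib, cb_sumN]
      norm_num⟩
  have key : ∀ x : Fin 4 → I, x ∈ Cube.boundary (Fin 4) ↔
      ∃ k, cbC k (fun j => (x j : ℝ) - 1 / 2) = 1 := by
    intro x
    constructor
    · rintro ⟨j, h | h⟩
      · exact ⟨(j, false), by simp [cbC, h]⟩
      · exact ⟨(j, true), by simp [cbC, h]; norm_num⟩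
    · rintro ⟨⟨j, b⟩, h⟩
      cases b
      · simp only [cbC, Bool.false_eq_true, if_false] at h
        exact ⟨j, Or.inl (Subtype.ext (by rw [Set.Icc.coe_zero]; linarith))⟩
      · simp only [cbC, if_true] at h
        exact ⟨j, Or.inr (Subtype.ext (by rw [Set.Icc.coe_one]; linarith))⟩
  refine ⟨⟨fun x => ⟨_, m2 fun j => (x j : ℝ) - 1 / 2⟩, ?_⟩,
    ⟨fun q j => ⟨_, m1 (fun j => q j.succ - q 0) j⟩, ?_⟩, fun x hx => ?_, fun q ⟨i, hi⟩ => ?_⟩
  · refine Continuous.subtype_mk (continuous_pi fun i => ?_) _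
    exact (continuous_const.sub ((cb_contN i).comp (c2.comp (by fun_prop)))).div_const _
  · refine continuous_pi fun j => Continuous.subtype_mk (continuous_const.add ?_) _
    exact (continuous_apply j).comp (c1.comp (continuous_pi fun j =>
      (cb_apply j.succ).sub (cb_apply 0)))
  · obtain ⟨i, hi⟩ := d2 _ ((key x).1 hx)
    refine ⟨i, ?_⟩
    change (1 - cbN i (Ψ _)) / 5 = 0
    rw [hi, sub_self, zero_div]
  · have e1 : (fun j => (1 / 2 + Φ (fun j => q j.succ - q 0) j) - 1 / 2) =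
        Φ fun j => q j.succ - q 0 := funext fun j => add_sub_cancel_left _ _
    have e2 := d1 (fun j => q j.succ - q 0) ⟨i, by rw [cb_diff, hi, mul_zero, sub_zero]⟩
    refine ⟨(key _).2 (e1 ▸ e2), stdSimplex.ext (funext fun l => ?_)⟩
    change (1 - cbN l (Ψ fun j => (1 / 2 + Φ (fun j => q j.succ - q 0) j) - 1 / 2)) / 5 = q l
    obtain ⟨i', e3⟩ := d2 _ e2
    have e4 := a2 (Φ fun j => q j.succ - q 0) i
    obtain ⟨t, ht, e5⟩ := b1 fun j => q j.succ - q 0
    obtain ⟨r, hr, e6⟩ := b2 (Φ fun j => q j.succ - q 0)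
    rw [e1]
    rw [e6, e5, smul_smul, cb_smulN, cb_diff] at e3 e4 ⊢
    rw [hi] at e4
    have e7 := mul_nonneg (mul_pos hr ht).le (stdSimplex.zero_le q i')
    have e8 : r * t = 1 := by linarith
    rw [e8]
    ring

/-- There is a map `h` from the cube to the simplex such that for spherical `γ`, the cubical loop
`γ ∘ h` is null-homotopic if `γ` bounds, and if it is null-homotopic then `γ` is null-homotopic
relative to the boundary. -/
theorem exists_cube_comparison : ∃ h : C(Fin 4 → I, Dl 4),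
    ∀ (X : Type u) [TopologicalSpace X] (x₀ : X) (γ : C(Dl 4, X)), Spherical x₀ γ →
      (∀ t ∈ Cube.boundary (Fin 4), γ (h t) = x₀) ∧
      ((∃ W : C(Dl 5, X), dS 0 W = γ ∧ ∀ i : Fin 5, dS i.succ W = ContinuousMap.const _ x₀) →
        (γ.comp h).HomotopicRel (ContinuousMap.const _ x₀) (Cube.boundary (Fin 4))) ∧
      ((γ.comp h).HomotopicRel (ContinuousMap.const _ x₀) (Cube.boundary (Fin 4)) →
        ∃ H : C(Dl 4 × I, X), (∀ p, H (p, 0) = γ p) ∧ (∀ p, H (p, 1) = x₀) ∧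
          ∀ (i : Fin 5) p s, H (face i p, s) = x₀) := by
  obtain ⟨h, g, h1, h2⟩ := exists_cube_simplex
  obtain ⟨κ, k0, k1, k2⟩ := exists_contr0
  refine ⟨h, fun X _ x₀ γ hγ => ?_⟩
  have hb : ∀ q : Dl 4, (∃ i, q i = 0) → γ q = x₀ := fun q ⟨i, hi⟩ => by
    obtain ⟨p, rfl⟩ := (mem_range_face i q).2 hi
    exact cb_face (hγ i) p
  refine ⟨fun t ht => hb _ (h1 t ht), fun ⟨W, w0, w1⟩ => ?_, fun ⟨F⟩ => ?_⟩
  · refine ⟨⟨⟨⟨fun z => W (κ 5 (face 0 (h z.2), z.1)), by fun_prop⟩, fun t => ?_, fun t => ?_⟩,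
      fun s t ht => ?_⟩⟩
    · change W (κ 5 (face 0 (h t), 0)) = γ (h t)
      rw [k0, ← w0]
      rfl
    · change W (κ 5 (face 0 (h t), 1)) = x₀
      obtain ⟨p, hp⟩ := (mem_range_face (Fin.succ 0) (stdSimplex.vertex (0 : Fin 6) : Dl 5)).2
        (by simp)
      rw [k1, ← hp]
      exact cb_face (w1 0) p
    · change W (κ 5 (face 0 (h t), s)) = γ (h t)
      rw [hb _ (h1 t ht)]
      obtain ⟨i, hi⟩ := h1 t ht
      obtain ⟨p, hp⟩ := (mem_range_face i _).2 hi
      rw [← hp, face_face (j := i.succ) (j' := 0) (funext fun l => by simp), k2]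
      exact cb_face (w1 i) _
  · have m : ∀ (s : I) (q : Dl 4), (1 - s : ℝ) • q.1 + (s : ℝ) • (h (g q)).1 ∈
        stdSimplex ℝ (Fin 5) := fun s q => convex_stdSimplex ℝ _ q.2 (h (g q)).2
      (sub_nonneg.2 s.2.2) s.2.1 (sub_add_cancel _ _)
    let F1 : γ.HomotopyRel ((γ.comp h).comp g) {q | ∃ i, q i = 0} :=
      ⟨⟨⟨fun z => γ ⟨_, m z.1 z.2⟩, γ.continuous.comp (Continuous.subtype_mk (by fun_prop) _)⟩,
        fun q => congrArg γ (Subtype.ext (by simp)), fun q => congrArg γ (Subtype.ext (by simp))⟩,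
        fun s q hq => congrArg γ (Subtype.ext (by
          change (1 - s : ℝ) • q.1 + (s : ℝ) • (h (g q)).1 = q.1
          rw [(h2 q hq).2, ← add_smul, sub_add_cancel, one_smul]))⟩
    let F2 : ((γ.comp h).comp g).HomotopyRel (ContinuousMap.const _ x₀) {q | ∃ i, q i = 0} :=
      ⟨⟨⟨fun z => F (z.1, g z.2), by fun_prop⟩, fun q => F.apply_zero _, fun q => F.apply_one _⟩,
        fun s q hq => F.eq_fst s (h2 q hq).1⟩
    refine ⟨⟨fun z => F1.trans F2 (z.2, z.1), by fun_prop⟩, fun p => (F1.trans F2).apply_zero p,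
      fun p => (F1.trans F2).apply_one p, fun i p s => ?_⟩
    exact ((F1.trans F2).eq_fst s ⟨i, (mem_range_face i _).1 ⟨p, rfl⟩⟩).trans (cb_face (hγ i) p)

end Vale.Agent.P178
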