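import Vale.Agent.P178.Alt

/-!
P178: the space of cocycles on the unit interval, with the distance given by the measure of the
set that has to be removed to make two cocycles agree.
-/

namespace Vale.Agent.P178

open MeasureTheory

universe v

variable {M : Type v} [AddCommGroup M]

/-- The half open unit interval. -/
abbrev JI : Type := Set.Ico (0 : ℝ) 1

/-- Cocycles on the full simplex with vertex set `[0,1)`. -/
def DSp (M : Type v) [AddCommGroup M] : Type v := {a : (Fin 5 → JI) → M // IsTupCoc a}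

/-- Agreement off a set. -/
def AgreeOff (Z : Set ℝ) (a b : DSp M) : Prop :=
  ∀ u : Fin 5 → JI, (∀ i, (u i : ℝ) ∉ Z) → a.1 u = b.1 u

noncomputable instance : PseudoEMetricSpace (DSp M) where
  edist a b := ⨅ Z : {Z : Set ℝ // AgreeOff Z a b}, volume Z.1
  edist_self a := le_antisymm (iInf_le_of_le ⟨∅, fun _ _ => rfl⟩ measure_empty.le) zero_le
  edist_comm a b := le_antisymm
    (le_iInf fun Z => iInf_le_of_le ⟨Z.1, fun u h => (Z.2 u h).symm⟩ le_rfl)
    (le_iInf fun Z => iInf_le_of_le ⟨Z.1, fun u h => (Z.2 u h).symm⟩ le_rfl)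
  edist_triangle a b c := ENNReal.le_iInf_add_iInf fun Z Z' =>
    iInf_le_of_le ⟨Z.1 ∪ Z'.1, fun u h => (Z.2 u fun i hi => h i (Or.inl hi)).trans
      (Z'.2 u fun i hi => h i (Or.inr hi))⟩ (measure_union_le _ _)

theorem DSp.exists_agree {a b : DSp M} {ε : ENNReal} (h : edist a b < ε) :
    ∃ Z : Set ℝ, AgreeOff Z a b ∧ volume Z < ε := by
  obtain ⟨Z, hZ⟩ := iInf_lt_iff.1 h
  exact ⟨Z.1, Z.2, hZ⟩

theorem DSp.edist_le {a b : DSp M} {Z : Set ℝ} (h : AgreeOff Z a b) : edist a b ≤ volume Z :=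
  iInf_le_of_le (f := fun Z : {Z : Set ℝ // AgreeOff Z a b} => volume Z.1) ⟨Z, h⟩ le_rfl

/-- Partial sums of barycentric coordinates. -/
noncomputable def psum {n : ℕ} (t : Dl n) (k : ℕ) : ℝ :=
  ∑ i : Fin (n + 1) with i.val < k, t i

theorem psum_zero {n : ℕ} (t : Dl n) : psum t 0 = 0 := by simp [psum]

theorem psum_top {n : ℕ} (t : Dl n) : psum t (n + 1) = 1 := by
  rw [psum, Finset.filter_true_of_mem fun i _ => i.2]
  exact stdSimplex.sum_eq_one t

theorem sum_filter_mono {n : ℕ} (t : Dl n) {p q : Fin (n + 1) → Prop} [DecidablePred p]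
    [DecidablePred q] (h : ∀ i, p i → q i) : ∑ i with p i, t i ≤ ∑ i with q i, t i :=
  Finset.sum_le_sum_of_subset_of_nonneg (Finset.monotone_filter_right _ fun i _ => h i)
    fun i _ _ => stdSimplex.zero_le t i

theorem psum_mono {n : ℕ} (t : Dl n) {k l : ℕ} (h : k ≤ l) : psum t k ≤ psum t l :=
  sum_filter_mono t fun _ hi => hi.trans_le h

theorem psum_succ {n : ℕ} (t : Dl n) (j : Fin (n + 1)) : psum t (j + 1) = psum t j + t j := by
  have : (Finset.univ.filter fun i : Fin (n + 1) => i.val < j + 1) =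
      insert j (Finset.univ.filter fun i : Fin (n + 1) => i.val < j) := by
    ext i
    simp only [Finset.mem_filter, Finset.mem_univ, true_and, Finset.mem_insert, Fin.ext_iff]
    omega
  rw [psum, this, Finset.sum_insert (by simp), add_comm, psum]

theorem psum_map {m n : ℕ} (θ : Fin (m + 1) → Fin (n + 1)) (t : Dl m) (k : ℕ) :
    psum (stdSimplex.map θ t) k = ∑ a with (θ a).val < k, t a := by
  simp only [psum, stdSimplex.map_coe, FunOnFinite.linearMap_apply_apply]
  rw [← Finset.sum_fiberwise_of_maps_to (s := Finset.univ.filter fun a => (θ a).val < k)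
    (t := Finset.univ.filter fun i : Fin (n + 1) => i.val < k) (g := θ) (by simp)]
  refine Finset.sum_congr rfl fun i hi => Finset.sum_congr ?_ fun _ _ => rfl
  ext a
  simp only [Finset.mem_filter, Finset.mem_univ, true_and] at hi ⊢
  exact ⟨fun h => ⟨h ▸ hi, h⟩, fun h => h.2⟩

theorem abs_psum_sub_le {n : ℕ} (t t' : Dl n) (k : ℕ) :
    |psum t k - psum t' k| ≤ (n + 1) * dist t t' := by
  rw [psum, psum, ← Finset.sum_sub_distrib]
  refine (Finset.abs_sum_le_sum_abs _ _).trans ((Finset.sum_le_sum_of_subset_of_nonneg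
    (Finset.filter_subset _ _) fun _ _ _ => abs_nonneg _).trans ?_)
  refine (Finset.sum_le_card_nsmul _ _ (dist t t') fun i _ => dist_le_pi_dist t.1 t'.1 i).trans ?_
  simp

theorem exists_jIdx {n : ℕ} (t : Dl n) (u : JI) :
    ∃! j : Fin (n + 1), psum t j ≤ u ∧ (u : ℝ) < psum t (j + 1) := by
  classical
  have h : ∃ k, (u : ℝ) < psum t (k + 1) := ⟨n, u.2.2.trans_eq (psum_top t).symm⟩
  have h1 : Nat.find h ≤ n := Nat.find_min' h (u.2.2.trans_eq (psum_top t).symm)
  refine existsUnique_of_exists_of_unique ⟨⟨Nat.find h, Nat.lt_succ_of_le h1⟩, ?_, Nat.find_spec h⟩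
    fun i j hi hj => ?_
  · change psum t (Nat.find h) ≤ u
    rcases Nat.eq_zero_or_pos (Nat.find h) with h0 | h0
    · rw [h0, psum_zero]
      exact u.2.1
    · have := Nat.find_min h (Nat.sub_one_lt_of_le h0 le_rfl)
      rw [Nat.sub_add_cancel h0] at this
      exact not_lt.1 this
  · rcases lt_trichotomy i j with hij | hij | hij
    · exact absurd (hi.2.trans_le ((psum_mono t hij).trans hj.1)) (lt_irrefl _)
    · exact hij
    · exact absurd (hj.2.trans_le ((psum_mono t hij).trans hi.1)) (lt_irrefl _)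

/-- The index of the interval containing `u`. -/
noncomputable def jIdx {n : ℕ} (t : Dl n) (u : JI) : Fin (n + 1) := (exists_jIdx t u).choose

theorem jIdx_eq_iff {n : ℕ} (t : Dl n) (u : JI) (j : Fin (n + 1)) :
    jIdx t u = j ↔ psum t j ≤ u ∧ (u : ℝ) < psum t (j + 1) :=
  ⟨fun h => h ▸ (exists_jIdx t u).choose_spec.1, fun h => ((exists_jIdx t u).choose_spec.2 j h).symm⟩

theorem jIdx_pos {n : ℕ} (t : Dl n) (u : JI) : 0 < t (jIdx t u) := by
  have h := (jIdx_eq_iff t u _).1 rfl
  rw [psum_succ] at h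
  linarith [h.1, h.2]

theorem jIdx_map {m n : ℕ} (θ : Fin (m + 1) → Fin (n + 1)) (hθ : Monotone θ) (t : Dl m) (u : JI) :
    jIdx (stdSimplex.map θ t) u = θ (jIdx t u) := by
  have h := (jIdx_eq_iff t u _).1 rfl
  rw [jIdx_eq_iff, psum_map, psum_map]
  refine ⟨le_trans (sum_filter_mono t fun a ha => ?_) h.1,
    h.2.trans_le (sum_filter_mono t fun a ha => ?_)⟩
  · exact hθ.reflect_lt ha
  · exact Nat.lt_succ_of_le (hθ (Nat.le_of_lt_succ ha))

theorem exists_jIdx_agree {n : ℕ} (t t' : Dl n) : ∃ Z : Set ℝ,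
    volume Z ≤ ENNReal.ofReal (((n + 2) * (n + 1) : ℕ) * dist t t') ∧
      ∀ u : JI, (u : ℝ) ∉ Z → jIdx t u = jIdx t' u := by
  refine ⟨⋃ k ∈ Finset.range (n + 2), Set.uIcc (psum t k) (psum t' k), ?_, fun u hu => ?_⟩
  · refine (measure_biUnion_finset_le _ _).trans ((Finset.sum_le_card_nsmul _ _
      (ENNReal.ofReal ((n + 1) * dist t t')) fun k _ => ?_).trans (le_of_eq ?_))
    · rw [Real.volume_interval, abs_sub_comm]
      exact ENNReal.ofReal_le_ofReal (abs_psum_sub_le t t' k)
    · rw [Finset.card_range, nsmul_eq_mul, ← ENNReal.ofReal_natCast,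
        ← ENNReal.ofReal_mul (Nat.cast_nonneg _)]
      congr 1
      push_cast
      ring
  · have h := (jIdx_eq_iff t' u _).1 rfl
    simp only [Set.mem_iUnion, not_exists, Finset.mem_range, Set.mem_uIcc, not_or, not_and,
      not_le] at hu
    have h1 := (jIdx t' u).2
    rw [jIdx_eq_iff]
    constructor
    · by_contra hc
      exact hc ((hu _ (by omega)).2 h.1).le
    · by_contra hc
      exact absurd ((hu _ (by omega)).1 (not_lt.1 hc)) (not_lt.2 h.2.le)

/-- The affine simplex of a cocycle on the vertices of `Δ^n`. -/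
noncomputable def affD {n : ℕ} (A : (Fin 5 → Fin (n + 1)) → M) (hA : IsTupCoc A) :
    C(Dl n, DSp M) where
  toFun t := ⟨fun u => A (jIdx t ∘ u), fun w => hA (jIdx t ∘ w)⟩
  continuous_toFun := by
    refine LipschitzWith.continuous (K := ((n + 2) * (n + 1) : ℕ)) fun t t' => ?_
    obtain ⟨Z, h1, h2⟩ := exists_jIdx_agree t t'
    refine (DSp.edist_le (Z := Z) fun u hu => ?_).trans (h1.trans (le_of_eq ?_))
    · exact congrArg A (funext fun i => h2 _ (hu i))
    · rw [ENNReal.ofReal_mul (Nat.cast_nonneg _), ENNReal.ofReal_natCast, edist_dist,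
        ENNReal.coe_natCast]

end Vale.Agent.P178
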