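import Vale.Agent.P178.StBasic

/-!
P178: the Steinberg group on at least five indices is centrally closed (Milnor, Theorem 5.10).
-/

namespace Vale.Agent.P178

open scoped commutatorElement

universe v

variable {R : Type} [CommRing R]

section central
variable {E G : Type*} [Group E] [Group G] {φ : E →* G}

theorem h2_lift (hc : φ.ker ≤ Subgroup.center E) {u u' : E} (h : φ u = φ u') :
    ∃ c : E, (∀ g, Commute c g) ∧ u = c * u' := by
  refine ⟨u * u'⁻¹, fun g => ?_, by simp⟩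
  have : u * u'⁻¹ ∈ φ.ker := by
    rw [MonoidHom.mem_ker, map_mul, map_inv, h, mul_inv_cancel]
  exact (Subgroup.mem_center_iff.1 (hc this) g).symm

theorem h2_bra_left {c : E} (hcc : ∀ g, Commute c g) (u v : E) : ⁅c * u, v⁆ = ⁅u, v⁆ := by
  simp only [commutatorElement_def, mul_inv_rev]
  have e : c * u * v * (u⁻¹ * c⁻¹) * v⁻¹ = c * (u * v * u⁻¹) * c⁻¹ * v⁻¹ := by group
  rw [e, (hcc (u * v * u⁻¹)).eq]
  group

theorem h2_bra_congr (hc : φ.ker ≤ Subgroup.center E) {u u' v v' : E} (h : φ u = φ u')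
    (h' : φ v = φ v') : ⁅u, v⁆ = ⁅u', v'⁆ := by
  obtain ⟨c, hcc, rfl⟩ := h2_lift hc h
  obtain ⟨d, hd, rfl⟩ := h2_lift hc h'
  rw [h2_bra_left hcc, ← commutatorElement_inv, h2_bra_left hd, commutatorElement_inv]

theorem h2_comm_bra (hc : φ.ker ≤ Subgroup.center E) {w y y' : E} (h : Commute (φ w) (φ y))
    (h' : Commute (φ w) (φ y')) : Commute w ⁅y, y'⁆ := by
  have e1 : φ (w * y * w⁻¹) = φ y := by
    rw [map_mul, map_mul, map_inv, h.eq, mul_inv_cancel_right]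
  have e2 : φ (w * y' * w⁻¹) = φ y' := by
    rw [map_mul, map_mul, map_inv, h'.eq, mul_inv_cancel_right]
  have e3 := h2_bra_congr hc e1 e2
  have e4 : w * ⁅y, y'⁆ = ⁅w * y * w⁻¹, w * y' * w⁻¹⁆ * w := by
    simp only [commutatorElement_def]
    group
  unfold Commute SemiconjBy
  rw [e4, e3]

theorem h2_jacobi {u v w : E} (h1 : Commute u w) (h2 : Commute ⁅u, v⁆ ⁅v, w⁆)
    (h3 : Commute ⁅u, ⁅v, w⁆⁆ ⁅v, w⁆) : ⁅⁅u, v⁆, w⁆ = ⁅u, ⁅v, w⁆⁆ := by
  have e0 : w * u * w⁻¹ = u := by rw [← h1.eq, mul_inv_cancel_right]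
  have e1 : w * ⁅u, v⁆⁻¹ * w⁻¹ =
      ⁅v, w⁆⁻¹ * v * (w * u * w⁻¹) * v⁻¹ * ⁅v, w⁆ * (w * u * w⁻¹)⁻¹ := by
    simp only [commutatorElement_def]
    group
  rw [e0] at e1
  have e2 : ⁅⁅u, v⁆, w⁆ = ⁅u, v⁆ * (w * ⁅u, v⁆⁻¹ * w⁻¹) := by
    rw [commutatorElement_def ⁅u, v⁆ w]
    group
  have e3 : ⁅v, w⁆⁻¹ * v * u * v⁻¹ * ⁅v, w⁆ * u⁻¹ =
      ⁅v, w⁆⁻¹ * ⁅u, v⁆⁻¹ * (⁅u, ⁅v, w⁆⁆ * ⁅v, w⁆) := by
    rw [commutatorElement_def u ⁅v, w⁆, commutatorElement_def u v]
    group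
  rw [e2, e1, e3, h3.eq, ← mul_assoc, ← mul_assoc ⁅u, v⁆, h2.inv_right.eq]
  group

theorem h2_bra_mul (u v v' : E) (h : Commute v ⁅u, v'⁆) : ⁅u, v * v'⁆ = ⁅u, v⁆ * ⁅u, v'⁆ := by
  have e : ⁅u, v * v'⁆ = ⁅u, v⁆ * (v * ⁅u, v'⁆) * v⁻¹ := by
    simp only [commutatorElement_def]
    group
  rw [e, h.eq]
  group

end central

theorem h2_fresh {n : ℕ} (hn : 5 ≤ n) (i j k l : Fin n) :
    ∃ h : Fin n, h ≠ i ∧ h ≠ j ∧ h ≠ k ∧ h ≠ l := by
  have hc : ({i, j, k, l} : Finset (Fin n)).card < (Finset.univ : Finset (Fin n)).card := by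
    rw [Finset.card_univ, Fintype.card_fin]
    exact lt_of_le_of_lt Finset.card_le_four (by omega)
  obtain ⟨h, -, hh⟩ := Finset.exists_mem_notMem_of_card_lt_card hc
  simp only [Finset.mem_insert, Finset.mem_singleton, not_or] at hh
  exact ⟨h, hh⟩

section split
variable {n : ℕ} {E : Type*} [Group E] {φ : E →* St (Fin n) R}

theorem h2_commute (hn : 5 ≤ n) (hs : Function.Surjective φ) (hc : φ.ker ≤ Subgroup.center E)
    {i j k l : Fin n} {a b : R} (hij : i ≠ j) (hkl : k ≠ l) (hjk : j ≠ k) (hil : i ≠ l)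
    {u w : E} (hu : φ u = stx i j a) (hw : φ w = stx k l b) : Commute u w := by
  obtain ⟨h, h1, h2, h3, h4⟩ := h2_fresh hn i j k l
  obtain ⟨y, hy⟩ := hs (stx i h a)
  obtain ⟨y', hy'⟩ := hs (stx h j 1)
  have e1 : Commute w ⁅y, y'⁆ := by
    refine h2_comm_bra hc ?_ ?_
    · rw [hw, hy]
      exact (isStFam_stx.comm i h k l a b h1.symm hkl h3 hil).symm
    · rw [hw, hy']
      exact (isStFam_stx.comm h j k l 1 b h2 hkl hjk h4).symm
  have e2 : φ u = φ ⁅y, y'⁆ := by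
    rw [map_commutatorElement, hy, hy', hu, isStFam_stx.bra i h j a 1 h1.symm h2 hij, mul_one]
  obtain ⟨c, hcc, rfl⟩ := h2_lift hc e2
  exact (hcc w).mul_left e1.symm

theorem h2_move (hn : 5 ≤ n) (hs : Function.Surjective φ) (hc : φ.ker ≤ Subgroup.center E)
    {h i j k : Fin n} {b c : R} (hhi : h ≠ i) (hhj : h ≠ j) (hhk : h ≠ k) (hij : i ≠ j)
    (hik : i ≠ k) (hjk : j ≠ k) {p w u r : E} (hp : φ p = stx h j b) (hw : φ w = stx j k c)
    (hu : φ u = stx h i 1) (hr : φ r = stx i k (b * c)) : ⁅p, w⁆ = ⁅u, r⁆ := by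
  obtain ⟨v, hv⟩ := hs (stx i j b)
  have e1 : φ ⁅u, v⁆ = stx h j b := by
    rw [map_commutatorElement, hu, hv, isStFam_stx.bra h i j 1 b hhi hij hhj, one_mul]
  have e2 : φ ⁅v, w⁆ = stx i k (b * c) := by
    rw [map_commutatorElement, hv, hw, isStFam_stx.bra i j k b c hij hjk hik]
  have e3 : φ ⁅u, ⁅v, w⁆⁆ = stx h k (1 * (b * c)) := by
    rw [map_commutatorElement, hu, e2, isStFam_stx.bra h i k 1 (b * c) hhi hik hhk]
  rw [h2_bra_congr hc (hp.trans e1.symm) (rfl : φ w = φ w),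
    h2_bra_congr hc (rfl : φ u = φ u) (hr.trans e2.symm)]
  exact h2_jacobi (h2_commute hn hs hc hhi hjk hij hhk hu hw)
    (h2_commute hn hs hc hhj hik hij.symm hhk e1 e2)
    (h2_commute hn hs hc hhk hik hik.symm hhk e3 e2)

end split

theorem st_split {n : ℕ} (hn : 5 ≤ n) {E : Type v} [Group E] (φ : E →* St (Fin n) R)
    (hs : Function.Surjective φ) (hc : φ.ker ≤ Subgroup.center E) :
    ∃ s : St (Fin n) R →* E, ∀ g, φ (s g) = g := by
  classical
  choose L hL using hs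
  have hs : Function.Surjective φ := fun g => ⟨L g, hL g⟩
  choose m hm1 hm2 hm3 hm4 using fun i j : Fin n => h2_fresh hn i j i j
  obtain ⟨X, hX⟩ : ∃ X : Fin n → Fin n → R → E, ∀ i j r, X i j r =
      if i = j then 1 else ⁅L (stx i (m i j) 1), L (stx (m i j) j r)⁆ := ⟨_, fun _ _ _ => rfl⟩
  have hφ : ∀ i j r, φ (X i j r) = stx i j r := by
    intro i j r
    rw [hX]
    split_ifs with h
    · rw [map_one, h, isStFam_stx.diag]
    · rw [map_commutatorElement, hL, hL,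
        isStFam_stx.bra i (m i j) j 1 r (hm1 i j).symm (hm2 i j) h, one_mul]
  have hF : IsStFam X := by
    refine ⟨fun i r => by rw [hX, if_pos rfl], ?_, ?_, ?_⟩
    · intro i j r s hij
      have e : φ (L (stx (m i j) j (r + s))) =
          φ (L (stx (m i j) j r) * L (stx (m i j) j s)) := by
        rw [map_mul, hL, hL, hL, isStFam_stx.add _ _ _ _ (hm2 i j)]
      have e2 := hφ i j s
      rw [hX, if_neg hij] at e2
      rw [hX, hX, hX, if_neg hij, if_neg hij, if_neg hij, h2_bra_congr hc rfl e]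
      exact h2_bra_mul _ _ _ (h2_commute hn hs hc (hm2 i j) hij hij.symm (hm2 i j) (hL _) e2)
    · intro i j k l r s h1 h2 h3 h4
      exact h2_commute hn hs hc h1 h2 h3 h4 (hφ _ _ _) (hφ _ _ _)
    · intro i j l r s h1 h2 h3
      obtain ⟨h, k1, k2, k3, k4⟩ := h2_fresh hn i j l (m i l)
      rw [h2_move hn hs hc k1.symm h1 h3 k2 k3 h2 (hφ i j r) (hφ j l s) (hL (stx i h 1))
        (hL (stx h l (r * s))), hX, if_neg h3]
      exact h2_move hn hs hc (hm1 i l).symm k1.symm h3 k4.symm (hm2 i l) k3 (hL _) (hL _) (hL _)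
        (by rw [hL, one_mul])
  refine ⟨hF.lift, fun g => ?_⟩
  have : φ.comp hF.lift = MonoidHom.id _ :=
    st_hom_ext fun i j r _ => by simp [hφ]
  exact DFunLike.congr_fun this g

/-- The central extension attached to a 2-cocycle. -/
@[ext] structure H2Ext {G : Type} [Group G] {M : Type v} [AddCommGroup M] {o : G → G → M}
    (_ho : IsCoc2 o) : Type v where
  m : M
  g : G

section ext
variable {G : Type} [Group G] {M : Type v} [AddCommGroup M] {o : G → G → M}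

theorem h2_one_left (ho : IsCoc2 o) (k : G) : o 1 k = o 1 1 := by
  have := ho 1 1 k
  simp only [mul_one, one_mul, sub_self, zero_add] at this
  exact sub_eq_zero.1 this

theorem h2_one_right (ho : IsCoc2 o) (g : G) : o g 1 = o 1 1 := by
  have := ho g 1 1
  simp only [mul_one, sub_add_cancel] at this
  exact (sub_eq_zero.1 this).symm

instance (ho : IsCoc2 o) : Mul (H2Ext ho) := ⟨fun a b => ⟨a.m + b.m + o a.g b.g, a.g * b.g⟩⟩
instance (ho : IsCoc2 o) : One (H2Ext ho) := ⟨⟨-o 1 1, 1⟩⟩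
instance (ho : IsCoc2 o) : Inv (H2Ext ho) := ⟨fun a => ⟨-a.m - o a.g⁻¹ a.g - o 1 1, a.g⁻¹⟩⟩

theorem h2_mul_m (ho : IsCoc2 o) (a b : H2Ext ho) : (a * b).m = a.m + b.m + o a.g b.g := rfl
theorem h2_mul_g (ho : IsCoc2 o) (a b : H2Ext ho) : (a * b).g = a.g * b.g := rfl
theorem h2_one_m (ho : IsCoc2 o) : (1 : H2Ext ho).m = -o 1 1 := rfl
theorem h2_one_g (ho : IsCoc2 o) : (1 : H2Ext ho).g = 1 := rfl
theorem h2_inv_m (ho : IsCoc2 o) (a : H2Ext ho) : a⁻¹.m = -a.m - o a.g⁻¹ a.g - o 1 1 := rfl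
theorem h2_inv_g (ho : IsCoc2 o) (a : H2Ext ho) : a⁻¹.g = a.g⁻¹ := rfl

instance (ho : IsCoc2 o) : Group (H2Ext ho) :=
  Group.ofLeftAxioms
    (fun a b c => by
      ext
      · simp only [h2_mul_m, h2_mul_g]
        have := ho a.g b.g c.g
        rw [← sub_eq_zero, ← neg_eq_zero, ← this]
        abel
      · simp only [h2_mul_g, mul_assoc])
    (fun a => by
      ext
      · rw [h2_mul_m, h2_one_m, h2_one_g, h2_one_left ho a.g]
        abel
      · rw [h2_mul_g, h2_one_g, one_mul])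
    (fun a => by
      ext
      · rw [h2_mul_m, h2_one_m, h2_inv_m, h2_inv_g]
        abel
      · rw [h2_mul_g, h2_one_g, h2_inv_g, inv_mul_cancel])

/-- The projection of the extension. -/
def h2Proj (ho : IsCoc2 o) : H2Ext ho →* G := MonoidHom.mk' (fun a => a.g) fun _ _ => rfl

end ext

theorem st_h2Zero {n : ℕ} (hn : 5 ≤ n) : H2Zero.{_, v} (St (Fin n) R) := by
  intro M _ o ho
  obtain ⟨s, hs⟩ := st_split hn (h2Proj ho) (fun g => ⟨⟨0, g⟩, rfl⟩) (by
    intro a ha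
    have ha' : a.g = 1 := ha
    rw [Subgroup.mem_center_iff]
    intro b
    ext
    · rw [h2_mul_m, h2_mul_m, ha', h2_one_left ho b.g, h2_one_right ho b.g, add_comm a.m]
    · rw [h2_mul_g, h2_mul_g, ha', mul_one, one_mul])
  have hs' : ∀ g, (s g).g = g := hs
  refine ⟨fun g => -(s g).m, fun g h => ?_⟩
  simp only [map_mul, h2_mul_m, hs']
  abel

end Vale.Agent.P178
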