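import Vale.Agent.P178.StDiag
import Vale.Agent.P178.StH2

/-!
P178: the torus symbol `T (u, t, v)` over a field is trilinear and satisfies the Steinberg
relations; hence the symbol of the counterexample dies in the fraction field.
-/

namespace Vale.Agent.P178

open scoped commutatorElement

universe v

section Gen

variable {G : Type} [Group G] {M : Type v} [AddCommGroup M] {o : G → G → G → M}

omit [Group G] in
theorem sv_cyc (o : G → G → G → M) (g h k : G) : tau o g h k = tau o h k g := by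
  unfold tau; abel

theorem sv_mul2 (ho : IsCoc3 o) {g h h' k : G} (gk : Commute g k) (gh : Commute g h)
    (hk : Commute h k) (gh' : Commute g h') (h'k : Commute h' k) :
    tau o g (h * h') k = tau o g h k + tau o g h' k := by
  rw [sv_cyc o g, sv_cyc o g, sv_cyc o g, tau_mul ho gk.symm hk gh.symm h'k gh'.symm]

theorem sv_mul3 (ho : IsCoc3 o) {g h k k' : G} (gh : Commute g h) (gk : Commute g k)
    (hk : Commute h k) (gk' : Commute g k') (hk' : Commute h k') :
    tau o g h (k * k') = tau o g h k + tau o g h k' := by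
  rw [← sv_cyc o (k * k'), ← sv_cyc o k, ← sv_cyc o k',
    tau_mul ho gh gk.symm hk.symm gk'.symm hk'.symm]

theorem sv_conj (ho : IsCoc3 o) {a b h k : G} (hk : Commute h k) (ah : Commute a h)
    (ak : Commute a k) (bh : Commute b h) (bk : Commute b k) :
    tau o (a * b * a⁻¹) h k = tau o b h k := by
  have h1 := tau_mul ho hk ((ah.mul_left bh).mul_left ah.inv_left)
    ((ak.mul_left bk).mul_left ak.inv_left) ah ak
  rw [inv_mul_cancel_right, tau_mul ho hk ah ak bh bk, add_comm] at h1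
  exact (add_right_cancel h1).symm

end Gen

section Types

variable {R : Type} [CommRing R] {n : ℕ}

/-- The type of `h i j u`. -/
def svTy (i j : Fin n) (u : Rˣ) : Fin n → Rˣ :=
  fun k => if k = i then u else if k = j then u⁻¹ else 1

theorem sv_diag (hn : 3 ≤ n) {i j : Fin n} (hij : i ≠ j) (u : Rˣ) :
    IsDiagSt (sth i j u) (svTy i j u) := isDiagSt_sth hn hij u

theorem sv_commute_type {D D' g : St (Fin n) R} {lam : Fin n → Rˣ} (h : IsDiagSt D lam)
    (h' : IsDiagSt D' lam) (hg : Commute g D) : Commute g D' := by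
  have h1 : Commute g (D' * D⁻¹) := Subgroup.mem_center_iff.1 (h.central h') g
  simpa using h1.mul_right hg

theorem sv_commute_sth {g : St (Fin n) R} {i j : Fin n} (h1 : ∀ r, Commute (stx i j r) g)
    (h2 : ∀ r, Commute (stx j i r) g) (u : Rˣ) : Commute (sth i j u) g :=
  (((h1 _).mul_left (h2 _)).mul_left (h1 _)).mul_left (((h1 _).mul_left (h2 _)).mul_left (h1 _))

theorem sv_commute_const {D : St (Fin n) R} {lam : Fin n → Rˣ} (h : IsDiagSt D lam)
    {i j : Fin n} (hij : lam i = lam j) (u : Rˣ) : Commute (sth i j u) D :=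
  sv_commute_sth (fun r => (h.commute_stx hij r).symm) (fun r => (h.commute_stx hij.symm r).symm) u

theorem svTy_swap {i j : Fin n} (hij : i ≠ j) (u : Rˣ) : svTy j i u = svTy i j u⁻¹ := by
  funext k
  unfold svTy
  by_cases h1 : k = i
  · simp [h1, hij]
  · by_cases h2 : k = j <;> simp [h1, h2, hij.symm]

theorem svTy_inv (i j : Fin n) (u : Rˣ) : svTy i j u⁻¹ = (svTy i j u)⁻¹ := by
  funext k
  unfold svTy
  simp only [Pi.inv_apply]
  split_ifs <;> simp

/-- The commutation condition in the small Steinberg group. -/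
def SvP (u t : Rˣ) : Prop := Commute (sth 0 1 u : St (Fin 5) R) (sth 0 1 t)

theorem SvP.inv {u t : Rˣ} (h : SvP u t) : SvP u t⁻¹ :=
  sv_commute_type (sv_diag (by norm_num) (by decide) t).inv
    (svTy_inv (0 : Fin 5) 1 t ▸ sv_diag (by norm_num) (by decide) t⁻¹) h.inv_right

theorem svP_steinberg {u t : Rˣ} (h : (u : R) + t = 1) : SvP u t := by
  obtain ⟨c, -, h2, -, h4, h5⟩ := exists_symbol (R := R) (n := 5) (by norm_num)
  have h1 := h4 _ _ (sv_diag (by norm_num) (show (0 : Fin 5) ≠ 1 by decide) u) 0 1 (by decide) t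
  have e : svTy (0 : Fin 5) 1 u 0 * (svTy (0 : Fin 5) 1 u 1)⁻¹ = u * u := by simp [svTy]
  rw [e, h2, h5 u t h, one_mul] at h1
  exact commutatorElement_eq_one_iff_commute.1 h1

theorem SvP.emb {u t : Rˣ} (h : SvP u t) (e : Fin 5 ↪ Fin n) :
    Commute (sth (e 0) (e 1) u) (sth (e 0) (e 1) t) := by
  rw [← stEmb_sth, ← stEmb_sth]
  exact h.map _

end Types

variable {F : Type} [Field F] {M : Type v} [AddCommGroup M]
  {o : St (Fin 7) F → St (Fin 7) F → St (Fin 7) F → M}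

theorem sv_type1 (ho : IsCoc3 o) {D D' h k : St (Fin 7) F} {lam : Fin 7 → Fˣ}
    (hD : IsDiagSt D lam) (hD' : IsDiagSt D' lam) (hk : Commute h k) (Dh : Commute D h)
    (Dk : Commute D k) : tau o D' h k = tau o D h k := by
  have hc : ∀ g, Commute (D' * D⁻¹) g := fun g =>
    (Subgroup.mem_center_iff.1 (hD.central hD') g).symm
  have h0 : tau o h k (D' * D⁻¹) = 0 :=
    tau_eq_zero_of_H2Zero ho (st_h2Zero (n := 7) (by norm_num)) (MonoidHom.id _)
      (fun a => (hc a).symm) hk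
  have h1 := tau_mul ho hk (hc h) (hc k) Dh Dk
  rwa [inv_mul_cancel_right, sv_cyc o (D' * D⁻¹), h0, zero_add] at h1

theorem sv_type2 (ho : IsCoc3 o) {D D' g k : St (Fin 7) F} {lam : Fin 7 → Fˣ}
    (hD : IsDiagSt D lam) (hD' : IsDiagSt D' lam) (gk : Commute g k) (gD : Commute g D)
    (Dk : Commute D k) : tau o g D' k = tau o g D k := by
  rw [sv_cyc o g, sv_cyc o g, sv_type1 ho hD hD' gk.symm Dk gD.symm]

theorem sv_type3 (ho : IsCoc3 o) {D D' g h : St (Fin 7) F} {lam : Fin 7 → Fˣ}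
    (hD : IsDiagSt D lam) (hD' : IsDiagSt D' lam) (gh : Commute g h) (gD : Commute g D)
    (hD0 : Commute h D) : tau o g h D' = tau o g h D := by
  rw [← sv_cyc o D', ← sv_cyc o D, sv_type1 ho hD hD' gh gD.symm hD0.symm]

theorem T_mul1 (ho : IsCoc3 o) (u u' t v : Fˣ) :
    tau o (dA (u * u')) (dB t) (dC v) = tau o (dA u) (dB t) (dC v) + tau o (dA u') (dB t) (dC v) := by
  have e : (fun k => (u * u') ^ expA k) = (fun k => u ^ expA k) * fun k => u' ^ expA k := by
    funext k; simp [mul_zpow]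
  rw [sv_type1 ho ((isDiagSt_dA u).mul (isDiagSt_dA u')) (e ▸ isDiagSt_dA (u * u'))
    (commute_dB_dC t v) ((commute_dA_dB u t).mul_left (commute_dA_dB u' t))
    ((commute_dA_dC u v).mul_left (commute_dA_dC u' v)),
    tau_mul ho (commute_dB_dC t v) (commute_dA_dB u t) (commute_dA_dC u v) (commute_dA_dB u' t)
      (commute_dA_dC u' v)]

theorem T_mul2 (ho : IsCoc3 o) (u t t' v : Fˣ) :
    tau o (dA u) (dB (t * t')) (dC v) = tau o (dA u) (dB t) (dC v) + tau o (dA u) (dB t') (dC v) := by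
  have e : (fun k => (t * t') ^ expB k) = (fun k => t ^ expB k) * fun k => t' ^ expB k := by
    funext k; simp [mul_zpow]
  rw [sv_type2 ho ((isDiagSt_dB t).mul (isDiagSt_dB t')) (e ▸ isDiagSt_dB (t * t'))
    (commute_dA_dC u v) ((commute_dA_dB u t).mul_right (commute_dA_dB u t'))
    ((commute_dB_dC t v).mul_left (commute_dB_dC t' v)),
    sv_mul2 ho (commute_dA_dC u v) (commute_dA_dB u t) (commute_dB_dC t v) (commute_dA_dB u t')
      (commute_dB_dC t' v)]

theorem T_mul3 (ho : IsCoc3 o) (u t v v' : Fˣ) :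
    tau o (dA u) (dB t) (dC (v * v')) = tau o (dA u) (dB t) (dC v) + tau o (dA u) (dB t) (dC v') := by
  have e : (fun k => (v * v') ^ expC k) = (fun k => v ^ expC k) * fun k => v' ^ expC k := by
    funext k; simp [mul_zpow]
  rw [sv_type3 ho ((isDiagSt_dC v).mul (isDiagSt_dC v')) (e ▸ isDiagSt_dC (v * v'))
    (commute_dA_dB u t) ((commute_dA_dC u v).mul_right (commute_dA_dC u v'))
    ((commute_dB_dC t v).mul_right (commute_dB_dC t v')),
    sv_mul3 ho (commute_dA_dB u t) (commute_dA_dC u v) (commute_dB_dC t v) (commute_dA_dC u v')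
      (commute_dB_dC t v')]

theorem sv_cross_stx (h2 : (2 : F) ≠ 0) (h3 : (3 : F) ≠ 0) (ho : IsCoc3 o) {i j : Fin 7}
    (hij : i ≠ j) {h k : St (Fin 7) F} (hk : Commute h k)
    (h1 : ∀ r, Commute (stx i j r) h) (h1' : ∀ r, Commute (stx j i r) h)
    (k1 : ∀ r, Commute (stx i j r) k) (k1' : ∀ r, Commute (stx j i r) k) (r : F) :
    tau o (stx i j r) h k = 0 := by
  have hD := sv_diag (by norm_num) hij (Units.mk0 (2 : F) h2) i j (r / 3) hij
  have e : ((svTy i j (Units.mk0 (2 : F) h2) i : Fˣ) : F) * (r / 3) *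
      ((svTy i j (Units.mk0 (2 : F) h2) j)⁻¹ : Fˣ) = r + r / 3 := by
    simp only [svTy, if_true, if_neg hij.symm, inv_inv, Units.val_mk0]
    field_simp
    ring
  rw [e, isStFam_stx.add i j _ _ hij] at hD
  have h4 := sv_conj ho hk (sv_commute_sth h1 h1' (Units.mk0 (2 : F) h2))
    (sv_commute_sth k1 k1' (Units.mk0 (2 : F) h2)) (h1 (r / 3)) (k1 (r / 3))
  rw [hD, tau_mul ho hk (h1 _) (k1 _) (h1 _) (k1 _)] at h4
  exact add_eq_right.1 h4

theorem sv_cross (h2 : (2 : F) ≠ 0) (h3 : (3 : F) ≠ 0) (ho : IsCoc3 o) {i j : Fin 7}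
    (hij : i ≠ j) {h k : St (Fin 7) F} {lam mu : Fin 7 → Fˣ} (hh : IsDiagSt h lam)
    (hk : IsDiagSt k mu) (hl : lam i = lam j) (hm : mu i = mu j) (hc : Commute h k) (u : Fˣ) :
    tau o (sth i j u) h k = 0 := by
  have h1 : ∀ r, Commute (stx i j r) h := fun r => (hh.commute_stx hl r).symm
  have h1' : ∀ r, Commute (stx j i r) h := fun r => (hh.commute_stx hl.symm r).symm
  have k1 : ∀ r, Commute (stx i j r) k := fun r => (hk.commute_stx hm r).symm
  have k1' : ∀ r, Commute (stx j i r) k := fun r => (hk.commute_stx hm.symm r).symm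
  have a := sv_cross_stx h2 h3 ho hij hc h1 h1' k1 k1'
  have b := sv_cross_stx h2 h3 ho hij.symm hc h1' h1 k1' k1
  have w : ∀ u : Fˣ, tau o (stw i j u) h k = 0 := by
    intro u
    rw [stw, tau_mul ho hc ((h1 _).mul_left (h1' _)) ((k1 _).mul_left (k1' _)) (h1 _) (k1 _),
      tau_mul ho hc (h1 _) (k1 _) (h1' _) (k1' _), a, b, add_zero, add_zero]
  have wh : ∀ u : Fˣ, Commute (stw i j u) h := fun u =>
    ((h1 _).mul_left (h1' _)).mul_left (h1 _)
  have wk : ∀ u : Fˣ, Commute (stw i j u) k := fun u =>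
    ((k1 _).mul_left (k1' _)).mul_left (k1 _)
  rw [sth, tau_mul ho hc (wh _) (wk _) (wh _) (wk _), w, w, add_zero]

theorem sv_block (h2 : (2 : F) ≠ 0) (h3 : (3 : F) ≠ 0) (ho : IsCoc3 o) (e : Fin 5 ↪ Fin 7)
    (p : Fin 7) (hp : ∀ a, e a ≠ p) {u t : Fˣ} (hP : SvP u t) {D : St (Fin 7) F}
    {lam : Fin 7 → Fˣ} (hD : IsDiagSt D lam) (hl : lam (e 0) = lam (e 1)) :
    tau o (sth (e 0) (e 1) u) (sth (e 0) (e 1) t) D = 0 := by
  have h01 : e 0 ≠ e 1 := e.injective.ne (by decide)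
  have hc := hP.emb e
  have du := sv_diag (by norm_num) h01 u
  have dt := sv_diag (by norm_num) h01 t
  have key : ∀ (a : Fin 5), a ≠ 0 → a ≠ 1 → ∀ (c : Fˣ) (E : St (Fin 7) F) (mu : Fin 7 → Fˣ),
      IsDiagSt E mu → mu (e 0) = mu (e 1) →
      tau o (sth (e 0) (e 1) u) (sth (e 0) (e 1) t) (E * sth (e a) p c) =
        tau o (sth (e 0) (e 1) u) (sth (e 0) (e 1) t) E := by
    intro a a0 a1 c E mu hE hm
    have e1 : ∀ s : Fˣ, svTy (e 0) (e 1) s (e a) = svTy (e 0) (e 1) s p := by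
      intro s
      simp [svTy, a0, a1, (hp _).symm]
    rw [sv_mul3 ho hc (sv_commute_const hE hm u) (sv_commute_const hE hm t)
      (sv_commute_const du (e1 u) c).symm (sv_commute_const dt (e1 t) c).symm,
      ← sv_cyc o (sth (e a) p c), sv_cross h2 h3 ho (hp a) du dt (e1 u) (e1 t) hc, add_zero]
  have d2 := hD.mul (sv_diag (by norm_num) (hp 2) (lam (e 0) * (lam (e 2))⁻¹))
  have d3 := d2.mul (sv_diag (by norm_num) (hp 3) (lam (e 0) * (lam (e 3))⁻¹))
  have d4 := d3.mul (sv_diag (by norm_num) (hp 4) (lam (e 0) * (lam (e 4))⁻¹))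
  rw [← key 2 (by decide) (by decide) _ _ _ hD hl,
    ← key 3 (by decide) (by decide) _ _ _ d2 (by simp [svTy, hp, hl]),
    ← key 4 (by decide) (by decide) _ _ _ d3 (by simp [svTy, hp, hl]), ← stEmb_sth, ← stEmb_sth]
  refine tau_eq_zero_of_H2Zero ho (st_h2Zero (n := 5) (by norm_num)) (stEmb F e) (fun g => ?_) hP
  have hm : ∀ a, (lam * svTy (e 2) p (lam (e 0) * (lam (e 2))⁻¹) *
      svTy (e 3) p (lam (e 0) * (lam (e 3))⁻¹) * svTy (e 4) p (lam (e 0) * (lam (e 4))⁻¹)) (e a) =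
      lam (e 0) := by
    intro a
    fin_cases a <;> simp [svTy, hp, hl]
  induction g using st_induction with
  | h1 => simp
  | hx i j r g _ ih =>
    rw [map_mul, stEmb_stx]
    exact (d4.commute_stx ((hm i).trans (hm j).symm) r).symm.mul_left ih

theorem sv_four (h2 : (2 : F) ≠ 0) (h3 : (3 : F) ≠ 0) (ho : IsCoc3 o) (σ : Fin 7 ↪ Fin 7)
    {u t : Fˣ} (hP : SvP u t) {D : St (Fin 7) F} {lam : Fin 7 → Fˣ} (hD : IsDiagSt D lam)
    (hl : lam (σ 0) = lam (σ 1)) (hl' : lam (σ 2) = lam (σ 3)) :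
    tau o (sth (σ 0) (σ 1) u * sth (σ 2) (σ 3) u) (sth (σ 0) (σ 1) t * sth (σ 3) (σ 2) t) D = 0 := by
  let e1 : Fin 5 ↪ Fin 7 := Function.Embedding.trans ⟨![0, 1, 4, 5, 6], by decide⟩ σ
  let e2 : Fin 5 ↪ Fin 7 := Function.Embedding.trans ⟨![2, 3, 4, 5, 6], by decide⟩ σ
  have p1 : ∀ a, e1 a ≠ σ 2 := fun a => σ.injective.ne (by revert a; decide)
  have p2 : ∀ a, e2 a ≠ σ 0 := fun a => σ.injective.ne (by revert a; decide)
  have h01 : σ 0 ≠ σ 1 := σ.injective.ne (by decide)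
  have h23 : σ 2 ≠ σ 3 := σ.injective.ne (by decide)
  have b1 : tau o (sth (σ 0) (σ 1) u) (sth (σ 0) (σ 1) t) D = 0 :=
    sv_block h2 h3 ho e1 _ p1 hP hD hl
  have b2 : tau o (sth (σ 2) (σ 3) u) (sth (σ 2) (σ 3) t⁻¹) D = 0 :=
    sv_block h2 h3 ho e2 _ p2 hP.inv hD hl'
  have d01 := sv_diag (R := F) (by norm_num) h01
  have d23 := sv_diag (R := F) (by norm_num) h23
  have d32 := sv_diag (R := F) (by norm_num) h23.symm
  have d32' : IsDiagSt (sth (σ 3) (σ 2) t) (svTy (σ 2) (σ 3) t⁻¹) := svTy_swap h23 t ▸ d32 t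
  have c11 : Commute (sth (σ 0) (σ 1) u) (sth (σ 0) (σ 1) t) := hP.emb e1
  have c22' : Commute (sth (σ 2) (σ 3) u) (sth (σ 2) (σ 3) t⁻¹) := hP.inv.emb e2
  have c22 := sv_commute_type (d23 t⁻¹) d32' c22'
  have t1 : svTy (σ 3) (σ 2) t (σ 0) = svTy (σ 3) (σ 2) t (σ 1) := by simp [svTy]
  have t2 : svTy (σ 0) (σ 1) t (σ 2) = svTy (σ 0) (σ 1) t (σ 3) := by simp [svTy]
  have c12 := sv_commute_const (d32 t) t1 u
  have c21 := sv_commute_const (d01 t) t2 u
  have a1 := sv_commute_const hD hl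
  have a2 := sv_commute_const hD hl'
  have a3 := sv_commute_const hD hl'.symm
  rw [tau_mul ho ((a1 t).mul_left (a3 t)) (c11.mul_right c12) (a1 u) (c21.mul_right c22) (a2 u),
    sv_mul2 ho (a1 u) c11 (a1 t) c12 (a3 t), sv_mul2 ho (a2 u) c21 (a1 t) c22 (a3 t), b1,
    sv_cross h2 h3 ho h01 (d32 t) hD t1 hl (a3 t), sv_cross h2 h3 ho h23 (d01 t) hD t2 hl' (a1 t),
    sv_type2 ho (d23 t⁻¹) d32' (a2 u) c22' (a2 t⁻¹), b2]
  simp

theorem T_steinberg (h2 : (2 : F) ≠ 0) (h3 : (3 : F) ≠ 0) (ho : IsCoc3 o) (u t v : Fˣ)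
    (h : (u : F) + t = 1) : tau o (dA u) (dB t) (dC v) = 0 :=
  sv_four h2 h3 ho ⟨![0, 3, 1, 2, 4, 5, 6], by decide⟩ (svP_steinberg h) (isDiagSt_dC v) rfl rfl

theorem T_self (h2 : (2 : F) ≠ 0) (h3 : (3 : F) ≠ 0) (ho : IsCoc3 o) (u v : Fˣ) :
    tau o (dA u) (dB v) (dC v) = 0 := by
  have h := sv_four h2 h3 ho (Function.Embedding.refl _) (u := v) (t := v) (Commute.refl _)
    (isDiagSt_dA u) rfl rfl
  have d := (sv_diag (R := F) (by norm_num) (show (0 : Fin 7) ≠ 1 by decide) v).mul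
    (sv_diag (by norm_num) (show (2 : Fin 7) ≠ 3 by decide) v)
  have e : svTy (0 : Fin 7) 1 v * svTy 2 3 v = fun k => v ^ expB k := by
    funext k
    fin_cases k <;> simp [svTy, expB]
  rw [e] at d
  rw [← sv_type2 ho (isDiagSt_dB v) d (commute_dA_dC u v) (commute_dA_dB u v) (commute_dB_dC v v),
    sv_cyc]
  exact h

/-- The symbol of the counterexample vanishes over the field. -/
theorem T_vanish (h2 : (2 : F) ≠ 0) (h3 : (3 : F) ≠ 0) (ho : IsCoc3 o) (u t z a y : Fˣ)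
    (hz : z ^ 3 = 1) (hy : (y : F) + t = 1) (hu : (u : F) * y + ((t * a ^ 3 * z⁻¹ : Fˣ) : F) = 1) :
    tau o (dA u) (dB t) (dC z) = 0 := by
  have key : ∀ s : Fˣ, tau o (dA s) (dB (t * a ^ 3 * z⁻¹)) (dC z) = tau o (dA s) (dB t) (dC z) := by
    intro s
    have h1 : tau o (dA s) (dB a) (dC 1) = 0 := by
      have := T_mul3 ho s a 1 1
      rw [one_mul] at this
      exact left_eq_add.1 this
    have h4 : z * z * z = 1 := by rw [← hz, pow_three, mul_assoc]
    rw [← h4, T_mul3 ho, T_mul3 ho] at h1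
    have h5 := T_mul2 ho s (t * a ^ 3 * z⁻¹) z z
    rw [inv_mul_cancel_right, T_self h2 h3 ho, add_zero] at h5
    rw [← h5, T_mul2 ho, pow_three', T_mul2 ho, T_mul2 ho, h1, add_zero]
  have h6 := T_steinberg h2 h3 ho (u * y) (t * a ^ 3 * z⁻¹) z hu
  rwa [T_mul1 ho, key, key, T_steinberg h2 h3 ho y t z hy, add_zero] at h6

end Vale.Agent.P178
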