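import Vale.Agent.P178.Conn
import Vale.Agent.P178.StVanish

/-!
P178: evaluation of the invariant on the torus of the counterexample, and vanishing over the
fraction field.
-/

namespace Vale.Agent.P178

universe v

theorem Conn.isCoc3_gc {A B P : Type} [CommRing A] [CommRing B] [Algebra A B]
    {D : Fin 3 → Derivation ℤ A B} [AddCommGroup P] [Module A P] [Module.Free A P]
    [Module.Finite A P] (c : Conn D P) : IsCoc3 c.gc := by
  intro g h k l
  have h1 := congrArg (LinearMap.trace B _) (Conn.phi_coc c (c.act g) (c.act (g * h))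
    (c.act (g * h * k)) (c.act (g * h * k * l)))
  have h2 := Conn.trace_phi_act g c (c.act h) (c.act (h * k)) (c.act (h * k * l))
  simp only [← Conn.act_mul, ← mul_assoc] at h2
  simp only [map_add] at h1
  simp only [Conn.gc, ← mul_assoc]
  linear_combination h2 - h1

theorem dlog_mul {A B : Type} [CommRing A] [CommRing B] [Algebra A B] (D : Derivation ℤ A B)
    (u v : Aˣ) : dlog D (u * v) = dlog D u + dlog D v := by
  have hu : algebraMap A B ((u⁻¹ : Aˣ) : A) * algebraMap A B u = 1 := by
    rw [← map_mul, Units.inv_mul, map_one]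
  have hv : algebraMap A B ((v⁻¹ : Aˣ) : A) * algebraMap A B v = 1 := by
    rw [← map_mul, Units.inv_mul, map_one]
  simp only [dlog, mul_inv_rev, Units.val_mul, map_mul, Derivation.leibniz, Algebra.smul_def]
  linear_combination (algebraMap A B ((v⁻¹ : Aˣ) : A) * D v) * hu +
    (algebraMap A B ((u⁻¹ : Aˣ) : A) * D u) * hv

theorem dlog_zpow {A B : Type} [CommRing A] [CommRing B] [Algebra A B] (D : Derivation ℤ A B)
    (u : Aˣ) (n : ℤ) : dlog D (u ^ n) = n * dlog D u := by
  let φ : Additive Aˣ →+ B := AddMonoidHom.mk' (fun x => dlog D x.toMul) fun x y => dlog_mul D _ _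
  have := φ.map_zsmul n (Additive.ofMul u)
  rwa [zsmul_eq_mul] at this

/-- Value of the invariant on three diagonal automorphisms with the exponent patterns of
`dA`, `dB`, `dC` (extended by zero along `e`). -/
theorem RingData.tau_gc_ne (d : RingData) {P ι : Type} [AddCommGroup P] [Module d.A P] [Fintype ι]
    (b : Module.Basis ι d.A P) (c : Conn d.D P) (hc : ∀ i k, c.nab i (b k) = 0)
    (e : Fin 7 ↪ ι) (g h k : P ≃ₗ[d.A] P)
    (hg : ∀ j, g (b (e j)) = ((d.u ^ expA j : d.Aˣ) : d.A) • b (e j))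
    (hh : ∀ j, h (b (e j)) = ((d.t ^ expB j : d.Aˣ) : d.A) • b (e j))
    (hk : ∀ j, k (b (e j)) = ((d.z ^ expC j : d.Aˣ) : d.A) • b (e j))
    (hg' : ∀ j, j ∉ Set.range e → g (b j) = b j) (hh' : ∀ j, j ∉ Set.range e → h (b j) = b j)
    (hk' : ∀ j, j ∉ Set.range e → k (b j) = b j) :
    tau c.gc g h k ≠ 0 := by
  classical
  have ext : ∀ (g : P ≃ₗ[d.A] P) (u : d.Aˣ) (x : Fin 7 → ℤ),
      (∀ j, g (b (e j)) = ((u ^ x j : d.Aˣ) : d.A) • b (e j)) →
      (∀ j, j ∉ Set.range e → g (b j) = b j) →
      ∀ j, g (b j) = ((u ^ Function.extend e x 0 j : d.Aˣ) : d.A) • b j := by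
    intro g u x h1 h2 j
    by_cases hj : j ∈ Set.range e
    · obtain ⟨i, rfl⟩ := hj
      rw [e.injective.extend_apply, h1]
    · rw [Function.extend_apply' _ _ _ hj, h2 j hj]
      simp
  have g1 := ext g _ _ hg hg'
  have h1 := ext h _ _ hh hh'
  have k1 := ext k _ _ hk hk'
  have hs : ∑ j, ((Function.extend e expA 0 j : ℤ) : d.B) * (Function.extend e expB 0 j : ℤ) *
      (Function.extend e expC 0 j : ℤ) = 4 := by
    rw [← Finset.sum_subset (Finset.subset_univ (Finset.univ.map e)), Finset.sum_map]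
    · simp only [e.injective.extend_apply]
      simp [Fin.sum_univ_succ, expA, expB, expC]
      norm_num
    · intro j _ hj
      rw [Function.extend_apply' expA]
      · simp
      · simpa using hj
  have hd := d.det_ne
  rw [Matrix.det_fin_three, ← hs] at hd
  intro h0
  apply hd
  rw [← h0, tau, c.gc_diag b hc g h k _ _ _ g1 h1 k1, c.gc_diag b hc g k h _ _ _ g1 k1 h1,
    c.gc_diag b hc h g k _ _ _ h1 g1 k1, c.gc_diag b hc h k g _ _ _ h1 k1 g1,
    c.gc_diag b hc k g h _ _ _ k1 g1 h1, c.gc_diag b hc k h g _ _ _ k1 h1 g1]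
  simp only [dlog_zpow, Finset.sum_mul, ← Finset.sum_sub_distrib, ← Finset.sum_add_distrib]
  refine Finset.sum_congr rfl fun j _ => ?_
  simp only [Matrix.of_apply, Matrix.cons_val]
  ring

theorem RingData.tau_frac (d : RingData) {M : Type v} [AddCommGroup M]
    (o : St (Fin 7) (FractionRing d.A) → St (Fin 7) (FractionRing d.A) →
      St (Fin 7) (FractionRing d.A) → M) (ho : IsCoc3 o) :
    tau o (stMap _ (algebraMap d.A (FractionRing d.A)) (dA d.u))
      (stMap _ (algebraMap d.A (FractionRing d.A)) (dB d.t))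
      (stMap _ (algebraMap d.A (FractionRing d.A)) (dC d.z)) = 0 := by
  have hinj := IsFractionRing.injective d.A (FractionRing d.A)
  have hne : ∀ x : d.A, x ≠ 0 → algebraMap d.A (FractionRing d.A) x ≠ 0 := fun x hx =>
    (map_ne_zero_iff _ hinj).2 hx
  rw [stMap_dA, stMap_dB, stMap_dC]
  refine T_vanish (by simpa only [map_ofNat] using hne 2 d.two_ne)
    (by simpa only [map_ofNat] using hne 3 d.three_ne) ho _ _ _
    (Units.map (algebraMap d.A (FractionRing d.A) : d.A →* FractionRing d.A) d.a)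
    (Units.mk0 _ (hne d.y d.y_ne)) ?_ ?_ ?_
  · rw [← map_pow, d.hz, map_one]
  · simpa using congrArg (algebraMap d.A (FractionRing d.A)) d.hy
  · rw [← map_pow, ← map_inv, ← map_mul, ← map_mul]
    have := congrArg (algebraMap d.A (FractionRing d.A)) d.hu
    rw [map_add, map_mul, map_one] at this
    exact this

end Vale.Agent.P178
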