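import Vale.Agent.P178.DSpace

/-!
P178: edgewise subdivision of simplices at chain level, with bounded valence.
-/

namespace Vale.Agent.P178

universe v

/-- Vertices of the `N`-fold edgewise subdivision of `Δ^k`. -/
def Gr (N k : ℕ) : Type := {v : Fin (N + 1) → Fin (k + 1) // Monotone v}

/-- Face inclusions. -/
def Gr.face {N k : ℕ} (i : Fin (k + 2)) (v : Gr N k) : Gr N (k + 1) :=
  ⟨i.succAbove ∘ v.1, (Fin.strictMono_succAbove i).monotone.comp v.2⟩

/-- Adjacent vertices (interleaving). -/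
def Gr.Adj {N k : ℕ} (v w : Gr N k) : Prop :=
  ∀ i : Fin N, v.1 i.castSucc ≤ w.1 i.succ ∧ w.1 i.castSucc ≤ v.1 i.succ

/-- The point of the simplex. -/
noncomputable def Gr.pt {N k : ℕ} (v : Gr N k) : Dl k :=
  stdSimplex.map v.1 ⟨fun _ => 1 / (N + 1 : ℝ), fun _ => by positivity, by
    rw [Finset.sum_const, Finset.card_univ, Fintype.card_fin, nsmul_eq_mul]
    push_cast
    field_simp⟩

theorem Gr.pt_face {N k : ℕ} (i : Fin (k + 2)) (v : Gr N k) :
    (Gr.face i v).pt = Vale.Agent.P178.face i v.pt :=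
  (stdSimplex.map_comp_apply v.1 i.succAbove _).symm

theorem Gr.pt_apply {N k : ℕ} (v : Gr N k) (j : Fin (k + 1)) :
    v.pt j = (Finset.univ.filter fun i => v.1 i = j).card / (N + 1 : ℝ) := by
  rw [Gr.pt, stdSimplex.map_coe, FunOnFinite.linearMap_apply_apply]
  change ∑ _i ∈ _, 1 / (N + 1 : ℝ) = _
  rw [Finset.sum_const, nsmul_eq_mul, mul_one_div]

/-- The number of indices with value below `j`. -/
def Gr.cnt {N k : ℕ} (v : Gr N k) (j : ℕ) : ℕ := (Finset.univ.filter fun i => (v.1 i).val < j).card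

theorem Gr.cnt_succ {N k : ℕ} (v : Gr N k) (j : Fin (k + 1)) :
    v.cnt (j + 1) = v.cnt j + (Finset.univ.filter fun i => v.1 i = j).card := by
  rw [Gr.cnt, Gr.cnt, ← Finset.card_union_of_disjoint, ← Finset.filter_or]
  · congr 1
    ext i
    simp only [Finset.mem_filter, Finset.mem_univ, true_and, Fin.ext_iff]
    omega
  · refine Finset.disjoint_filter.2 fun i _ h h' => ?_
    rw [h'] at h
    exact lt_irrefl _ h

theorem Gr.Adj.symm {N k : ℕ} {v w : Gr N k} (h : v.Adj w) : w.Adj v := fun i => (h i).symm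

theorem Gr.adj_self {N k : ℕ} (v : Gr N k) : v.Adj v :=
  fun i => ⟨v.2 i.castSucc_lt_succ.le, v.2 i.castSucc_lt_succ.le⟩

theorem Gr.cnt_le {N k : ℕ} {v w : Gr N k} (h : v.Adj w) (j : ℕ) : v.cnt j ≤ w.cnt j + 1 := by
  simp only [Gr.cnt, Finset.card_filter]
  rw [Fin.sum_univ_succ, Fin.sum_univ_castSucc (n := N), add_comm]
  refine add_le_add (le_trans (Finset.sum_le_sum fun i _ => ?_) (Nat.le_add_right _ _)) ?_
  · split_ifs with h1 h2
    · rfl
    · exact absurd (lt_of_le_of_lt (Fin.le_def.1 (h i).2) h1) h2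
    · exact Nat.zero_le _
    · rfl
  · split_ifs <;> simp

theorem Gr.eq_of_cnt {N k : ℕ} {v w : Gr N k} (h : ∀ j : Fin (k + 1), v.cnt (j + 1) = w.cnt (j + 1)) :
    v = w := by
  have key : ∀ (u : Gr N k) (i : Fin (N + 1)) (j : ℕ), i.val < u.cnt j ↔ (u.1 i).val < j :=
    fun u i j => Fin.lt_card_filter_univ_iff_apply_of_imp (fun i => (u.1 i).val < j)
      fun a b hab ha => lt_of_le_of_lt (u.2 hab) ha
  refine Subtype.ext (funext fun i => Fin.ext (le_antisymm ?_ ?_))
  · exact Nat.le_of_lt_succ ((key v i _).1 (h (w.1 i) ▸ (key w i _).2 (Nat.lt_succ_self _)))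
  · exact Nat.le_of_lt_succ ((key w i _).1 (h (v.1 i) ▸ (key v i _).2 (Nat.lt_succ_self _)))

theorem Gr.mem_range_of_pos {N k : ℕ} (v : Gr N k) {j : Fin (k + 1)} (h : 0 < v.pt j) :
    j ∈ Set.range v.1 := by
  rw [Gr.pt_apply] at h
  have h1 : 0 < (Finset.univ.filter fun i => v.1 i = j).card := by
    by_contra h2
    rw [Nat.eq_zero_of_not_pos h2] at h
    simp at h
  obtain ⟨i, hi⟩ := Finset.card_pos.1 h1
  exact ⟨i, (Finset.mem_filter.1 hi).2⟩

theorem Gr.dist_pt_le {N k : ℕ} {v w : Gr N k} (h : v.Adj w) : dist v.pt w.pt ≤ 2 / (N + 1 : ℝ) := by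
  refine (dist_pi_le_iff (by positivity)).2 fun j => ?_
  change |v.pt j - w.pt j| ≤ _
  have hN : (0 : ℝ) < N + 1 := by positivity
  rw [Gr.pt_apply, Gr.pt_apply, ← sub_div, abs_div, abs_of_pos hN]
  refine div_le_div_of_nonneg_right ?_ hN.le
  have h1 := v.cnt_succ j
  have h2 := w.cnt_succ j
  have h3 := Gr.cnt_le h j
  have h4 := Gr.cnt_le h (j + 1)
  have h5 := Gr.cnt_le h.symm j
  have h6 := Gr.cnt_le h.symm (j + 1)
  have h7 : (Finset.univ.filter fun i => v.1 i = j).card ≤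
    (Finset.univ.filter fun i => w.1 i = j).card + 2 := by omega
  have h8 : (Finset.univ.filter fun i => w.1 i = j).card ≤
    (Finset.univ.filter fun i => v.1 i = j).card + 2 := by omega
  have h9 := (Nat.cast_le (α := ℝ)).2 h7
  have h10 := (Nat.cast_le (α := ℝ)).2 h8
  push_cast at h9 h10
  rw [abs_le]
  constructor <;> linarith

theorem Gr.ncard_adj_le {N k : ℕ} (v : Gr N k) :
    {w : Gr N k | v.Adj w}.Finite ∧ {w : Gr N k | v.Adj w}.ncard ≤ 3 ^ (k + 1) := by
  let f : Gr N k → Fin (k + 1) → Fin 3 := fun w j => Fin.ofNat 3 (w.cnt (j + 1))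
  have hf : Set.InjOn f {w : Gr N k | v.Adj w} := fun w hw w' hw' h => Gr.eq_of_cnt fun j => by
    have h1 : w.cnt (j + 1) % 3 = w'.cnt (j + 1) % 3 := congrArg Fin.val (congrFun h j)
    have h2 := Gr.cnt_le hw (j + 1)
    have h3 := Gr.cnt_le hw' (j + 1)
    have h4 := Gr.cnt_le (Gr.Adj.symm hw) (j + 1)
    have h5 := Gr.cnt_le (Gr.Adj.symm hw') (j + 1)
    omega
  refine ⟨Set.Finite.of_injOn (t := Set.univ) (fun _ _ => trivial) hf Set.finite_univ,
    (Set.ncard_le_ncard_of_injOn (t := Set.univ) f (fun _ _ => trivial) hf).trans ?_⟩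
  simp [Set.ncard_univ]

/-- Small tuples. -/
def Small {N k m : ℕ} (w : Fin m → Gr N k) : Prop := ∀ i j, (w i).Adj (w j)

/-- Boundary of chains of tuples. -/
noncomputable def tupBd {V : Type*} {m : ℕ} : ((Fin (m + 1) → V) →₀ ℤ) →ₗ[ℤ] ((Fin m → V) →₀ ℤ) :=
  Finsupp.linearCombination ℤ fun w =>
    ∑ i : Fin (m + 1), (-1 : ℤ) ^ (i : ℕ) • Finsupp.single (w ∘ i.succAbove) 1

section Chains

variable {V W : Type*} {m : ℕ}

/-- Push forward of chains. -/
noncomputable def tupMap (f : V → W) : ((Fin m → V) →₀ ℤ) →ₗ[ℤ] ((Fin m → W) →₀ ℤ) :=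
  Finsupp.lmapDomain ℤ ℤ fun w => f ∘ w

/-- The cone operator. -/
noncomputable def tupCone (x : V) : ((Fin m → V) →₀ ℤ) →ₗ[ℤ] ((Fin (m + 1) → V) →₀ ℤ) :=
  Finsupp.lmapDomain ℤ ℤ fun w => Fin.cons x w

theorem tupBd_single (w : Fin (m + 1) → V) : tupBd (Finsupp.single w 1) =
    ∑ i : Fin (m + 1), (-1 : ℤ) ^ (i : ℕ) • Finsupp.single (w ∘ i.succAbove) 1 := by
  rw [tupBd, Finsupp.linearCombination_single, one_smul]

theorem tupMap_single (f : V → W) (w : Fin m → V) :
    tupMap f (Finsupp.single w 1) = Finsupp.single (f ∘ w) 1 := Finsupp.mapDomain_single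

theorem tupCone_single (x : V) (w : Fin m → V) :
    tupCone x (Finsupp.single w 1) = Finsupp.single (Fin.cons x w) 1 := Finsupp.mapDomain_single

theorem lin_ext {α M : Type*} [AddCommGroup M] {f g : (α →₀ ℤ) →ₗ[ℤ] M}
    (h : ∀ a, f (Finsupp.single a 1) = g (Finsupp.single a 1)) (c : α →₀ ℤ) : f c = g c :=
  LinearMap.congr_fun (Finsupp.lhom_ext' fun a => LinearMap.ext_ring (h a)) c

theorem tupBd_map (f : V → W) (c : (Fin (m + 1) → V) →₀ ℤ) :
    tupBd (tupMap f c) = tupMap f (tupBd c) :=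
  lin_ext (f := tupBd ∘ₗ tupMap f) (g := tupMap f ∘ₗ tupBd) (fun w => by
    simp only [LinearMap.comp_apply, tupMap_single, tupBd_single, map_sum, map_smul]
    rfl) c

theorem tupMap_cone (f : V → W) (x : V) (c : (Fin m → V) →₀ ℤ) :
    tupMap f (tupCone x c) = tupCone (f x) (tupMap f c) :=
  lin_ext (f := tupMap f ∘ₗ tupCone x) (g := tupCone (f x) ∘ₗ tupMap f) (fun w => by
    simp only [LinearMap.comp_apply, tupMap_single, tupCone_single, Fin.comp_cons]) c

theorem cons_succAbove_succ (x : V) (w : Fin (m + 1) → V) (i : Fin (m + 1)) :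
    (Fin.cons x w : Fin (m + 2) → V) ∘ i.succ.succAbove = Fin.cons x (w ∘ i.succAbove) := by
  funext j
  refine Fin.cases ?_ (fun j => ?_) j <;> simp

theorem tupBd_cone (x : V) (c : (Fin (m + 1) → V) →₀ ℤ) :
    tupBd (tupCone x c) = c - tupCone x (tupBd c) :=
  lin_ext (f := tupBd ∘ₗ tupCone x) (g := LinearMap.id - tupCone x ∘ₗ tupBd) (fun w => by
    simp only [LinearMap.comp_apply, LinearMap.sub_apply, LinearMap.id_apply, tupCone_single,
      tupBd_single, map_sum, map_smul]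
    rw [Fin.sum_univ_succ, sub_eq_add_neg, ← Finset.sum_neg_distrib]
    simp only [cons_succAbove_succ, Fin.val_succ, pow_succ, mul_neg, mul_one, neg_smul,
      Fin.val_zero, pow_zero, one_smul]
    rfl) c

theorem tupBd_cone0 (x : V) (c : (Fin 0 → V) →₀ ℤ) : tupBd (tupCone x c) = c :=
  lin_ext (f := tupBd ∘ₗ tupCone x) (g := LinearMap.id) (fun w => by
    simp only [LinearMap.comp_apply, LinearMap.id_apply, tupCone_single, tupBd_single]
    rw [Fin.sum_univ_one, Fin.val_zero, pow_zero, one_smul]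
    exact congrArg (Finsupp.single · 1) (Subsingleton.elim _ _)) c

/-- The prism operator. -/
noncomputable def prism (f g : V → W) :
    ∀ m : ℕ, ((Fin m → V) →₀ ℤ) →ₗ[ℤ] ((Fin (m + 1) → W) →₀ ℤ)
  | 0 => 0
  | m + 1 => Finsupp.linearCombination ℤ fun w =>
      tupCone (f (w 0)) (Finsupp.single (g ∘ w) 1 - prism f g m (Finsupp.single (Fin.tail w) 1))

theorem prism_cone (f g : V → W) (x : V) (c : (Fin m → V) →₀ ℤ) :
    prism f g (m + 1) (tupCone x c) = tupCone (f x) (tupMap g (tupCone x c) - prism f g m c) :=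
  lin_ext (f := prism f g (m + 1) ∘ₗ tupCone x)
    (g := tupCone (f x) ∘ₗ (tupMap g ∘ₗ tupCone x - prism f g m)) (fun w => by
    simp only [LinearMap.comp_apply, LinearMap.sub_apply, tupCone_single, tupMap_single, prism,
      Finsupp.linearCombination_single, one_smul, Fin.cons_zero, Fin.tail_cons]) c

theorem prism_bd (f g : V → W) : ∀ (m : ℕ) (c : (Fin (m + 1) → V) →₀ ℤ),
    tupBd (prism f g (m + 1) c) + prism f g m (tupBd c) = tupMap g c - tupMap f c := by
  intro m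
  induction m with
  | zero =>
    refine lin_ext (f := tupBd ∘ₗ prism f g 1 + prism f g 0 ∘ₗ tupBd)
      (g := tupMap g - tupMap f) fun w => ?_
    rw [← Fin.cons_self_tail w, ← tupCone_single]
    simp only [LinearMap.add_apply, LinearMap.comp_apply, LinearMap.sub_apply, prism_cone]
    simp only [prism, LinearMap.zero_apply, sub_zero, add_zero, tupBd_cone, tupMap_cone,
      tupBd_cone0, tupMap_single]
    rw [Subsingleton.elim (g ∘ Fin.tail w) (f ∘ Fin.tail w)]
  | succ m ih =>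
    refine lin_ext (f := tupBd ∘ₗ prism f g (m + 2) + prism f g (m + 1) ∘ₗ tupBd)
      (g := tupMap g - tupMap f) fun w => ?_
    rw [← Fin.cons_self_tail w, ← tupCone_single]
    generalize Finsupp.single (Fin.tail w) (1 : ℤ) = c
    have h := eq_sub_of_add_eq (ih c)
    simp only [LinearMap.add_apply, LinearMap.comp_apply, LinearMap.sub_apply, prism_cone,
      tupBd_cone, map_sub, tupBd_map, h, tupMap_cone f]
    abel

theorem map_supported {α M : Type*} [AddCommGroup M] (L : (α →₀ ℤ) →ₗ[ℤ] M) {s : Set α}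
    {T : Submodule ℤ M} (h : ∀ a ∈ s, L (Finsupp.single a 1) ∈ T) {c : α →₀ ℤ}
    (hc : c ∈ Finsupp.supported ℤ ℤ s) : L c ∈ T := by
  rw [Finsupp.supported_eq_span_single] at hc
  exact (Submodule.span_le (p := T.comap L)).2 (by rintro _ ⟨a, ha, rfl⟩; exact h a ha) hc

theorem cone_supported {S : Set V} {x : V} (hx : x ∈ S) {c : (Fin m → V) →₀ ℤ}
    (hc : c ∈ Finsupp.supported ℤ ℤ {w | ∀ i, w i ∈ S}) :
    tupCone x c ∈ Finsupp.supported ℤ ℤ {w | ∀ i, w i ∈ S} :=
  map_supported _ (fun w hw => by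
    rw [tupCone_single]
    exact Finsupp.single_mem_supported ℤ _ fun i => Fin.cases hx hw i) hc

theorem prism_supported (f g : V → W) (S : Set W) : ∀ (m : ℕ) (w : Fin m → V),
    (∀ i, f (w i) ∈ S ∧ g (w i) ∈ S) →
      prism f g m (Finsupp.single w 1) ∈ Finsupp.supported ℤ ℤ {w | ∀ i, w i ∈ S}
  | 0, _, _ => Submodule.zero_mem _
  | m + 1, w, h => by
    rw [prism, Finsupp.linearCombination_single, one_smul]
    exact cone_supported (h 0).1 (Submodule.sub_mem _
      (Finsupp.single_mem_supported ℤ _ fun i => (h i).2)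
      (prism_supported f g S m _ fun i => h i.succ))

theorem tup_dd {M : Type v} [AddCommGroup M] (F : (Fin (m + 1) → Fin (m + 3)) → M) :
    ∑ i : Fin (m + 3), (-1 : ℤ) ^ (i : ℕ) • ∑ j : Fin (m + 2), (-1 : ℤ) ^ (j : ℕ) •
      F (i.succAbove ∘ j.succAbove) = 0 :=
  SSS.cob_cob ⟨fun n => Fin (n + 1) → Fin (m + 3), fun i y => y ∘ i.succAbove,
    fun _ _ _ _ h y => congrArg (y ∘ ·) h⟩ F id

end Chains

/-- Replace the first `r` entries by zero. -/
def Gr.phi {N k : ℕ} (r : ℕ) (v : Gr N k) : Gr N k :=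
  ⟨fun i => if i.val < r then 0 else v.1 i, fun i j hij => by
    beta_reduce
    split_ifs with h1 h2 h3
    · rfl
    · exact Fin.zero_le _
    · exact absurd (lt_of_le_of_lt (Fin.le_def.1 hij) h3) h1
    · exact v.2 hij⟩

theorem Gr.phi_le {N k : ℕ} {r s : ℕ} (h : s ≤ r + 1) {v w : Gr N k} (i : Fin N)
    (hi : v.1 i.castSucc ≤ w.1 i.succ) : (v.phi r).1 i.castSucc ≤ (w.phi s).1 i.succ := by
  simp only [Gr.phi, Fin.val_castSucc, Fin.val_succ]
  split_ifs with h1 h2
  · rfl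
  · exact Fin.zero_le _
  · omega
  · exact hi

theorem Gr.phi_adj {N k : ℕ} {r s : ℕ} (h : s ≤ r + 1) (h' : r ≤ s + 1) {v w : Gr N k}
    (hvw : v.Adj w) : (v.phi r).Adj (w.phi s) :=
  fun i => ⟨Gr.phi_le h i (hvw i).1, Gr.phi_le h' i (hvw i).2⟩

theorem small_acyclic {N k m : ℕ} {c : (Fin (m + 1) → Gr N k) →₀ ℤ}
    (hc : c ∈ Finsupp.supported ℤ ℤ {w | Small w}) (h0 : tupBd c = 0) :
    ∃ b ∈ Finsupp.supported ℤ ℤ {w : Fin (m + 2) → Gr N k | Small w}, tupBd b = c := by
  have key : ∀ r, ∃ b ∈ Finsupp.supported ℤ ℤ {w : Fin (m + 2) → Gr N k | Small w},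
      tupBd b = tupMap (Gr.phi r) c - c := by
    intro r
    induction r with
    | zero =>
      refine ⟨0, Submodule.zero_mem _, ?_⟩
      rw [map_zero, eq_comm, sub_eq_zero]
      exact Finsupp.mapDomain_id
    | succ r ih =>
      obtain ⟨b, hb, hb'⟩ := ih
      have h1 := prism_bd (Gr.phi r) (Gr.phi (r + 1)) m c
      rw [h0, map_zero, add_zero] at h1
      refine ⟨prism (Gr.phi r) (Gr.phi (r + 1)) (m + 1) c + b,
        Submodule.add_mem _ (map_supported _ (fun w hw => ?_) hc) hb, ?_⟩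
      · refine Finsupp.supported_mono (fun u hu i j => ?_) (prism_supported _ _
          {x | ∃ i s, r ≤ s ∧ s ≤ r + 1 ∧ x = (w i).phi s} _ w
          fun i => ⟨⟨i, r, le_rfl, Nat.le_succ r, rfl⟩, ⟨i, r + 1, Nat.le_succ r, le_rfl, rfl⟩⟩)
        obtain ⟨a, s, h2, h3, h4⟩ := hu i
        obtain ⟨a', s', h5, h6, h7⟩ := hu j
        rw [h4, h7]
        exact Gr.phi_adj (by omega) (by omega) (hw a a')
      · rw [map_add, h1, hb', sub_add_sub_cancel]
  obtain ⟨b, hb, hb'⟩ := key (N + 1)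
  let z : Gr N k := ⟨fun _ => 0, monotone_const⟩
  have h1 : tupMap (Gr.phi (N + 1)) c ∈ Finsupp.supported ℤ ℤ {w | ∀ i, w i ∈ ({z} : Set _)} :=
    map_supported _ (fun w _ => by
      rw [tupMap_single]
      exact Finsupp.single_mem_supported ℤ _ fun i =>
        Subtype.ext (funext fun j => if_pos j.2)) hc
  refine ⟨tupCone z (tupMap (Gr.phi (N + 1)) c) - b, Submodule.sub_mem _
    (Finsupp.supported_mono (fun u hu i j => ?_) (cone_supported (S := {z}) rfl h1)) hb, ?_⟩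
  · rw [Set.mem_singleton_iff.1 (hu i), Set.mem_singleton_iff.1 (hu j)]
    exact z.adj_self
  · rw [map_sub, tupBd_cone, tupBd_map, h0, map_zero, map_zero, sub_zero, hb', sub_sub_cancel]

theorem Gr.Adj.face {N k : ℕ} (i : Fin (k + 2)) {v w : Gr N k} (h : v.Adj w) :
    (Gr.face i v).Adj (Gr.face i w) := fun j =>
  ⟨(Fin.strictMono_succAbove i).monotone (h j).1, (Fin.strictMono_succAbove i).monotone (h j).2⟩

/-- The alternating sum of the faces. -/
noncomputable def faceSum {N k m : ℕ} (c : (Fin m → Gr N k) →₀ ℤ) : (Fin m → Gr N (k + 1)) →₀ ℤ :=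
  ∑ i : Fin (k + 2), (-1 : ℤ) ^ (i : ℕ) • tupMap (Gr.face i) c

theorem faceSum_small {N k m : ℕ} {c : (Fin m → Gr N k) →₀ ℤ}
    (hc : c ∈ Finsupp.supported ℤ ℤ {w | Small w}) :
    faceSum c ∈ Finsupp.supported ℤ ℤ {w | Small w} :=
  Submodule.sum_mem _ fun i _ => Submodule.smul_mem _ _ (map_supported _ (fun w hw => by
    rw [tupMap_single]
    exact Finsupp.single_mem_supported ℤ _ fun a b => (hw a b).face i) hc)

theorem tupBd_faceSum {N k m : ℕ} (c : (Fin (m + 1) → Gr N k) →₀ ℤ) :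
    tupBd (faceSum c) = faceSum (tupBd c) := by
  simp only [faceSum, map_sum, map_smul, tupBd_map]

theorem faceSum_faceSum {N k m : ℕ} (c : (Fin m → Gr N k) →₀ ℤ) : faceSum (faceSum c) = 0 := by
  classical
  have h := tup_dd (m := k) (M := (Fin m → Gr N (k + 2)) →₀ ℤ) fun θ =>
    if h : Monotone θ then tupMap (fun v : Gr N k => (⟨θ ∘ v.1, h.comp v.2⟩ : Gr N (k + 2))) c
    else 0
  refine Eq.trans (Finset.sum_congr rfl fun i _ => ?_) h
  rw [faceSum, map_sum]
  refine congrArg _ (Finset.sum_congr rfl fun j _ => ?_)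
  rw [map_smul]
  refine congrArg _ (Eq.trans ?_ (dif_pos
    ((Fin.strictMono_succAbove i).comp (Fin.strictMono_succAbove j)).monotone).symm)
  exact Finsupp.mapDomain_comp.symm

instance (N : ℕ) : Subsingleton (Gr N 0) :=
  ⟨fun _ _ => Subtype.ext (funext fun _ => Subsingleton.elim (α := Fin 1) _ _)⟩

/-- The fundamental chains of the subdivided simplices. -/
theorem exists_fund (N : ℕ) : ∃ E : ∀ k : ℕ, (Fin (k + 1) → Gr N k) →₀ ℤ,
    (∀ k w, w ∈ (E k).support → Small w) ∧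
    (∀ w, E 0 w = 1) ∧
    ∀ k, tupBd (E (k + 1)) =
      ∑ i : Fin (k + 2), (-1 : ℤ) ^ (i : ℕ) • Finsupp.mapDomain (fun w => Gr.face i ∘ w) (E k) := by
  let T : ℕ → Type := fun k => {c : (Fin (k + 1) → Gr N k) →₀ ℤ //
    c ∈ Finsupp.supported ℤ ℤ {w | Small w} ∧ tupBd (faceSum c) = 0}
  have step : ∀ k (c : T k), ∃ c' : T (k + 1), tupBd c'.1 = faceSum c.1 := fun k c => by
    obtain ⟨b, hb, hb'⟩ := small_acyclic (faceSum_small c.2.1) c.2.2
    exact ⟨⟨b, hb, by rw [tupBd_faceSum, hb', faceSum_faceSum]⟩, hb'⟩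
  choose nx hnx using step
  let z : Gr N 0 := ⟨fun _ => 0, monotone_const⟩
  let c0 : T 0 := ⟨Finsupp.single (fun _ => z) 1,
    Finsupp.single_mem_supported ℤ _ fun _ _ => z.adj_self, by
      rw [tupBd_faceSum, tupBd_single, Fin.sum_univ_one, faceSum, Fin.sum_univ_two, map_smul,
        map_smul, tupMap_single, tupMap_single,
        Subsingleton.elim (Gr.face 0 ∘ _) (Gr.face 1 ∘ (fun _ => z) ∘ Fin.succAbove 0)]
      simp⟩
  let E : ∀ k, T k := fun k => Nat.rec c0 nx k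
  refine ⟨fun k => (E k).1, fun k w hw => (E k).2.1 hw, fun w => ?_, fun k => hnx k (E k)⟩
  rw [Subsingleton.elim w fun _ => z]
  exact Finsupp.single_eq_same

/-- Oriented Sperner lemma. -/
theorem fund_degree {N : ℕ} (E : ∀ k : ℕ, (Fin (k + 1) → Gr N k) →₀ ℤ) (h0 : ∀ w, E 0 w = 1)
    (hE : ∀ k, tupBd (E (k + 1)) =
      ∑ i : Fin (k + 2), (-1 : ℤ) ^ (i : ℕ) • Finsupp.mapDomain (fun w => Gr.face i ∘ w) (E k))
    {M : Type v} [AddCommGroup M] (k : ℕ) (ψ : Gr N k → Fin (k + 1))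
    (hψ : ∀ v, ψ v ∈ Set.range v.1) (A : (Fin (k + 1) → Fin (k + 1)) → M) (hA : IsTupCoc A)
    (hA0 : ∀ v, ¬ Function.Injective v → A v = 0) :
    ((E k).sum fun w m => m • A (ψ ∘ w)) = A id := by
  induction k with
  | zero =>
    let w0 : Fin 1 → Gr N 0 := fun _ => ⟨fun _ => 0, monotone_const⟩
    have : E 0 = Finsupp.single w0 1 := Finsupp.ext fun w => by
      rw [h0, Subsingleton.elim w w0, Finsupp.single_eq_same]
    rw [this, Finsupp.sum_single_index (h := fun w m => m • A (ψ ∘ w)) (zero_smul ℤ _), one_smul,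
      Subsingleton.elim (α := Fin 1 → Fin 1) (ψ ∘ w0) id]
  | succ k ih =>
    have hB : ∀ v : Fin (k + 2) → Fin (k + 2), A v =
        ∑ i : Fin (k + 2), (-1 : ℤ) ^ (i : ℕ) • A (Fin.cons 0 (v ∘ i.succAbove)) := fun v => by
      have h := hA (Fin.cons 0 v)
      rw [Fin.sum_univ_succ, add_eq_zero_iff_eq_neg, ← Finset.sum_neg_distrib] at h
      simp only [cons_succAbove_succ, Fin.val_succ, pow_succ, mul_neg, mul_one, neg_smul, neg_neg,
        Fin.val_zero, pow_zero, one_smul] at h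
      exact h
    have h1 : ∀ (i : Fin (k + 2)) (v : Gr N k), ∃ j, j ∈ Set.range v.1 ∧
        ψ (Gr.face i v) = i.succAbove j := fun i v => by
      obtain ⟨a, ha⟩ := hψ (Gr.face i v)
      exact ⟨v.1 a, ⟨a, rfl⟩, ha.symm⟩
    choose φ hφ hφ' using h1
    let L : ((Fin (k + 1) → Gr N (k + 1)) →₀ ℤ) →ₗ[ℤ] M :=
      Finsupp.linearCombination ℤ fun w => A (Fin.cons 0 (ψ ∘ w))
    have h2 : ((E (k + 1)).sum fun w m => m • A (ψ ∘ w)) = L (tupBd (E (k + 1))) :=
      lin_ext (f := Finsupp.linearCombination ℤ fun w => A (ψ ∘ w)) (g := L ∘ₗ tupBd) (fun w => by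
        simp only [LinearMap.comp_apply, tupBd_single, map_sum, map_smul, L,
          Finsupp.linearCombination_single, one_smul]
        exact hB _) _
    rw [h2, hE, map_sum, hB id]
    refine Finset.sum_congr rfl fun i _ => ?_
    rw [map_smul]
    congr 1
    refine Eq.trans ?_ (ih (φ i) (hφ i) (fun u => A (Fin.cons 0 (i.succAbove ∘ u))) (fun u => ?_)
      fun u hu => hA0 _ fun h => hu (Function.Injective.of_comp (Fin.cons_injective_iff.1 h).2))
    · refine lin_ext (f := L ∘ₗ tupMap (Gr.face i)) (g := Finsupp.linearCombination ℤ fun w =>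
        A (Fin.cons 0 (i.succAbove ∘ φ i ∘ w))) (fun w => ?_) _
      simp only [LinearMap.comp_apply, tupMap_single, L, Finsupp.linearCombination_single]
      exact congrArg (fun u => (1 : ℤ) • A (Fin.cons 0 u)) (funext fun a => hφ' i (w a))
    · refine (hB (i.succAbove ∘ u)).symm.trans (hA0 _ fun h => ?_)
      have := Fintype.card_le_of_injective _ (Function.Injective.of_comp h)
      simp at this

end Vale.Agent.P178
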