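import Vale.Agent.P178.Eval

/-!
P178: `H₃(St(A), ℤ) → H₃(St(F), ℤ)` is not injective.
-/

namespace Vale.Agent.P178

open CategoryTheory CategoryTheory.Limits groupHomology

section Cx

variable {R : Type} [CommRing R] {K : ChainComplex (ModuleCat R) ℕ}

theorem hm_pi_zero_of (x : K.cycles 3) (w : K.X 4) (h : K.d 4 3 w = K.iCycles 3 x) :
    K.homologyπ 3 x = 0 := by
  have h1 : K.toCycles 4 3 w = x := by
    refine (ModuleCat.mono_iff_injective (K.iCycles 3)).1 inferInstance ?_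
    rw [← h, ← ModuleCat.comp_apply, HomologicalComplex.toCycles_i]
  rw [← h1, ← ModuleCat.comp_apply, HomologicalComplex.toCycles_comp_homologyπ]
  rfl

theorem hm_of_pi_zero (x : K.cycles 3) (h : K.homologyπ 3 x = 0) :
    ∃ w : K.X 4, K.d 4 3 w = K.iCycles 3 x := by
  let q : K.X 3 ⟶ ModuleCat.of R (K.X 3 ⧸ LinearMap.range (K.d 4 3).hom) :=
    ModuleCat.ofHom (LinearMap.range (K.d 4 3).hom).mkQ
  have h0 : K.toCycles 4 3 ≫ K.iCycles 3 ≫ q = 0 := by
    rw [HomologicalComplex.toCycles_i_assoc]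
    ext y
    simp [q]
  obtain ⟨l, hl⟩ := CokernelCofork.IsColimit.desc' (K.homologyIsCokernel 4 3 (by simp)) _ h0
  have h1 : (K.iCycles 3 ≫ q) x = 0 := by
    rw [← hl, ModuleCat.comp_apply]
    exact (congrArg l h).trans (map_zero _)
  exact (Submodule.Quotient.mk_eq_zero _).1 h1

end Cx

section Bar

variable {G : Type} [Group G]

/-- The differential of the bar complex with trivial integer coefficients. -/
noncomputable def hmD (G : Type) [Group G] (n : ℕ) :
    ((Fin (n + 1) → G) →₀ ℤ) →ₗ[ℤ] ((Fin n → G) →₀ ℤ) :=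
  (inhomogeneousChains.d (Rep.trivial ℤ G ℤ) n).hom

theorem hmD_single (n : ℕ) (g : Fin (n + 1) → G) (a : ℤ) :
    hmD G n (Finsupp.single g a) = Finsupp.single (fun i => g i.succ) a +
      ∑ j : Fin (n + 1), (-1 : ℤ) ^ ((j : ℕ) + 1) • Finsupp.single (Fin.contractNth j (· * ·) g) a :=
  inhomogeneousChains.d_single (A := Rep.trivial ℤ G ℤ) n g a

theorem hmD_three (a b c : G) :
    hmD G 2 (Finsupp.single ![a, b, c] 1) = Finsupp.single ![b, c] 1 - Finsupp.single ![a * b, c] 1 +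
      Finsupp.single ![a, b * c] 1 - Finsupp.single ![a, b] 1 := by
  have e0 : (fun i : Fin 2 => ![a, b, c] i.succ) = ![b, c] := by
    funext i; fin_cases i <;> rfl
  have e1 : Fin.contractNth 0 (· * ·) ![a, b, c] = ![a * b, c] := by
    funext i; fin_cases i <;> rfl
  have e2 : Fin.contractNth 1 (· * ·) ![a, b, c] = ![a, b * c] := by
    funext i; fin_cases i <;> rfl
  have e3 : Fin.contractNth 2 (· * ·) ![a, b, c] = ![a, b] := by
    funext i; fin_cases i <;> rfl
  rw [hmD_single, Fin.sum_univ_three, e0, e1, e2, e3]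
  simp
  abel

theorem hmD_four (a b c d : G) :
    hmD G 3 (Finsupp.single ![a, b, c, d] 1) =
      Finsupp.single ![b, c, d] 1 - Finsupp.single ![a * b, c, d] 1 +
        Finsupp.single ![a, b * c, d] 1 - Finsupp.single ![a, b, c * d] 1 +
        Finsupp.single ![a, b, c] 1 := by
  have e0 : (fun i : Fin 3 => ![a, b, c, d] i.succ) = ![b, c, d] := by
    funext i; fin_cases i <;> rfl
  have e1 : Fin.contractNth 0 (· * ·) ![a, b, c, d] = ![a * b, c, d] := by
    funext i; fin_cases i <;> rfl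
  have e2 : Fin.contractNth 1 (· * ·) ![a, b, c, d] = ![a, b * c, d] := by
    funext i; fin_cases i <;> rfl
  have e3 : Fin.contractNth 2 (· * ·) ![a, b, c, d] = ![a, b, c * d] := by
    funext i; fin_cases i <;> rfl
  have e4 : Fin.contractNth 3 (· * ·) ![a, b, c, d] = ![a, b, c] := by
    funext i; fin_cases i <;> rfl
  rw [hmD_single, Fin.sum_univ_four, e0, e1, e2, e3, e4]
  simp
  abel

/-- The torus chain. -/
noncomputable def hmZ (g h k : G) : (Fin 3 → G) →₀ ℤ :=
  tau (fun a b c => Finsupp.single ![a, b, c] (1 : ℤ)) g h k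

omit [Group G] in
theorem hm_map_Z {M : Type*} [AddCommGroup M] (φ : ((Fin 3 → G) →₀ ℤ) →ₗ[ℤ] M) (g h k : G) :
    φ (hmZ g h k) = tau (fun a b c => φ (Finsupp.single ![a, b, c] 1)) g h k := by
  simp only [hmZ, tau, map_add, map_sub]

theorem hmD_Z {g h k : G} (gh : Commute g h) (gk : Commute g k) (hk : Commute h k) :
    hmD G 2 (hmZ g h k) = 0 := by
  rw [hm_map_Z, tau]
  simp only [hmD_three, gh.symm.eq, gk.symm.eq, hk.symm.eq]
  abel

theorem hm_boundary {g h k : G}
    (H : ∀ (M : Type) [AddCommGroup M] (o : G → G → G → M), IsCoc3 o → tau o g h k = 0) :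
    ∃ w, hmD G 3 w = hmZ g h k := by
  refine (Submodule.Quotient.mk_eq_zero (LinearMap.range (hmD G 3))).1 ?_
  rw [← Submodule.mkQ_apply, hm_map_Z]
  refine H _ _ fun a b c d => ?_
  rw [← map_sub, ← map_add, ← map_sub, ← map_add, ← hmD_four, Submodule.mkQ_apply,
    Submodule.Quotient.mk_eq_zero]
  exact LinearMap.mem_range_self _ _

theorem hm_not_boundary {M : Type} [AddCommGroup M] {g h k : G} (w : (Fin 4 → G) →₀ ℤ)
    (hw : hmD G 3 w = hmZ g h k) (o : G → G → G → M)
    (ho : ∀ v ∈ w.support, o (v 1) (v 2) (v 3) - o (v 0 * v 1) (v 2) (v 3) +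
      o (v 0) (v 1 * v 2) (v 3) - o (v 0) (v 1) (v 2 * v 3) + o (v 0) (v 1) (v 2) = 0) :
    tau o g h k = 0 := by
  let φ : ((Fin 3 → G) →₀ ℤ) →ₗ[ℤ] M := Finsupp.linearCombination ℤ fun v => o (v 0) (v 1) (v 2)
  have hφ : ∀ a b c, φ (Finsupp.single ![a, b, c] 1) = o a b c := fun a b c => by simp [φ]
  have h1 := hm_map_Z φ g h k
  simp only [hφ] at h1
  rw [← h1, ← hw, ← Finsupp.sum_single w, Finsupp.sum, map_sum, map_sum]
  refine Finset.sum_eq_zero fun v hv => ?_
  have e : v = ![v 0, v 1, v 2, v 3] := by funext i; fin_cases i <;> rfl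
  rw [← mul_one (w v), ← smul_eq_mul, ← Finsupp.smul_single, map_smul, map_smul]
  conv_lhs => arg 2; rw [e, hmD_four]
  simp only [map_add, map_sub, hφ]
  rw [ho v hv, smul_zero]

theorem hm_not_injective {H : Type} [Group H] (f : G →* H) {g h k : G} (gh : Commute g h)
    (gk : Commute g k) (hk : Commute h k) (h1 : ∀ w, hmD G 3 w ≠ hmZ g h k)
    (h2 : ∃ w, hmD H 3 w = hmZ (f g) (f h) (f k))
    (φ : Rep.trivial ℤ G ℤ ⟶ Rep.res f (Rep.trivial ℤ H ℤ)) (hφ : φ.hom (1 : ℤ) = (1 : ℤ)) :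
    ¬ Function.Injective (groupHomology.map f φ 3) := by
  intro hinj
  have hz : (inhomogeneousChains (Rep.trivial ℤ G ℤ)).d 3 2 (hmZ g h k) = 0 := by
    rw [inhomogeneousChains.d_def]
    exact hmD_Z gh gk hk
  obtain ⟨x, hx⟩ : ∃ x, iCycles (Rep.trivial ℤ G ℤ) 3 x = hmZ g h k :=
    ⟨cyclesMk 3 2 (by simp) _ hz, iCycles_mk _ _ hz⟩
  have h3 : groupHomology.map f φ 3 (π _ 3 x) = 0 := by
    obtain ⟨w, hw⟩ := h2
    rw [π_map_apply]
    refine hm_pi_zero_of _ w ?_
    rw [inhomogeneousChains.d_def, ← ModuleCat.comp_apply, HomologicalComplex.cyclesMap_i,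
      ModuleCat.comp_apply, hx]
    refine hw.trans ?_
    have e : ∀ a b c, ((chainsMap f φ).f 3).hom (Finsupp.single ![a, b, c] 1) = Finsupp.single ![f a, f b, f c] (1 : ℤ) := by
      intro a b c
      refine (chainsMap_f_single _ _ 3 _ _).trans ?_
      rw [hφ]
      congr 1
      funext i; fin_cases i <;> rfl
    refine Eq.trans ?_ (hm_map_Z ((chainsMap f φ).f 3).hom _ _ _).symm
    simp only [e]
    rfl
  obtain ⟨w, hw⟩ := hm_of_pi_zero x (hinj (h3.trans (map_zero _).symm))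
  rw [inhomogeneousChains.d_def, hx] at hw
  exact h1 w hw

end Bar

section Rep

variable {ι κ R P P' : Type} [CommRing R] [AddCommGroup P] [Module R P] [AddCommGroup P']
  [Module R P'] (b : Module.Basis ι R P) (b' : Module.Basis κ R P') (e : ι ↪ κ)

theorem hm_repr (v : P) (i : ι) :
    b'.repr (b.constr R (fun i => b' (e i)) v) (e i) = b.repr v i := by
  classical
  have : (b'.coord (e i)).comp (b.constr R fun i => b' (e i)) = b.coord i :=
    b.ext fun j => by simp [Finsupp.single_apply]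
  exact LinearMap.congr_fun this v

theorem hm_intertwine (g : St ι R) (v : P) :
    stRep b' (stEmb R e g) (b.constr R (fun i => b' (e i)) v) =
      b.constr R (fun i => b' (e i)) (stRep b g v) := by
  induction g using st_induction with
  | h1 => simp
  | hx i j r g hij ih =>
    rw [map_mul, map_mul, map_mul, LinearEquiv.mul_apply, LinearEquiv.mul_apply, ih, stEmb_stx,
      stRep_stx, stRep_stx, elemEquiv_apply _ hij, elemEquiv_apply _ (e.injective.ne hij), hm_repr]
    simp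

theorem hm_rep_emb (g : St ι R) (j : ι) (c : R) (h : stRep b g (b j) = c • b j) :
    stRep b' (stEmb R e g) (b' (e j)) = c • b' (e j) := by
  simpa [h] using hm_intertwine b b' e g (b j)

theorem hm_rep_fix (g : St ι R) {j : κ} (hj : j ∉ Set.range e) :
    stRep b' (stEmb R e g) (b' j) = b' j := by
  classical
  induction g using st_induction with
  | h1 => simp
  | hx k l r g hkl ih =>
    have : j ≠ e l := fun h => hj ⟨l, h.symm⟩
    rw [map_mul, map_mul, LinearEquiv.mul_apply, ih, stEmb_stx, stRep_stx,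
      elemEquiv_apply _ (e.injective.ne hkl)]
    simp [this]

include b' in
theorem hm_rep_eq {g g' : St ι R} (h : stEmb R e g = stEmb R e g') : stRep b g = stRep b g' := by
  ext v
  refine b.repr.injective (Finsupp.ext fun i => ?_)
  rw [← hm_repr b b' e, ← hm_repr b b' e, ← hm_intertwine, ← hm_intertwine, h]

end Rep

theorem hm_emb_emb {ι κ μ R : Type} [CommRing R] (e : ι ↪ κ) (e' : κ ↪ μ) (g : St ι R) :
    stEmb R e' (stEmb R e g) = stEmb R (e.trans e') g := by
  have : (stEmb R e').comp (stEmb R e) = stEmb R (e.trans e') :=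
    st_hom_ext fun i j r _ => by simp
  exact DFunLike.congr_fun this g

theorem hm_range_mono {R : Type} [CommRing R] {N N' : ℕ} (h : N ≤ N') :
    (stEmb R (Fin.valEmbedding : Fin N ↪ ℕ)).range ≤
      (stEmb R (Fin.valEmbedding : Fin N' ↪ ℕ)).range := by
  rintro _ ⟨g, rfl⟩
  exact ⟨stEmb R (Fin.castLEEmb h) g, hm_emb_emb _ _ g⟩

theorem hm_exists_range {R : Type} [CommRing R] (g : St ℕ R) :
    ∃ N, g ∈ (stEmb R (Fin.valEmbedding : Fin N ↪ ℕ)).range := by
  induction g using st_induction with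
  | h1 => exact ⟨0, one_mem _⟩
  | hx i j r g _ ih =>
    obtain ⟨N, hN⟩ := ih
    refine ⟨N + i + j + 1, mul_mem ⟨stx ⟨i, by omega⟩ ⟨j, by omega⟩ r, by simp⟩
      (hm_range_mono (by omega) hN)⟩

theorem hm_main (d : RingData) (w : (Fin 4 → St ℕ d.A) →₀ ℤ) :
    hmD _ 3 w ≠ hmZ (stEmb d.A Fin.valEmbedding (dA d.u)) (stEmb d.A Fin.valEmbedding (dB d.t))
      (stEmb d.A Fin.valEmbedding (dC d.z)) := by
  classical
  intro hw
  choose n hn using hm_exists_range (R := d.A)
  obtain ⟨N, h7, hN⟩ : ∃ N, 7 ≤ N ∧ ∀ v ∈ w.support, ∀ i,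
      v i ∈ (stEmb d.A (Fin.valEmbedding : Fin N ↪ ℕ)).range := by
    refine ⟨7 + ∑ v ∈ w.support, ∑ i, n (v i), by omega, fun v hv i => hm_range_mono ?_ (hn _)⟩
    have h1 : n (v i) ≤ ∑ i, n (v i) :=
      Finset.single_le_sum (f := fun i => n (v i)) (fun _ _ => Nat.zero_le _) (Finset.mem_univ i)
    have h2 : ∑ i, n (v i) ≤ ∑ v ∈ w.support, ∑ i, n (v i) :=
      Finset.single_le_sum (f := fun v : Fin 4 → St ℕ d.A => ∑ i, n (v i))
        (fun _ _ => Nat.zero_le _) hv
    omega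
  let b := Pi.basisFun d.A (Fin N)
  obtain ⟨c, hc⟩ := exists_conn_basis (D := d.D) b
  let ψ : St ℕ d.A → ((Fin N → d.A) ≃ₗ[d.A] (Fin N → d.A)) := fun x =>
    if h : ∃ g, stEmb d.A (Fin.valEmbedding : Fin N ↪ ℕ) g = x then stRep b h.choose else 1
  have hψ : ∀ g, ψ (stEmb d.A Fin.valEmbedding g) = stRep b g := by
    intro g
    have h : ∃ g', stEmb d.A (Fin.valEmbedding : Fin N ↪ ℕ) g' = stEmb d.A Fin.valEmbedding g :=
      ⟨g, rfl⟩
    simp only [ψ, dif_pos h]
    exact hm_rep_eq b Finsupp.basisSingleOne _ h.choose_spec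
  have h0 := hm_not_boundary w hw (fun x y z => c.gc (ψ x) (ψ y) (ψ z)) fun v hv => by
    obtain ⟨g0, h0⟩ := hN v hv 0
    obtain ⟨g1, h1⟩ := hN v hv 1
    obtain ⟨g2, h2⟩ := hN v hv 2
    obtain ⟨g3, h3⟩ := hN v hv 3
    simp only [← h0, ← h1, ← h2, ← h3, ← map_mul (stEmb d.A _), hψ, map_mul (stRep b)]
    exact c.isCoc3_gc _ _ _ _
  have e7 : ∀ g : St (Fin 7) d.A, ψ (stEmb d.A Fin.valEmbedding g) =
      stRep b (stEmb d.A (Fin.castLEEmb h7) g) := fun g => by
    rw [← hψ, hm_emb_emb]; rfl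
  refine d.tau_gc_ne b c hc (Fin.castLEEmb h7) _ _ _
    (fun j => hm_rep_emb (Pi.basisFun d.A (Fin 7)) b _ _ j _ (stRep_dA _ _ j))
    (fun j => hm_rep_emb (Pi.basisFun d.A (Fin 7)) b _ _ j _ (stRep_dB _ _ j))
    (fun j => hm_rep_emb (Pi.basisFun d.A (Fin 7)) b _ _ j _ (stRep_dC _ _ j))
    (fun j hj => hm_rep_fix b _ _ hj) (fun j hj => hm_rep_fix b _ _ hj)
    (fun j hj => hm_rep_fix b _ _ hj) ?_
  rw [← e7, ← e7, ← e7]
  exact h0

theorem kThree_not_injective (d : RingData) :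
    ¬ Function.Injective (kThreeMap (algebraMap d.A (FractionRing d.A))) := by
  refine hm_not_injective (stMap ℕ (algebraMap d.A (FractionRing d.A)))
    ((commute_dA_dB _ _).map _) ((commute_dA_dC _ _).map _) ((commute_dB_dC _ _).map _)
    (hm_main d) (hm_boundary fun M _ o ho => ?_) _ rfl
  simp only [stMap_stEmb]
  exact d.tau_frac _ (ho.comp _ (map_mul (stEmb _ Fin.valEmbedding)))

end Vale.Agent.P178
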