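import Mathlib

/-!
P178: the combinatorial homotopy addition theorem for tuples indexed by natural numbers.
-/

namespace Vale.Agent.P178.Hat

universe u

variable {Z : Type u}

/-- The tuple with entries `a, c, b` at the positions `p, p + 1, p + 2`. -/
def T (pt : Z) (p : ℕ) (a c b : Z) (i : ℕ) : Z :=
  if i = p then a else if i = p + 1 then c else if i = p + 2 then b else pt

/-- A row of a matrix with the diagonal entry removed. -/
def row (a : ℕ → ℕ → Z) (j i : ℕ) : Z := a j (if i < j then i else i + 1)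

/-- The horn filling axioms. -/
structure Kan (pt : Z) (N : ℕ) (F : (ℕ → Z) → Prop) : Prop where
  ext : ∀ x y, (∀ i < N, x i = y i) → F x → F y
  k1 : ∀ x k, k < N → ∃ z, F (Function.update x k z)
  k2 : ∀ a : ℕ → ℕ → Z, (∀ i j, a i j = a j i) → ∀ k ≤ N,
    (∀ j ≤ N, j ≠ k → F (row a j)) → F (row a k)
  k3 : ∀ z p, p + 1 < N → F (T pt p z z pt)

/-- The rows of the matrix with three special rows. -/
def R (pt : Z) (r : ℕ) (x z y : ℕ → Z) (j : ℕ) : ℕ → Z :=
  if j < r then T pt (r - 1) (x j) (z j) (y j) else if j = r then x else if j = r + 1 then z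
  else if j = r + 2 then y else T pt r (x (j - 1)) (z (j - 1)) (y (j - 1))

/-- The matrix with three special rows. -/
def mat (pt : Z) (r : ℕ) (x z y : ℕ → Z) (i j : ℕ) : Z :=
  if i = r then x (if j < i then j else j - 1) else
  if i = r + 1 then z (if j < i then j else j - 1) else
  if i = r + 2 then y (if j < i then j else j - 1) else
  if j = r then x (if i < j then i else i - 1) else
  if j = r + 1 then z (if i < j then i else i - 1) else
  if j = r + 2 then y (if i < j then i else i - 1) else pt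

theorem mat_symm (pt : Z) (r : ℕ) {x z y : ℕ → Z} (h1 : x r = z r) (h2 : x (r + 1) = y r)
    (h3 : z (r + 1) = y (r + 1)) (i j : ℕ) : mat pt r x z y i j = mat pt r x z y j i := by
  unfold mat
  grind (splits := 30)

theorem row_mat (pt : Z) (r : ℕ) (x z y : ℕ → Z) (j : ℕ) :
    row (mat pt r x z y) j = R pt r x z y j := by
  funext i
  unfold row mat R T
  grind (splits := 30)

variable {pt : Z} {N : ℕ} {F : (ℕ → Z) → Prop}

theorem Kan.tri (K : Kan pt N F) (r : ℕ) {x z y : ℕ → Z} (h1 : x r = z r)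
    (h2 : x (r + 1) = y r) (h3 : z (r + 1) = y (r + 1)) {k : ℕ} (hk : k ≤ N)
    (H : ∀ j ≤ N, j ≠ k → F (R pt r x z y j)) : F (R pt r x z y k) := by
  simp only [← row_mat] at H ⊢
  exact K.k2 _ (mat_symm pt r h1 h2 h3) k hk H

theorem Kan.tri3 (K : Kan pt N F) (r : ℕ) (hr : r + 1 ≤ N) {x z y : ℕ → Z} (h1 : x r = z r)
    (h2 : x (r + 1) = y r) (h3 : z (r + 1) = y (r + 1))
    (H1 : ∀ j < r, F (T pt (r - 1) (x j) (z j) (y j)))
    (H2 : ∀ j, r + 2 ≤ j → j < N → F (T pt r (x j) (z j) (y j))) (hx : F x) (hy : F y) : F z := by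
  have h := K.tri r h1 h2 h3 hr fun j hj hne => by
    unfold R
    split_ifs
    · exact H1 j ‹_›
    · exact hx
    · exact hy
    · exact H2 _ (by omega) (by omega)
  unfold R at h
  rwa [if_neg (by omega), if_neg (by omega), if_pos rfl] at h

theorem Kan.pair (K : Kan pt N F) {p q : ℕ} (hp : p + 1 < N) (hq : q < N) {x x' : ℕ → Z}
    (h : ∀ i, i ≠ q → x i = x' i) (hx : F x) : F x' ↔ F (T pt p (x q) (x' q) pt) := by
  obtain ⟨r, k, hr, hk⟩ : ∃ r k, (p < q ∧ r = p ∧ k = q + 1 ∨ q ≤ p ∧ r = p + 1 ∧ k = q) ∧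
      k ≤ N := by
    by_cases h : p < q
    · exact ⟨p, q + 1, Or.inl ⟨h, rfl, rfl⟩, hq⟩
    · exact ⟨p + 1, q, Or.inr ⟨not_lt.1 h, rfl, rfl⟩, hq.le⟩
  have key := @Kan.tri _ _ _ _ K r x x' (T pt r (x (r + 1)) (x' (r + 1)) pt) (h r (by omega))
    (by simp [T]) (by simp [T])
  have e0 : R pt r x x' (T pt r (x (r + 1)) (x' (r + 1)) pt) r = x := by simp [R]
  have e1 : R pt r x x' (T pt r (x (r + 1)) (x' (r + 1)) pt) (r + 1) = x' := by simp [R]
  have e2 : R pt r x x' (T pt r (x (r + 1)) (x' (r + 1)) pt) k = T pt p (x q) (x' q) pt := by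
    funext i
    unfold R T
    grind (splits := 30)
  have e3 : ∀ j ≤ N, j ≠ r → j ≠ r + 1 → j ≠ k →
      F (R pt r x x' (T pt r (x (r + 1)) (x' (r + 1)) pt) j) := fun j hj h0 h1 h2 => by
    by_cases h3 : j < r
    · convert K.k3 (x j) (r - 1) (by omega) using 1
      funext i
      unfold R T
      grind (splits := 30)
    · convert K.k3 (x (j - 1)) r (by omega) using 1
      funext i
      unfold R T
      grind (splits := 30)
  constructor
  · intro hx'
    rw [← e2]
    refine key hk fun j hj hne => ?_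
    by_cases h0 : j = r
    · rwa [h0, e0]
    by_cases h1 : j = r + 1
    · rwa [h1, e1]
    exact e3 j hj h0 h1 hne
  · intro he
    rw [← e1]
    refine key (by omega) fun j hj hne => ?_
    by_cases h0 : j = r
    · rwa [h0, e0]
    by_cases h1 : j = k
    · rwa [h1, e2]
    exact e3 j hj h0 hne h1

/-- The homotopy relation. -/
def Kan.setoid (K : Kan pt N F) (hN : 1 < N) : Setoid Z where
  r a b := F (T pt 0 a b pt)
  iseqv := by
    refine ⟨fun a => K.k3 a 0 hN, fun {a b} h => ?_, fun {a b c} h h' => ?_⟩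
    · exact (K.pair (p := 0) (q := 0) (x := T pt 0 a a pt) (x' := T pt 0 b a pt) hN (by omega)
        (fun i hi => by simp [T, hi]) (K.k3 a 0 hN)).2 h
    · exact (K.pair (p := 0) (q := 1) (x := T pt 0 a b pt) (x' := T pt 0 a c pt) hN hN
        (fun i hi => by simp [T, hi]) h).2 h'

theorem Kan.desc (K : Kan pt N F) (hN : 1 < N) {x x' : ℕ → Z}
    (h : ∀ i < N, F (T pt 0 (x i) (x' i) pt)) (hx : F x) : F x' := by
  have key : ∀ q ≤ N, F fun i => if i < q then x' i else x i := fun q hq => by
    induction q with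
    | zero => simpa using hx
    | succ q ih =>
      refine (K.pair (p := 0) (q := q) hN hq (fun i hi => ?_) (ih (by omega))).2 ?_
      · grind (splits := 30)
      · simpa using h q hq
  exact K.ext _ _ (fun i hi => if_pos hi) (key N le_rfl)

theorem Kan.quot (K : Kan pt N F) (hN : 1 < N) :
    Kan (Quotient.mk (K.setoid hN) pt) N (fun y => F fun i => (y i).out) ∧
    (∀ x, F x ↔ F fun i => (Quotient.mk (K.setoid hN) (x i)).out) ∧
    ∀ (y y' : ℕ → Quotient (K.setoid hN)) (q : ℕ), q < N → (∀ i, i ≠ q → y i = y' i) →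
      (F fun i => (y i).out) → (F fun i => (y' i).out) → y q = y' q := by
  have h1 : ∀ x, F x ↔ F fun i => (Quotient.mk (K.setoid hN) (x i)).out := fun x =>
    ⟨K.desc hN fun i _ => (K.setoid hN).symm (Quotient.mk_out (s := K.setoid hN) (x i)),
      K.desc hN fun i _ => Quotient.mk_out (s := K.setoid hN) (x i)⟩
  refine ⟨⟨fun x y h => K.ext _ _ fun i hi => by rw [h i hi], fun x k hk => ?_,
    fun a ha k hk H => K.k2 (fun i j => (a i j).out) (fun i j => by rw [ha]) k hk H,
    fun z p hp => ?_⟩, h1, fun y y' q hq h hy hy' => ?_⟩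
  · obtain ⟨z, hz⟩ := K.k1 (fun i => (x i).out) k hk
    refine ⟨Quotient.mk _ z, K.ext _ _ (fun i _ => ?_) ((h1 _).1 hz)⟩
    by_cases hi : i = k
    · subst hi
      simp
    · simp [hi]
  · refine K.ext _ _ (fun i _ => ?_) ((h1 _).1 (K.k3 z.out p hp))
    unfold T
    split_ifs <;> simp
  · exact Quotient.out_equiv_out.1
      ((K.pair (p := 0) hN hq (fun i hi => by rw [h i hi]) hy).1 hy')

section Group

variable (K : Kan pt N F) (hN : 4 ≤ N)
  (U : ∀ (y y' : ℕ → Z) (q : ℕ), q < N → (∀ i, i ≠ q → y i = y' i) → F y → F y' → y q = y' q)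

include K U

theorem Kan.exists_add : ∃ ad : ℕ → Z → Z → Z, ∀ p, p + 2 < N → ∀ a b c,
    F (T pt p a c b) ↔ c = ad p a b := by
  have h1 : ∀ p a b, ∃ c, p + 2 < N → F (T pt p a c b) := fun p a b => by
    by_cases hp : p + 2 < N
    · obtain ⟨c, hc⟩ := K.k1 (T pt p a pt b) (p + 1) (by omega)
      refine ⟨c, fun _ => K.ext _ _ (fun i _ => ?_) hc⟩
      unfold T
      grind (splits := 30)
    · exact ⟨pt, fun h => absurd h hp⟩
  choose ad had using h1
  refine ⟨ad, fun p hp a b c => ⟨fun h => ?_, fun h => h ▸ had p a b hp⟩⟩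
  simpa [T] using U _ _ (p + 1) (by omega) (fun i hi => by simp [T, hi]) h (had p a b hp)

include hN

theorem Kan.exists_group : ∃ G : AddCommGroup Z, (0 : Z) = pt ∧ ∀ p, p + 2 < N → ∀ a b c,
    F (T pt p a c b) ↔ c = a + b := by
  obtain ⟨ad, had⟩ := K.exists_add U
  have a0 : ∀ p, p + 2 < N → ∀ a, F (T pt p a a pt) := fun p hp a => K.k3 a p (by omega)
  have a1 : ∀ p, p + 2 < N → ∀ a, F (T pt p pt a a) := fun p hp a =>
    K.ext _ _ (fun i _ => by unfold T; grind (splits := 30)) (K.k3 a (p + 1) hp)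
  have assoc : ∀ a b c, ad 0 (ad 0 a b) c = ad 0 a (ad 0 b c) := fun a b c => by
    refine (had 0 (by omega) _ _ _).1 (K.tri3 0 (by omega) (x := T pt 0 a (ad 0 a b) b)
      (y := T pt 0 (ad 0 a b) (ad 0 (ad 0 a b) c) c) rfl rfl rfl (fun j hj => by omega)
      (fun j hj _ => ?_) ((had 0 (by omega) _ _ _).2 rfl) ((had 0 (by omega) _ _ _).2 rfl))
    by_cases h : j = 2
    · subst h
      exact (had 0 (by omega) _ _ _).2 rfl
    · convert a0 0 (by omega) pt using 2 <;> grind [T]
  have opp : ∀ p, p + 3 < N → ∀ g s, ad p s g = ad (p + 1) g s := fun p hp g s => by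
    refine (had (p + 1) hp _ _ _).1 (K.tri3 p (by omega) (x := T pt (p + 1) pt s s)
      (y := T pt p pt g g) (by grind [T]) (by grind [T]) (by grind [T]) (fun j hj => ?_)
      (fun j hj _ => ?_) (a1 _ hp s) (a1 _ (by omega) g))
    · convert a0 (p - 1) (by omega) pt using 2 <;> grind [T]
    by_cases h : j = p + 2
    · convert (had p (by omega) s g _).2 rfl using 2 <;> grind [T]
    by_cases h' : j = p + 3
    · convert a0 p (by omega) s using 2 <;> grind [T]
    · convert a0 p (by omega) pt using 2 <;> grind [T]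
  have four : ∀ p, p + 3 < N → ∀ a b, F fun i => if i = p ∨ i = p + 1 then a else
      if i = p + 2 ∨ i = p + 3 then b else pt := fun p hp a b => by
    refine K.tri3 (p + 1) (by omega) (x := T pt p a a pt) (y := T pt (p + 1) pt b b)
      (by grind [T]) (by grind [T]) (by grind [T]) (fun j hj => ?_)
      (fun j hj _ => ?_) (a0 _ (by omega) a) (a1 _ hp b)
    · by_cases h : j = p
      · convert a0 p (by omega) a using 2 <;> grind [T]
      · convert a0 p (by omega) pt using 2 <;> grind [T]
    · by_cases h : j = p + 3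
      · convert a1 (p + 1) hp b using 2 <;> grind [T]
      · convert a1 (p + 1) hp pt using 2 <;> grind [T]
  have same : ∀ p, p + 3 < N → ∀ a b, ad p a b = ad (p + 1) a b := fun p hp a b => by
    refine (had (p + 1) hp _ _ _).1 (K.tri3 p (by omega) (x := T pt p pt a a)
      (by grind [T]) (by grind [T]) (by grind [T]) (fun j hj => ?_)
      (fun j hj _ => ?_) (a1 _ (by omega) a) (four p hp a b))
    · convert a0 (p - 1) (by omega) pt using 2 <;> grind [T]
    by_cases h : j = p + 2
    · convert (had p (by omega) a b _).2 rfl using 2 <;> grind [T]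
    by_cases h' : j = p + 3
    · convert a1 p (by omega) b using 2 <;> grind [T]
    · convert a0 p (by omega) pt using 2 <;> grind [T]
  have all : ∀ p, p + 2 < N → ∀ a b, ad p a b = ad 0 a b := fun p hp a b => by
    induction p with
    | zero => rfl
    | succ p ih => rw [← same p hp, ih (by omega)]
  have neg : ∀ b, ∃ a, ad 0 a b = pt := fun b => by
    obtain ⟨a, ha⟩ := K.k1 (T pt 0 pt pt b) 0 (by omega)
    exact ⟨a, ((had 0 (by omega) _ _ _).1 (K.ext _ _ (fun i _ => by unfold T; grind (splits := 30)) ha)).symm⟩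
  choose ng hng using neg
  let _ : Add Z := ⟨ad 0⟩
  let _ : Zero Z := ⟨pt⟩
  let _ : Neg Z := ⟨ng⟩
  let G : AddGroup Z := AddGroup.ofLeftAxioms assoc
    (fun a => ((had 0 (by omega) _ _ _).1 (a1 0 (by omega) a)).symm) hng
  exact ⟨{ G with add_comm := fun a b => (opp 0 (by omega) b a).trans (same 0 (by omega) b a).symm },
    rfl, fun p hp a b c => (had p hp a b c).trans (by rw [all p hp]; rfl)⟩

theorem Kan.exists_group_iff : ∃ G : AddCommGroup Z, (0 : Z) = pt ∧
    ∀ x, F x ↔ ∑ i ∈ Finset.range N, (-1 : ℤ) ^ i • x i = 0 := by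
  obtain ⟨G, rfl, had⟩ := K.exists_group hN U
  have key : ∀ p, p + 2 ≤ N → ∀ z : ℕ → Z, (∀ j, p + 2 ≤ j → z j = 0) →
      ∑ i ∈ Finset.range (p + 2), (-1 : ℤ) ^ i • z i = 0 → F z := fun p => by
    induction p with
    | zero =>
      intro hp z hz hs
      have h1 : z 0 = z 1 := by simpa [Finset.sum_range_succ, add_neg_eq_zero] using hs
      refine K.ext _ _ (fun i _ => ?_) (K.k3 (z 0) 0 (by omega))
      unfold T
      grind (splits := 30)
    | succ p ih =>
      intro hp z hz hs
      refine K.tri3 (p + 1) (by omega)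
        (x := fun j => if j = p then z p + z (p + 2) else if j = p + 2 then 0 else z j)
        (y := T 0 p (-z (p + 2)) 0 (z (p + 2))) (by simp) (by grind [T]) (by grind [T])
        (fun j hj => (had _ (by omega) _ _ _).2 ?_)
        (fun j hj hj' => (had _ (by omega) _ _ _).2 ?_) (ih (by omega) _ (fun j hj => ?_) ?_)
        ((had _ (by omega) _ _ _).2 (by simp))
      · unfold T
        grind (splits := 30)
      · unfold T
        grind (splits := 30)
      · grind (splits := 30)
      · rw [← hs]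
        simp only [Finset.sum_range_succ]
        rw [Finset.sum_congr rfl (g := fun i => (-1 : ℤ) ^ i • z i) fun i hi => by
          have := Finset.mem_range.1 hi
          rw [if_neg (by omega), if_neg (by omega)]]
        simp only [if_true, pow_succ, smul_add]
        rw [if_neg (by omega), if_neg (by omega)]
        module
  have h1 : ∀ x : ℕ → Z, ∑ i ∈ Finset.range N, (-1 : ℤ) ^ i • x i = 0 → F x := fun x hx => by
    obtain ⟨p, rfl⟩ : ∃ p, N = p + 2 := ⟨N - 2, by omega⟩
    refine K.ext _ _ (fun i hi => if_pos hi) (key p le_rfl (fun i => if i < p + 2 then x i else 0)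
      (fun j hj => if_neg (by omega)) ?_)
    rw [← hx]
    exact Finset.sum_congr rfl fun i hi => by rw [if_pos (Finset.mem_range.1 hi)]
  refine ⟨G, rfl, fun x => ⟨fun hx => ?_, h1 x⟩⟩
  obtain ⟨p, rfl⟩ : ∃ p, N = p + 1 := ⟨N - 1, by omega⟩
  have h2 := U x (fun i => if i = 0 then
    -∑ i ∈ Finset.range p, (-1 : ℤ) ^ (i + 1) • x (i + 1) else x i) 0 (by omega)
    (fun i hi => (if_neg hi).symm) hx (h1 _ (by simp [Finset.sum_range_succ']))
  rw [Finset.sum_range_succ', h2]
  simp

end Group

end Vale.Agent.P178.Hat
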