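import Vale.Agent.P178.Simp
import Vale.Agent.P178.HatAux

/-!
P178: the homotopy addition theorem, in purely combinatorial form.
-/

namespace Vale.Agent.P178

universe u v

/-- Presentation of a family of fillable tuples by an abelian group. -/
structure PiData {Z : Type u} (pt : Z) {k : ℕ} (Fl : (Fin k → Z) → Prop) where
  G : Type u
  [grp : AddCommGroup G]
  cls : Z → G
  surj : Function.Surjective cls
  cls_pt : cls pt = 0
  fl_iff : ∀ x, Fl x ↔ ∑ i : Fin k, (-1 : ℤ) ^ (i : ℕ) • cls (x i) = 0

attribute [instance] PiData.grp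

/-- Combinatorial homotopy addition theorem. -/
theorem hat {Z : Type u} (pt : Z) (m : ℕ) (Fl : (Fin (m + 4) → Z) → Prop)
    (K1 : ∀ x k, ∃ z, Fl (Function.update x k z))
    (K2 : ∀ a : Fin (m + 5) → Fin (m + 5) → Z, (∀ i j, a i j = a j i) → ∀ k,
      (∀ j, j ≠ k → Fl (fun i => a j (j.succAbove i))) → Fl (fun i => a k (k.succAbove i)))
    (K3 : ∀ (z : Z) (i : Fin (m + 3)),
      Fl (fun j => if j = i.castSucc ∨ j = i.succ then z else pt)) :
    Nonempty (PiData pt Fl) := by
  have hrow : ∀ (a : ℕ → ℕ → Z) (j : Fin (m + 5)), (fun i : Fin (m + 4) => Hat.row a j i) =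
      fun i => a j (j.succAbove i : Fin (m + 5)) := fun a j => by
    funext i
    simp only [Hat.row, Fin.succAbove, Fin.lt_def, Fin.val_castSucc, apply_ite Fin.val,
      Fin.val_succ]
  have K : Hat.Kan pt (m + 4) fun x => Fl fun i => x i := by
    refine ⟨fun x y h hx => ?_, fun x k hk => ?_, fun a ha k hk H => ?_, fun z p hp => ?_⟩
    · rwa [show (fun i : Fin (m + 4) => y i) = fun i : Fin (m + 4) => x i from
        funext fun i => (h i i.2).symm]
    · obtain ⟨z, hz⟩ := K1 (fun i => x i) ⟨k, hk⟩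
      refine ⟨z, ?_⟩
      convert hz using 1
      funext i
      simp only [Function.update_apply, Fin.ext_iff]
    · have h := K2 (fun i j => a i j) (fun i j => ha i j) ⟨k, by omega⟩ fun j hj => by
        rw [← hrow]
        exact H j (by omega) fun h => hj (Fin.ext h)
      rwa [← hrow] at h
    · convert K3 z ⟨p, by omega⟩ using 1
      funext i
      simp only [Hat.T, Fin.ext_iff, Fin.val_castSucc, Fin.val_succ]
      grind
  obtain ⟨KQ, h1, U⟩ := K.quot (by omega)
  obtain ⟨G, h0, hG⟩ := KQ.exists_group_iff (by omega) U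
  refine ⟨{ G := Quotient (K.setoid (by omega)), grp := G, cls := Quotient.mk _
            surj := Quotient.mk_surjective, cls_pt := h0.symm, fl_iff := fun x => ?_ }⟩
  have h2 := (h1 fun i => if h : i < m + 4 then x ⟨i, h⟩ else pt).trans
    (hG fun i => Quotient.mk _ (if h : i < m + 4 then x ⟨i, h⟩ else pt))
  rw [Finset.sum_range] at h2
  simpa only [Fin.is_lt, dif_pos, Fin.eta] using h2

/-- Universal property. -/
theorem PiData.lift {Z : Type u} {pt : Z} {m : ℕ} {Fl : (Fin (m + 3) → Z) → Prop}
    (D : PiData pt Fl) {M : Type v} [AddCommGroup M] (ψ : Z → M) (h0 : ψ pt = 0)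
    (h : ∀ x, Fl x → ∑ i : Fin (m + 3), (-1 : ℤ) ^ (i : ℕ) • ψ (x i) = 0) :
    ∃ f : D.G →+ M, ∀ z, f (D.cls z) = ψ z := by
  have key : ∀ a b c, D.cls c = D.cls a + D.cls b → ψ c = ψ a + ψ b := fun a b c hc => by
    have h1 := h (Fin.cons a (Fin.cons c (Fin.cons b fun _ => pt))) ((D.fl_iff _).2 (by
      simp [Fin.sum_univ_succ, D.cls_pt, hc]))
    simp only [Fin.sum_univ_succ, Fin.cons_zero, Fin.cons_succ, h0, smul_zero,
      Finset.sum_const_zero, Fin.val_zero, Fin.val_succ] at h1
    rw [← sub_eq_zero, ← neg_eq_zero, ← h1]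
    module
  refine ⟨AddMonoidHom.mk' (fun g => ψ (Function.surjInv D.surj g)) fun g g' =>
    key _ _ _ (by simp only [Function.surjInv_eq]), fun z => ?_⟩
  have h1 := key z pt (Function.surjInv D.surj (D.cls z))
    (by rw [Function.surjInv_eq D.surj, D.cls_pt, add_zero])
  rwa [h0, add_zero] at h1

variable {X : Type u} [TopologicalSpace X]

/-- Spherical singular `(n+1)`-simplices. -/
def Sph (x₀ : X) (n : ℕ) : Type u := {w : C(Dl (n + 1), X) // Spherical x₀ w}

/-- The constant simplex. -/
def Sph.pt (x₀ : X) (n : ℕ) : Sph x₀ n := ⟨ContinuousMap.const _ x₀, fun _ => rfl⟩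

/-- Tuples of spherical simplices which bound a simplex. -/
def Fillable (x₀ : X) (n : ℕ) (x : Fin (n + 3) → Sph x₀ n) : Prop :=
  ∃ W : C(Dl (n + 2), X), ∀ i, dS i W = (x i).1

theorem dS_dS_swap {n : ℕ} (k : Fin (n + 3)) (i : Fin (n + 2)) (W : C(Dl (n + 2), X)) :
    dS i (dS k W) = dS (i.predAbove k) (dS (k.succAbove i) W) := by
  ext p
  exact congrArg W (face_face (funext fun l =>
    (Fin.succAbove_succAbove_succAbove_predAbove k i l).symm) p)

theorem fillable_degen (x₀ : X) (n : ℕ) (z : Sph x₀ n) (i : Fin (n + 2)) :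
    Fillable x₀ n fun j => if j = i.castSucc ∨ j = i.succ then z else Sph.pt x₀ n := by
  refine ⟨z.1.comp ⟨stdSimplex.map i.predAbove, stdSimplex.continuous_map _⟩, fun j => ?_⟩
  ext p
  change z.1 (stdSimplex.map i.predAbove (stdSimplex.map j.succAbove p)) = _
  rw [stdSimplex.map_comp_apply]
  beta_reduce
  split_ifs with h
  · have h1 : i.predAbove ∘ j.succAbove = id := by
      funext l
      ext
      simp only [Fin.ext_iff, Fin.val_castSucc, Fin.val_succ] at h
      simp only [Function.comp_apply, Fin.succAbove, Fin.predAbove, Fin.lt_def, Fin.val_castSucc,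
        apply_dite Fin.val, Fin.val_pred, Fin.coe_castPred, dite_eq_ite, apply_ite Fin.val,
        Fin.val_succ, id]
      split_ifs <;> omega
    rw [h1, stdSimplex.map_id_apply]
  · obtain ⟨q, hq⟩ := (mem_range_face (i.predAbove j)
        (stdSimplex.map (i.predAbove ∘ j.succAbove) p)).2 (by
      rw [stdSimplex.map_coe, FunOnFinite.linearMap_apply_apply]
      refine Finset.sum_eq_zero fun l hl => absurd (Finset.mem_filter.1 hl).2 ?_
      simp only [Fin.ext_iff, Fin.val_castSucc, Fin.val_succ] at h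
      simp only [Fin.ext_iff, Function.comp_apply, Fin.succAbove, Fin.predAbove, Fin.lt_def,
        Fin.val_castSucc, apply_dite Fin.val, Fin.val_pred, Fin.coe_castPred, dite_eq_ite,
        apply_ite Fin.val, Fin.val_succ]
      split_ifs <;> omega)
    rw [← hq]
    exact ContinuousMap.congr_fun (z.2 _) q

/-- The homotopy groups `π_{m+2}` in simplicial form. -/
theorem exists_piData (x₀ : X) (m : ℕ) :
    Nonempty (PiData (Sph.pt x₀ (m + 1)) (Fillable x₀ (m + 1))) := by
  refine hat _ m _ (fun x k => ?_) (fun a ha k H => ?_) (fillable_degen x₀ (m + 1))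
  · obtain ⟨W, hW⟩ := horn_fill k (fun i => (x i).1) fun i j _ _ p q h => by
      by_cases hij : i = j
      · subst hij
        rw [face_injective i h]
      · obtain ⟨i', j', r, rfl, rfl, -⟩ := face_eq_face hij h
        exact (ContinuousMap.congr_fun ((x i).2 i') r).trans
          (ContinuousMap.congr_fun ((x j).2 j') r).symm
    obtain ⟨z, hz⟩ : ∃ z : Sph x₀ (m + 1), z.1 = dS k W := ⟨⟨dS k W, fun i => by
      rw [dS_dS_swap, hW _ (k.succAbove_ne i)]
      exact (x _).2 _⟩, rfl⟩
    refine ⟨z, W, fun i => ?_⟩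
    by_cases hi : i = k
    · subst hi
      rw [Function.update_self, hz]
    · rw [Function.update_of_ne hi, hW i hi]
  · have h1 : ∀ j, ∃ W : C(Dl (m + 3), X), j ≠ k → ∀ i, dS i W = (a j (j.succAbove i)).1 :=
      fun j => by
        by_cases hj : j = k
        · exact ⟨ContinuousMap.const _ x₀, fun h => absurd hj h⟩
        · obtain ⟨W, hW⟩ := H j hj
          exact ⟨W, fun _ => hW⟩
    choose W hW using h1
    obtain ⟨V, hV⟩ := horn_fill k W fun i j hi hj p q h => by
      by_cases hij : i = j
      · subst hij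
        rw [face_injective i h]
      · obtain ⟨i', j', r, rfl, rfl, e1, e2, -⟩ := face_eq_face hij h
        have h2 := hW i hi i'
        have h3 := hW j hj j'
        rw [e1, ha] at h2
        rw [e2] at h3
        exact ContinuousMap.congr_fun (h2.trans h3.symm) r
    refine ⟨dS k V, fun i => ?_⟩
    rw [dS_dS_swap, hV _ (k.succAbove_ne i), hW _ (k.succAbove_ne i),
      Fin.succAbove_succAbove_predAbove, ha]

end Vale.Agent.P178
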