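import Vale.Agent.P178.Simp

/-!
P178: the staircase argument in the Cech double complex of a levelwise surjection `E → X`.
-/

namespace Vale.Agent.P178

universe v w

variable {M : Type v} [AddCommGroup M]

/-- The levelwise product of two semi-simplicial sets. -/
def stairProd (A B : SSS.{w}) : SSS.{w} where
  Y n := A.Y n × B.Y n
  d i y := (A.d i y.1, B.d i y.2)
  dd i j i' j' h y := Prod.ext (A.dd i j i' j' h y.1) (B.dd i j i' j' h y.2)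

theorem stair_dd2 (E : SSS.{w}) {n : ℕ} (b : E.Y n → E.Y n → M) (u u' : E.Y (n + 2)) :
    ∑ i : Fin (n + 3), (-1 : ℤ) ^ (i : ℕ) • ∑ j : Fin (n + 2), (-1 : ℤ) ^ (j : ℕ) •
      b (E.d j (E.d i u)) (E.d j (E.d i u')) = 0 :=
  (stairProd E E).cob_cob (n := n) (fun y => b y.1 y.2) (u, u')

theorem stair_dd3 (E : SSS.{w}) {n : ℕ} (b : E.Y n → E.Y n → E.Y n → M) (u u' u'' : E.Y (n + 2)) :
    ∑ i : Fin (n + 3), (-1 : ℤ) ^ (i : ℕ) • ∑ j : Fin (n + 2), (-1 : ℤ) ^ (j : ℕ) •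
      b (E.d j (E.d i u)) (E.d j (E.d i u')) (E.d j (E.d i u'')) = 0 :=
  (stairProd E (stairProd E E)).cob_cob (n := n) (fun y => b y.1 y.2.1 y.2.2) (u, u', u'')

theorem staircase (E X : SSS.{w}) (p : ∀ n, E.Y n → X.Y n)
    (hp : ∀ n (i : Fin (n + 2)) s, p n (E.d i s) = X.d i (p (n + 1) s))
    (sel : ∀ n, X.Y n → E.Y n) (hsel : ∀ n x, p n (sel n x) = x)
    (c : E.Y 1 → E.Y 1 → E.Y 1 → E.Y 1 → M)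
    (hv : ∀ s₀ s₁ s₂ s₃ s₄ : E.Y 1, p 1 s₁ = p 1 s₀ → p 1 s₂ = p 1 s₀ → p 1 s₃ = p 1 s₀ →
      p 1 s₄ = p 1 s₀ →
      c s₁ s₂ s₃ s₄ - c s₀ s₂ s₃ s₄ + c s₀ s₁ s₃ s₄ - c s₀ s₁ s₂ s₄ + c s₀ s₁ s₂ s₃ = 0)
    (hh : ∀ t₀ t₁ t₂ t₃ : E.Y 2, p 2 t₁ = p 2 t₀ → p 2 t₂ = p 2 t₀ → p 2 t₃ = p 2 t₀ →
      ∑ i : Fin 3, (-1 : ℤ) ^ (i : ℕ) • c (E.d i t₀) (E.d i t₁) (E.d i t₂) (E.d i t₃) = 0)
    (n01 : ∀ s s₂ s₃, p 1 s₂ = p 1 s → p 1 s₃ = p 1 s → c s s s₂ s₃ = 0)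
    (n12 : ∀ s₀ s s₃, p 1 s = p 1 s₀ → p 1 s₃ = p 1 s₀ → c s₀ s s s₃ = 0)
    (n23 : ∀ s₀ s₁ s, p 1 s₁ = p 1 s₀ → p 1 s = p 1 s₀ → c s₀ s₁ s s = 0) :
    ∃ ct : X.Y 4 → M, (∀ y, X.cob ct y = 0) ∧
      ∀ x : X.Y 4, (∀ i : Fin 4, sel 3 (X.d i.castSucc x) = E.d i.castSucc (sel 4 x)) →
        (∀ i : Fin 3, sel 2 (X.d i.castSucc (X.d 4 x)) = E.d i.castSucc (sel 3 (X.d 4 x))) →
        (∀ i : Fin 2, sel 1 (X.d i.castSucc (X.d 3 (X.d 4 x))) =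
          E.d i.castSucc (sel 2 (X.d 3 (X.d 4 x)))) →
        ct x = - c (sel 1 (X.d 2 (X.d 3 (X.d 4 x)))) (E.d 2 (sel 2 (X.d 3 (X.d 4 x))))
          (E.d 2 (E.d 3 (sel 3 (X.d 4 x)))) (E.d 2 (E.d 3 (E.d 4 (sel 4 x)))) := by
  have hd : ∀ n (i : Fin (n + 2)) (s s' : E.Y (n + 1)), p (n + 1) s = p (n + 1) s' →
      p n (E.d i s) = p n (E.d i s') := fun n i s s' h => by rw [hp, hp, h]
  obtain ⟨b1, hb1⟩ : ∃ b1 : E.Y 1 → E.Y 1 → E.Y 1 → M,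
      ∀ s₁ s₂ s₃, b1 s₁ s₂ s₃ = c (sel 1 (p 1 s₁)) s₁ s₂ s₃ := ⟨_, fun _ _ _ => rfl⟩
  obtain ⟨c2, hc2⟩ : ∃ c2 : E.Y 2 → E.Y 2 → E.Y 2 → M, ∀ t₁ t₂ t₃, c2 t₁ t₂ t₃ =
      ∑ i : Fin 3, (-1 : ℤ) ^ (i : ℕ) • b1 (E.d i t₁) (E.d i t₂) (E.d i t₃) :=
    ⟨_, fun _ _ _ => rfl⟩
  obtain ⟨b2, hb2⟩ : ∃ b2 : E.Y 2 → E.Y 2 → M,
      ∀ t₂ t₃, b2 t₂ t₃ = c2 (sel 2 (p 2 t₂)) t₂ t₃ := ⟨_, fun _ _ => rfl⟩
  obtain ⟨c3, hc3⟩ : ∃ c3 : E.Y 3 → E.Y 3 → M, ∀ u₂ u₃, c3 u₂ u₃ =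
      ∑ i : Fin 4, (-1 : ℤ) ^ (i : ℕ) • b2 (E.d i u₂) (E.d i u₃) := ⟨_, fun _ _ => rfl⟩
  obtain ⟨b3, hb3⟩ : ∃ b3 : E.Y 3 → M, ∀ u, b3 u = c3 (sel 3 (p 3 u)) u := ⟨_, fun _ => rfl⟩
  have v1 : ∀ s₀ s₁ s₂ s₃, p 1 s₁ = p 1 s₀ → p 1 s₂ = p 1 s₀ → p 1 s₃ = p 1 s₀ →
      c s₀ s₁ s₂ s₃ = b1 s₁ s₂ s₃ - b1 s₀ s₂ s₃ + b1 s₀ s₁ s₃ - b1 s₀ s₁ s₂ := by
    intro s₀ s₁ s₂ s₃ h1 h2 h3
    have := hv (sel 1 (p 1 s₀)) s₀ s₁ s₂ s₃ (by rw [hsel]) (by rw [hsel, h1]) (by rw [hsel, h2])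
      (by rw [hsel, h3])
    rw [hb1, hb1, hb1, hb1, h1, ← sub_eq_zero, ← this]
    abel
  have w2 : ∀ t₀ t₁ t₂ t₃, p 2 t₁ = p 2 t₀ → p 2 t₂ = p 2 t₀ → p 2 t₃ = p 2 t₀ →
      c2 t₁ t₂ t₃ - c2 t₀ t₂ t₃ + c2 t₀ t₁ t₃ - c2 t₀ t₁ t₂ = 0 := by
    intro t₀ t₁ t₂ t₃ h1 h2 h3
    rw [← hh t₀ t₁ t₂ t₃ h1 h2 h3, hc2, hc2, hc2, hc2, ← Finset.sum_sub_distrib,
      ← Finset.sum_add_distrib, ← Finset.sum_sub_distrib]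
    refine Finset.sum_congr rfl fun i _ => ?_
    rw [v1 _ _ _ _ (hd 1 i _ _ h1) (hd 1 i _ _ h2) (hd 1 i _ _ h3), smul_sub, smul_add, smul_sub]
  have v2 : ∀ t₁ t₂ t₃, p 2 t₂ = p 2 t₁ → p 2 t₃ = p 2 t₁ →
      c2 t₁ t₂ t₃ = b2 t₂ t₃ - b2 t₁ t₃ + b2 t₁ t₂ := by
    intro t₁ t₂ t₃ h2 h3
    have := w2 (sel 2 (p 2 t₁)) t₁ t₂ t₃ (by rw [hsel]) (by rw [hsel, h2]) (by rw [hsel, h3])
    rw [hb2, hb2, hb2, h2, ← sub_eq_zero, ← this]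
    abel
  have w3 : ∀ u₁ u₂ u₃, p 3 u₂ = p 3 u₁ → p 3 u₃ = p 3 u₁ →
      c3 u₂ u₃ - c3 u₁ u₃ + c3 u₁ u₂ = 0 := by
    intro u₁ u₂ u₃ h2 h3
    rw [← stair_dd3 E b1 u₁ u₂ u₃, hc3, hc3, hc3, ← Finset.sum_sub_distrib,
      ← Finset.sum_add_distrib]
    refine Finset.sum_congr rfl fun i _ => ?_
    rw [← hc2, v2 _ _ _ (hd 2 i _ _ h2) (hd 2 i _ _ h3), smul_add, smul_sub]
  have v3 : ∀ u₂ u₃, p 3 u₃ = p 3 u₂ → c3 u₂ u₃ = b3 u₃ - b3 u₂ := by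
    intro u₂ u₃ h3
    have := w3 (sel 3 (p 3 u₂)) u₂ u₃ (by rw [hsel]) (by rw [hsel, h3])
    rw [hb3, hb3, h3, ← sub_eq_zero, ← this]
    abel
  have w4 : ∀ y y' : E.Y 4, p 4 y' = p 4 y → E.cob b3 y' = E.cob b3 y := by
    intro y y' h
    rw [← sub_eq_zero, ← stair_dd2 E b2 y y']
    unfold SSS.cob
    rw [← Finset.sum_sub_distrib]
    refine Finset.sum_congr rfl fun i _ => ?_
    rw [← hc3, v3 _ _ (hd 3 i _ _ h), smul_sub]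
  refine ⟨fun x => E.cob b3 (sel 4 x), fun y => ?_, fun x h4 h3 h2 => ?_⟩
  · rw [← E.cob_cob b3 (sel 5 y)]
    refine Finset.sum_congr rfl fun i _ => ?_
    beta_reduce
    rw [w4 (E.d i (sel 5 y)) (sel 4 (X.d i y)) (by rw [hsel, hp, hsel])]
  · have z3 : ∀ u, c3 u u = 0 := by
      intro u
      rw [hc3]
      refine Finset.sum_eq_zero fun i _ => ?_
      rw [hb2, hc2, Finset.sum_eq_zero, smul_zero]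
      intro j _
      rw [hb1, n23 _ _ _ (by rw [hsel]) (by rw [hsel]; exact hd 1 j _ _ (by rw [hsel])), smul_zero]
    have z2 : ∀ t t', p 2 t' = p 2 t → c2 t t t' = 0 := by
      intro t t' h
      rw [hc2]
      refine Finset.sum_eq_zero fun j _ => ?_
      rw [hb1, n12 _ _ _ (by rw [hsel]) (by rw [hsel]; exact hd 1 j _ _ h), smul_zero]
    have e4 : E.cob b3 (sel 4 x) = c3 (sel 3 (X.d 4 x)) (E.d 4 (sel 4 x)) := by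
      unfold SSS.cob
      rw [Fin.sum_univ_castSucc, Finset.sum_eq_zero, zero_add, hb3, hp, hsel]
      · exact one_smul ℤ _
      · intro i _
        rw [hb3, hp, hsel, h4, z3, smul_zero]
    have q3 : p 3 (E.d 4 (sel 4 x)) = p 3 (sel 3 (X.d 4 x)) := by rw [hp, hsel, hsel]
    have e3 : c3 (sel 3 (X.d 4 x)) (E.d 4 (sel 4 x)) = - c2 (sel 2 (X.d 3 (X.d 4 x)))
        (E.d 3 (sel 3 (X.d 4 x))) (E.d 3 (E.d 4 (sel 4 x))) := by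
      rw [hc3, Fin.sum_univ_castSucc, Finset.sum_eq_zero, zero_add, hb2, hp, hsel]
      · exact neg_one_smul ℤ _
      · intro i _
        rw [hb2, hp, hsel, h3, z2 _ _ (hd 2 _ _ _ q3), smul_zero]
    have q2 : p 2 (E.d 3 (sel 3 (X.d 4 x))) = p 2 (sel 2 (X.d 3 (X.d 4 x))) := by
      rw [hp, hsel, hsel]
    have q2' : p 2 (E.d 3 (E.d 4 (sel 4 x))) = p 2 (sel 2 (X.d 3 (X.d 4 x))) :=
      (hd 2 _ _ _ q3).trans q2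
    beta_reduce
    rw [e4, e3, hc2, Fin.sum_univ_castSucc, Finset.sum_eq_zero, zero_add, hb1, hp, hsel]
    · exact congrArg Neg.neg (one_smul ℤ _)
    · intro i _
      rw [hb1, hp, hsel, h2, n01 _ _ _ (hd 1 _ _ _ q2) (hd 1 _ _ _ q2'), smul_zero]

end Vale.Agent.P178
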