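import Vale.Agent.P178.Cone
import Vale.Agent.P178.Stair

/-!
P178: the 4-cocycle on the nerve of `Q P(A)` (delooped third Chern character in Hodge form).
-/

namespace Vale.Agent.P178

open CategoryTheory Opposite Simplicial TensorProduct

variable {A B : Type} [CommRing A] [CommRing B] [Algebra A B] (D : Fin 3 → Derivation ℤ A B)

/-- Compatible systems of connections on a simplex of the nerve. -/
def Sys {n : ℕ} (x : ComposableArrows (QObj A) n) : Type :=
  {s : ∀ j, Conn D (x.obj j).carrier //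
    ∀ i j (h : i ≤ j), ConnRel (x.map (homOfLE h)).1 (s j) (s i)}

variable {D} in
theorem connRel_comp_hom {M N P : QObj A} (f : M ⟶ N) (g : N ⟶ P) {cM : Conn D M.carrier}
    {cN : Conn D N.carrier} {cP : Conn D P.carrier} (r : ConnRel f.1 cN cM)
    (r' : ConnRel g.1 cP cN) : ConnRel (f ≫ g).1 cP cM :=
  ConnRel.comp f.2 g.2 r r'

theorem exists_sys_le [IsLocalRing A] {n : ℕ} (x : ComposableArrows (QObj A) n) (k : ℕ) :
    ∃ s : ∀ j, Conn D (x.obj j).carrier,
      ∀ (i j : Fin (n + 1)) (h : i ≤ j), j.val ≤ k → ConnRel (x.map (homOfLE h)).1 (s j) (s i) := by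
  classical
  have hid : ∀ (s : ∀ j, Conn D (x.obj j).carrier) (i : Fin (n + 1)) (h : i ≤ i),
      ConnRel (x.map (homOfLE h)).1 (s i) (s i) := by
    intro s i h
    rw [show homOfLE h = 𝟙 i from rfl, x.map_id]
    exact connRel_id _
  induction k with
  | zero =>
    refine ⟨fun j => (nonempty_conn (D := D) (P := (x.obj j).carrier)).some, ?_⟩
    intro i j h hj
    obtain rfl : i = j := Fin.ext (by have := Fin.le_def.1 h; omega)
    exact hid (fun j => (nonempty_conn (D := D) (P := (x.obj j).carrier)).some) _ _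
  | succ k ih =>
    obtain ⟨s, hs⟩ := ih
    by_cases hk : k + 1 < n + 1
    · let j₁ : Fin (n + 1) := ⟨k + 1, hk⟩
      let j₀ : Fin (n + 1) := ⟨k, by omega⟩
      have h01 : j₀ ≤ j₁ := Fin.mk_le_mk.2 (by omega)
      obtain ⟨cN, hcN⟩ := exists_connRel (D := D) (x.map (homOfLE h01)).2 (s j₀)
      refine ⟨Function.update s j₁ cN, ?_⟩
      intro i j h hj
      by_cases hij : i = j
      · subst hij; exact hid _ _ _
      have hlt : (i : ℕ) < j := lt_of_le_of_ne (Fin.le_def.1 h) (fun e => hij (Fin.ext e))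
      have hi : i ≠ j₁ := fun e => by have := congrArg Fin.val e; simp [j₁] at this; omega
      by_cases hj1 : j = j₁
      · subst hj1
        rw [Function.update_self, Function.update_of_ne hi]
        have hi0 : i ≤ j₀ := Fin.le_def.2 (by simp [j₀, j₁] at hlt ⊢; omega)
        rw [show homOfLE h = homOfLE hi0 ≫ homOfLE h01 from rfl, x.map_comp]
        exact connRel_comp_hom _ _ (hs i j₀ hi0 le_rfl) hcN
      · rw [Function.update_of_ne hi, Function.update_of_ne hj1]
        refine hs i j h ?_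
        have : (j : ℕ) ≠ k + 1 := fun e => hj1 (Fin.ext e)
        omega
    · exact ⟨s, fun i j h _ => hs i j h (by have := j.2; omega)⟩

theorem nonempty_sys [IsLocalRing A] {n : ℕ} (x : ComposableArrows (QObj A) n) :
    Nonempty (Sys D x) := by
  obtain ⟨s, hs⟩ := exists_sys_le D x n
  exact ⟨⟨s, fun i j h => hs i j h (by have := j.2; omega)⟩⟩

variable {D} in
theorem ConnRel.unique {M N : Type} [AddCommGroup M] [Module A M] [AddCommGroup N] [Module A N]
    {Γ : Submodule A (N × M)} (h : IsQRel Γ) {cN : Conn D N} {cM cM' : Conn D M}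
    (r : ConnRel Γ cN cM) (r' : ConnRel Γ cN cM') : cM = cM' := by
  ext1
  funext i
  ext m
  obtain ⟨n, hn⟩ := h.surj m
  have := (relBC B Γ).sub_mem (r i _ hn) (r' i _ hn)
  simp only [Prod.mk_sub_mk, sub_self] at this
  exact sub_eq_zero.1 ((h.bc B).graph _ this)

/-- Restriction of systems along monotone maps. -/
def Sys.pull {m n : ℕ} (θ : (⦋m⦌ : SimplexCategory) ⟶ ⦋n⦌) (x : (nerve (QObj A)) _⦋n⦌)
    (s : Sys D (n := n) x) : Sys D (n := m) ((nerve (QObj A)).map θ.op x) :=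
  ⟨fun j => s.1 (θ.toOrderHom j), fun _ _ h => s.2 _ _ (θ.toOrderHom.monotone h)⟩

/-- The simplicial set of simplices with connections. -/
def sysS : SSet.{1} where
  obj n := Σ x : (nerve (QObj A)).obj n, Sys D (n := n.unop.len) x
  map θ := ↾fun s => ⟨(nerve (QObj A)).map θ s.1, Sys.pull D θ.unop s.1 s.2⟩
  map_id _ := rfl
  map_comp _ _ := rfl

/-- Value on an edge. -/
noncomputable def cval (x : ComposableArrows (QObj A) 1) (a b c d : Sys D x) : B :=
  trOn (relKer (relBC B (x.map (homOfLE (show (0 : Fin 2) ≤ 1 by decide))).1))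
    (Conn.phi (a.1 1) (b.1 1) (c.1 1) (d.1 1))

open Classical in
/-- The same as a total function. -/
noncomputable def ctot (s₀ s₁ s₂ s₃ : (sssOf (sysS D)).Y 1) : B :=
  if h : s₁.1 = s₀.1 ∧ s₂.1 = s₀.1 ∧ s₃.1 = s₀.1 then
    cval D s₀.1 s₀.2 (h.1 ▸ s₁.2) (h.2.1 ▸ s₂.2) (h.2.2 ▸ s₃.2) else 0

theorem ctot_mk (x : (nerve (QObj A)) _⦋1⦌) (a b c d : Sys D (n := 1) x) :
    ctot D ⟨x, a⟩ ⟨x, b⟩ ⟨x, c⟩ ⟨x, d⟩ = cval D x a b c d := by
  unfold ctot
  rw [dif_pos ⟨rfl, rfl, rfl⟩]

variable {D} in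
theorem Sys.relEnd_phi {n : ℕ} {x : ComposableArrows (QObj A) n} (a b c d : Sys D x)
    {i j : Fin (n + 1)} (h : i ≤ j) :
    RelEnd (relBC B (x.map (homOfLE h)).1) (Conn.phi (a.1 j) (b.1 j) (c.1 j) (d.1 j))
      (Conn.phi (a.1 i) (b.1 i) (c.1 i) (d.1 i)) :=
  (((a.2 i j h).relEnd_diff (b.2 i j h) 0).mul ((b.2 i j h).relEnd_diff (c.2 i j h) 1)).mul
    ((c.2 i j h).relEnd_diff (d.2 i j h) 2)

theorem cval_v (x : ComposableArrows (QObj A) 1) (a b c d e : Sys D x) :
    cval D x b c d e - cval D x a c d e + cval D x a b d e - cval D x a b c e +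
      cval D x a b c d = 0 := by
  have h01 : (0 : Fin 2) ≤ 1 := by decide
  have k := fun a b c d : Sys D x => (Sys.relEnd_phi a b c d h01).ker
  have h := congrArg (trOn (relKer (relBC B (x.map (homOfLE h01)).1)))
    (Conn.phi_coc (a.1 1) (b.1 1) (c.1 1) (d.1 1) (e.1 1))
  rw [trOn_add (k _ _ _ _) (k _ _ _ _), trOn_add _ (k _ _ _ _), trOn_add (k _ _ _ _) (k _ _ _ _)]
    at h
  · unfold cval
    linear_combination h
  · intro y hy
    exact Submodule.add_mem _ (k _ _ _ _ y hy) (k _ _ _ _ y hy)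

theorem cval_h [IsLocalRing B] (x : (nerve (QObj A)) _⦋2⦌) (a b c d : Sys D (n := 2) x) :
    ∑ i : Fin 3, (-1 : ℤ) ^ (i : ℕ) • ctot D ((sssOf (sysS D)).d i ⟨x, a⟩)
      ((sssOf (sysS D)).d i ⟨x, b⟩) ((sssOf (sysS D)).d i ⟨x, c⟩)
      ((sssOf (sysS D)).d i ⟨x, d⟩) = 0 := by
  have h01 : (0 : Fin 3) ≤ 1 := by decide
  have h12 : (1 : Fin 3) ≤ 2 := by decide
  have key := trOn_comp ((x.map (homOfLE h01)).2.bc B) ((x.map (homOfLE h12)).2.bc B)
    (Sys.relEnd_phi a b c d h01) (Sys.relEnd_phi a b c d h12)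
  rw [← relBC_comp B (x.map (homOfLE h01)).2 (x.map (homOfLE h12)).2] at key
  have hc : relComp (x.map (homOfLE h01)).1 (x.map (homOfLE h12)).1 =
      (x.map (homOfLE (h01.trans h12))).1 :=
    (congrArg Subtype.val (x.map_comp (homOfLE h01) (homOfLE h12))).symm
  rw [hc] at key
  have e : ∀ i : Fin 3, ctot D ((sssOf (sysS D)).d i ⟨x, a⟩)
      ((sssOf (sysS D)).d i ⟨x, b⟩) ((sssOf (sysS D)).d i ⟨x, c⟩)
      ((sssOf (sysS D)).d i ⟨x, d⟩) = cval D _ (Sys.pull D (SimplexCategory.δ i) x a)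
        (Sys.pull D (SimplexCategory.δ i) x b) (Sys.pull D (SimplexCategory.δ i) x c)
        (Sys.pull D (SimplexCategory.δ i) x d) := fun i => ctot_mk D _ _ _ _ _
  simp only [e, Fin.sum_univ_three]
  have e0 : cval D _ (Sys.pull D (SimplexCategory.δ 0) x a)
        (Sys.pull D (SimplexCategory.δ 0) x b) (Sys.pull D (SimplexCategory.δ 0) x c)
        (Sys.pull D (SimplexCategory.δ 0) x d) =
      trOn (relKer (relBC B (x.map (homOfLE h12)).1))
        (Conn.phi (a.1 2) (b.1 2) (c.1 2) (d.1 2)) := rfl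
  have e1 : cval D _ (Sys.pull D (SimplexCategory.δ 1) x a)
        (Sys.pull D (SimplexCategory.δ 1) x b) (Sys.pull D (SimplexCategory.δ 1) x c)
        (Sys.pull D (SimplexCategory.δ 1) x d) =
      trOn (relKer (relBC B (x.map (homOfLE (h01.trans h12))).1))
        (Conn.phi (a.1 2) (b.1 2) (c.1 2) (d.1 2)) := rfl
  have e2 : cval D _ (Sys.pull D (SimplexCategory.δ 2) x a)
        (Sys.pull D (SimplexCategory.δ 2) x b) (Sys.pull D (SimplexCategory.δ 2) x c)
        (Sys.pull D (SimplexCategory.δ 2) x d) =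
      trOn (relKer (relBC B (x.map (homOfLE h01)).1))
        (Conn.phi (a.1 1) (b.1 1) (c.1 1) (d.1 1)) := rfl
  rw [e0, e1, e2, key]
  simp

/-- Systems whose last connection is the preferred one. -/
def Good (pref : ∀ M : QObj A, Conn D M.carrier) {n : ℕ} {x : ComposableArrows (QObj A) n}
    (s : Sys D x) : Prop :=
  ∀ j, j = Fin.last n → s.1 j = pref (x.obj j)

variable {D} in
theorem Good.unique {pref : ∀ M : QObj A, Conn D M.carrier} {n : ℕ}
    {x : ComposableArrows (QObj A) n} {s s' : Sys D x} (h : Good D pref s) (h' : Good D pref s') :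
    s = s' := by
  refine Subtype.ext (funext fun i => ?_)
  have r := s.2 i _ (Fin.le_last i)
  have r' := s'.2 i _ (Fin.le_last i)
  rw [h _ rfl] at r
  rw [h' _ rfl] at r'
  exact ConnRel.unique (x.map _).2 r r'

open Classical in
/-- The chosen system. -/
noncomputable def selSys [IsLocalRing A] (pref : ∀ M : QObj A, Conn D M.carrier) {n : ℕ}
    (x : ComposableArrows (QObj A) n) : Sys D x :=
  if h : ∃ s : Sys D x, Good D pref s then h.choose else (nonempty_sys D x).some

theorem good_selSys [IsLocalRing A] (pref : ∀ M : QObj A, Conn D M.carrier) {n : ℕ}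
    {x : ComposableArrows (QObj A) n} (h : ∃ s : Sys D x, Good D pref s) :
    Good D pref (selSys D pref x) := by
  unfold selSys
  rw [dif_pos h]
  exact h.choose_spec

theorem selSys_δ [IsLocalRing A] (pref : ∀ M : QObj A, Conn D M.carrier) {n : ℕ}
    {x : (nerve (QObj A)) _⦋n + 1⦌} (h : ∃ s : Sys D (n := n + 1) x, Good D pref s)
    (i : Fin (n + 1)) :
    selSys D pref (n := n) ((nerve (QObj A)).δ i.castSucc x) =
      Sys.pull D (SimplexCategory.δ i.castSucc) x (selSys D pref (n := n + 1) x) := by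
  have g : Good D pref (Sys.pull D (SimplexCategory.δ i.castSucc) x
      (selSys D pref (n := n + 1) x)) := by
    intro j hj
    refine good_selSys D pref h (i.castSucc.succAbove j) ?_
    subst hj
    rw [Fin.succAbove_of_le_castSucc _ _ (Fin.castSucc_le_castSucc_iff.2 (Fin.le_last i))]
    rfl
  exact (good_selSys D pref ⟨_, g⟩).unique g

section cone
variable {G : Type} [Monoid G] {P Z : QObj A} (ρ : G →* (P.carrier ≃ₗ[A] P.carrier))
  (pref : ∀ M : QObj A, Conn D M.carrier)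

/-- The explicit connections on a cone. -/
noncomputable def coneConn (e : Z ⟶ P) {n : ℕ} (y : (barS G).Y n) :
    (j : Fin (n + 2)) → Conn D ((qcone ρ e y).obj j).carrier :=
  Fin.cases (motive := fun j => Conn D ((qcone ρ e y).obj j).carrier) (pref Z)
    (fun i => (pref P).act (ρ ((show ComposableArrows (BM G) n from y).map
      (homOfLE (Fin.le_last i)))))

theorem coneConn_rel (e : Z ⟶ P)
    (he : ∀ g : P.carrier ≃ₗ[A] P.carrier, e ≫ (⟨relAut g, isQRel_relAut g⟩ : P ⟶ P) = e)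
    (he' : ∀ (cN : Conn D P.carrier) (cM : Conn D Z.carrier), ConnRel e.1 cN cM) {n : ℕ}
    (y : (barS G).Y n) (i j : Fin (n + 2)) (h : i ≤ j) :
    ConnRel ((qcone ρ e y).map (homOfLE h)).1 (coneConn D ρ pref e y j)
      (coneConn D ρ pref e y i) := by
  obtain ⟨i, hi⟩ := i
  obtain ⟨j, hj⟩ := j
  rcases i with _ | i
  · rcases j with _ | _ | j
    · exact connRel_id _
    · exact he' _ _
    · have := he (ρ ((show ComposableArrows (BM G) n from y).map' 0 (j + 1)))
      have h2 : ((qcone ρ e y).map (homOfLE h)).1 = e.1 := congrArg Subtype.val this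
      rw [h2]
      exact he' _ _
  · rcases j with _ | j
    · simp at h
    · have hij : (⟨i, by omega⟩ : Fin (n + 1)) ≤ ⟨j, by omega⟩ := by
        simpa [Fin.le_def] using h
      refine (connRel_relAut_iff (ρ ((show ComposableArrows (BM G) n from y).map
        (homOfLE hij))) _ _).2 ?_
      have hc : ∀ a b c : G, c = a * b →
          (pref P).act (ρ c) = ((pref P).act (ρ b)).act (ρ a) := by
        rintro a b c rfl
        rw [map_mul, Conn.act_mul]
      exact hc _ _ _ ((show ComposableArrows (BM G) n from y).map_comp (homOfLE hij)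
        (homOfLE (Fin.le_last _)))

/-- The explicit system on a cone. -/
noncomputable def coneSys (e : Z ⟶ P)
    (he : ∀ g : P.carrier ≃ₗ[A] P.carrier, e ≫ (⟨relAut g, isQRel_relAut g⟩ : P ⟶ P) = e)
    (he' : ∀ (cN : Conn D P.carrier) (cM : Conn D Z.carrier), ConnRel e.1 cN cM) {n : ℕ}
    (y : (barS G).Y n) : Sys D (n := n + 1) (qcone ρ e y) :=
  ⟨coneConn D ρ pref e y, coneConn_rel D ρ pref e he he' y⟩

theorem good_coneSys (e : Z ⟶ P)
    (he : ∀ g : P.carrier ≃ₗ[A] P.carrier, e ≫ (⟨relAut g, isQRel_relAut g⟩ : P ⟶ P) = e)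
    (he' : ∀ (cN : Conn D P.carrier) (cM : Conn D Z.carrier), ConnRel e.1 cN cM) {n : ℕ}
    (y : (barS G).Y n) : Good D pref (coneSys D ρ pref e he he' y) := by
  rintro j rfl
  change Conn.act (ρ ((show ComposableArrows (BM G) n from y).map (𝟙 _))) (pref P) = pref P
  rw [CategoryTheory.Functor.map_id]
  change Conn.act (ρ 1) (pref P) = pref P
  rw [map_one, Conn.act_one]

theorem selSys_cone [IsLocalRing A] (e : Z ⟶ P)
    (he : ∀ g : P.carrier ≃ₗ[A] P.carrier, e ≫ (⟨relAut g, isQRel_relAut g⟩ : P ⟶ P) = e)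
    (he' : ∀ (cN : Conn D P.carrier) (cM : Conn D Z.carrier), ConnRel e.1 cN cM) {n : ℕ}
    (y : (barS G).Y n) (x : (nerve (QObj A)) _⦋n + 1⦌) (hx : x = qcone ρ e y) :
    (∃ s : Sys D (n := n + 1) x, Good D pref s) ∧
      HEq ((selSys D pref (n := n + 1) x).1 1) ((pref P).act
        (ρ ((show ComposableArrows (BM G) n from y).map (homOfLE (Fin.le_last 0))))) := by
  subst hx
  have g := good_coneSys D ρ pref e he he' y
  refine ⟨⟨_, g⟩, ?_⟩
  rw [(good_selSys D pref ⟨_, g⟩).unique g]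
  rfl

end cone

theorem exists_qcoc [IsLocalRing A] [IsLocalRing B] (P : QObj A) (c₀ : Conn D P.carrier) :
    ∃ ct : (nerve (QObj A)) _⦋4⦌ → B, (∀ y, (sssOf (nerve (QObj A))).cob (n := 4) ct y = 0) ∧
      ∀ (G : Type) [Monoid G] (ρ : G →* (P.carrier ≃ₗ[A] P.carrier)) (Z : QObj A)
        [Subsingleton Z.carrier] (g h k : G),
        ct (qcone ρ (coneB Z P) (bar3 g h k)) = c₀.gc (ρ g) (ρ h) (ρ k) ∧
        ct (qcone ρ (coneA Z P) (bar3 g h k)) = 0 := by
  classical
  let pref : ∀ M : QObj A, Conn D M.carrier :=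
    Function.update (fun M => (nonempty_conn (D := D) (P := M.carrier)).some) P c₀
  have hpref : pref P = c₀ := Function.update_self ..
  obtain ⟨ct, hct, hev⟩ := staircase (sssOf (sysS D)) (sssOf (nerve (QObj A))) (fun _ s => s.1)
    (fun _ _ _ => rfl) (fun n x => ⟨x, selSys D pref (n := n) x⟩) (fun _ _ => rfl) (ctot D)
    (by
      rintro ⟨x, a⟩ ⟨x₁, b⟩ ⟨x₂, c⟩ ⟨x₃, d⟩ ⟨x₄, e⟩ rfl rfl rfl rfl
      simp only [ctot_mk]
      exact cval_v D _ a b c d e)
    (by
      rintro ⟨x, a⟩ ⟨x₁, b⟩ ⟨x₂, c⟩ ⟨x₃, d⟩ rfl rfl rfl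
      exact cval_h D _ a b c d)
    (by
      rintro ⟨x, a⟩ ⟨x₂, c⟩ ⟨x₃, d⟩ rfl rfl
      refine (ctot_mk D _ _ _ _ _).trans ?_
      unfold cval Conn.phi
      rw [Conn.diff_self, zero_mul, zero_mul, trOn_zero])
    (by
      rintro ⟨x, a⟩ ⟨x₂, c⟩ ⟨x₃, d⟩ rfl rfl
      refine (ctot_mk D _ _ _ _ _).trans ?_
      unfold cval Conn.phi
      rw [Conn.diff_self, mul_zero, zero_mul, trOn_zero])
    (by
      rintro ⟨x, a⟩ ⟨x₂, c⟩ ⟨x₃, d⟩ rfl rfl
      refine (ctot_mk D _ _ _ _ _).trans ?_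
      unfold cval Conn.phi
      rw [Conn.diff_self, mul_zero, trOn_zero])
  refine ⟨ct, hct, ?_⟩
  intro G _ ρ Z _ g h k
  have main : ∀ (e : Z ⟶ P)
      (he : ∀ g : P.carrier ≃ₗ[A] P.carrier, e ≫ (⟨relAut g, isQRel_relAut g⟩ : P ⟶ P) = e)
      (he' : ∀ (cN : Conn D P.carrier) (cM : Conn D Z.carrier), ConnRel e.1 cN cM),
      ct (qcone ρ e (bar3 g h k)) = - trOn (relKer (relBC B e.1))
        (Conn.phi c₀ (c₀.act (ρ g)) (c₀.act (ρ g * ρ h)) (c₀.act (ρ g * ρ h * ρ k))) := by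
    intro e he he'
    set x := qcone ρ e (bar3 g h k) with hx
    have q4 := qcone_δ_succ ρ e he (3 : Fin 4) (bar3 g h k)
    have q3 := qcone_δ_succ ρ e he (2 : Fin 3) ((barS G).d 3 (bar3 g h k))
    have q2 := qcone_δ_succ ρ e he (1 : Fin 2) ((barS G).d 2 ((barS G).d 3 (bar3 g h k)))
    rw [← q4] at q3
    rw [← q3] at q2
    obtain ⟨g4, v4⟩ := selSys_cone D ρ pref e he he' _ x rfl
    obtain ⟨g3, v3⟩ := selSys_cone D ρ pref e he he' _ _ q4
    obtain ⟨g2, v2⟩ := selSys_cone D ρ pref e he he' _ _ q3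
    obtain ⟨-, v1⟩ := selSys_cone D ρ pref e he he' _ _ q2
    rw [hev x (fun i => congrArg (Sigma.mk _) (selSys_δ D pref g4 i))
      (fun i => congrArg (Sigma.mk _) (selSys_δ D pref g3 i))
      (fun i => congrArg (Sigma.mk _) (selSys_δ D pref g2 i))]
    congr 1
    refine (ctot_mk D _ _ _ _ _).trans ?_
    have w4 := eq_of_heq v4
    have w3 := eq_of_heq v3
    have w2 := eq_of_heq v2
    have w1 := eq_of_heq v1
    rw [hpref] at w1 w2 w3 w4
    have u1 : c₀.act (ρ ((show ComposableArrows (BM G) 0 from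
        (barS G).d 1 ((barS G).d 2 ((barS G).d 3 (bar3 g h k)))).map
          (homOfLE (Fin.le_last 0)))) = c₀ := by
      change c₀.act (ρ 1) = c₀
      rw [map_one, Conn.act_one]
    have u3 : c₀.act (ρ ((show ComposableArrows (BM G) 2 from
        (barS G).d 3 (bar3 g h k)).map (homOfLE (Fin.le_last 0)))) = c₀.act (ρ g * ρ h) := by
      change c₀.act (ρ (g * h)) = _
      rw [map_mul]
    have u4 : c₀.act (ρ ((show ComposableArrows (BM G) 3 from
        (bar3 g h k)).map (homOfLE (Fin.le_last 0)))) = c₀.act (ρ g * ρ h * ρ k) := by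
      change c₀.act (ρ (g * (h * k))) = _
      rw [map_mul, map_mul, mul_assoc]
    exact congrArg (trOn (relKer (relBC B e.1)))
      (congr (congr (congr (congrArg Conn.phi (w1.trans u1)) w2) (w3.trans u3)) (w4.trans u4))
  constructor
  · have hB : relBC B (coneB Z P).1 = ⊤ := congrArg Subtype.val (qBC_coneB B Z P)
    rw [main _ (coneB_comp Z P) (fun cN cM i x _ => by rw [hB]; trivial), hB, relKer,
      Submodule.comap_top, trOn_top]
    rfl
  · have hA : relBC B (coneA Z P).1 = ⊥ := congrArg Subtype.val (qBC_coneA B Z P)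
    rw [main _ (coneA_comp Z P) (fun cN cM i x hx => by
      obtain rfl : x = 0 := hx
      rw [Prod.fst_zero, Prod.snd_zero, map_zero, map_zero]
      exact Submodule.zero_mem _), hA, relKer, Submodule.comap_bot, LinearMap.ker_eq_bot.2 LinearMap.inl_injective,
      trOn_bot, neg_zero]

end Vale.Agent.P178
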