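import Vale.Agent.P178.QLem

/-!
P178: Quillen's `Q`-construction of the exact category of finitely generated projective modules,
its classifying space, and the groups `K_n(R) = π_{n+1}(B Q P(R), 0)`.
-/

namespace Vale.Agent.P178

open CategoryTheory TensorProduct Opposite

/-- Objects of `Q P(R)`: finitely generated projective `R`-modules. -/
structure QObj (R : Type) [CommRing R] : Type 1 where
  carrier : Type
  [grp : AddCommGroup carrier]
  [mod : Module R carrier]
  [fin : Module.Finite R carrier]
  [proj : Module.Projective R carrier]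

attribute [instance] QObj.grp QObj.mod QObj.fin QObj.proj

variable {R : Type} [CommRing R]

/-- Morphisms of `Q P(R)`. -/
def QHom (M N : QObj R) : Type := {Γ : Submodule R (N.carrier × M.carrier) // IsQRel Γ}

/-- Identity morphisms. -/
def qId (M : QObj R) : QHom M M := ⟨relId R M.carrier, isQRel_id⟩

/-- Composition of morphisms. -/
def qComp {M N P : QObj R} (f : QHom M N) (g : QHom N P) : QHom M P :=
  ⟨relComp f.1 g.1, f.2.comp g.2⟩

theorem qId_comp {M N : QObj R} (f : QHom M N) : qComp (qId M) f = f :=
  Subtype.ext (relComp_id_left f.1)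

theorem qComp_id {M N : QObj R} (f : QHom M N) : qComp f (qId N) = f :=
  Subtype.ext (relComp_id_right f.1)

theorem qComp_assoc {M N P T : QObj R} (f : QHom M N) (g : QHom N P) (h : QHom P T) :
    qComp (qComp f g) h = qComp f (qComp g h) :=
  Subtype.ext (relComp_assoc f.1 g.1 h.1)

/-- Quillen's category `Q P(R)`. -/
instance : Category (QObj R) where
  Hom := QHom
  id := qId
  comp := qComp
  id_comp := qId_comp
  comp_id := qComp_id
  assoc := qComp_assoc

/-- Base change of objects. -/
noncomputable def bcObj (S : Type) [CommRing S] [Algebra R S] (M : QObj R) : QObj S :=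
  { carrier := S ⊗[R] M.carrier }

/-- Base change of morphisms. -/
noncomputable def bcHom (S : Type) [CommRing S] [Algebra R S] {M N : QObj R} (f : QHom M N) :
    QHom (bcObj S M) (bcObj S N) :=
  ⟨relBC S f.1, f.2.bc S⟩

theorem bcHom_id (S : Type) [CommRing S] [Algebra R S] (M : QObj R) :
    bcHom S (qId M) = qId (bcObj S M) :=
  Subtype.ext (relBC_id S)

theorem bcHom_comp (S : Type) [CommRing S] [Algebra R S] {M N P : QObj R} (f : QHom M N)
    (g : QHom N P) : bcHom S (qComp f g) = qComp (bcHom S f) (bcHom S g) :=
  Subtype.ext (relBC_comp S f.2 g.2)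

/-- The functor `Q P(R) ⥤ Q P(S)` induced by base change. -/
noncomputable def qBC (R S : Type) [CommRing R] [CommRing S] [Algebra R S] : QObj R ⥤ QObj S where
  obj := bcObj S
  map := bcHom S
  map_id := bcHom_id S
  map_comp := bcHom_comp S

/-- The point of the geometric realisation given by a vertex. -/
noncomputable def vertexPt (X : SSet.{1}) (x : X.obj (op (SimplexCategory.mk 0))) :
    SSet.toTop.obj X :=
  TopCat.toSSetObj₀Equiv ((sSetTopAdj.unit.app X).app _ x)

/-- The classifying space of `Q P(R)`. -/
noncomputable abbrev BQ (R : Type) [CommRing R] : TopCat.{1} := SSet.toTop.obj (nerve (QObj R))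

/-- The point of `B Q P(R)` given by an object. -/
noncomputable def bqPt (Z : QObj R) : BQ R := vertexPt _ (ComposableArrows.mk₀ Z)

/-- `K_n(R) = π_{n+1}(B Q P(R), Z)`, for `Z` a zero module. -/
abbrev KGroup (n : ℕ) (Z : QObj R) : Type 1 := HomotopyGroup.Pi (n + 1) (BQ R) (bqPt Z)

/-- The map of classifying spaces induced by base change. -/
noncomputable def bqMap (R S : Type) [CommRing R] [CommRing S] [Algebra R S] : C(BQ R, BQ S) :=
  (SSet.toTop.map (nerveMap (qBC R S))).hom

theorem vertexPt_map {X Y : SSet.{1}} (f : X ⟶ Y) (x : X.obj (op (SimplexCategory.mk 0))) :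
    (SSet.toTop.map f).hom (vertexPt X x) = vertexPt Y (f.app _ x) := by
  have h := congrArg (fun g => g.app _ x) (sSetTopAdj.unit.naturality f)
  exact (congrArg TopCat.toSSetObj₀Equiv h).symm

theorem bqMap_pt (S : Type) [CommRing S] [Algebra R S] (Z : QObj R) :
    bqMap R S (bqPt Z) = bqPt ((qBC R S).obj Z) := by
  refine (vertexPt_map _ _).trans (congrArg (vertexPt _) ?_)
  exact ComposableArrows.ext₀ rfl

/-- The map on homotopy groups induced by a pointed continuous map. -/
def piMap {X Y : Type 1} [TopologicalSpace X] [TopologicalSpace Y] (f : C(X, Y)) {x : X} {y : Y}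
    (h : f x = y) (n : ℕ) : HomotopyGroup.Pi n X x → HomotopyGroup.Pi n Y y :=
  Quotient.map (fun p => ⟨f.comp p.1, fun t ht => (congrArg f (p.2 t ht)).trans h⟩)
    (fun _ _ H => ContinuousMap.HomotopicRel.comp_continuousMap H f)

/-- The map `K_n(R) → K_n(S)` induced by base change. -/
noncomputable def kMap (S : Type) [CommRing S] [Algebra R S] (n : ℕ) (Z : QObj R) :
    KGroup n Z → KGroup n ((qBC R S).obj Z) :=
  piMap (bqMap R S) (bqMap_pt S Z) (n + 1)

/-- The zero module. -/
def qZero (R : Type) [CommRing R] : QObj R := { carrier := PUnit }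

end Vale.Agent.P178
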