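import Vale.Agent.P178.QLemAux

/-!
P178: linear relations used to describe the morphisms of Quillen's category `Q P(R)`.
A morphism `M → N` is a diagram `M ↞ E ↣ N` up to isomorphism, that is a submodule `E ≤ N` with
projective quotient and a surjection `q : E → M`; it is encoded by the graph of `q` in `N × M`.
-/

namespace Vale.Agent.P178

open TensorProduct

variable {R : Type} [CommRing R] {M N P : Type} [AddCommGroup M] [Module R M] [AddCommGroup N]
  [Module R N] [AddCommGroup P] [Module R P]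

/-- `Γ ≤ N × M` is the graph of a linear surjection onto `M` defined on a submodule of `N` with
projective quotient. -/
structure IsQRel (Γ : Submodule R (N × M)) : Prop where
  graph : ∀ m : M, ((0 : N), m) ∈ Γ → m = 0
  surj : ∀ m : M, ∃ n : N, (n, m) ∈ Γ
  adm : Module.Projective R (N ⧸ Γ.map (LinearMap.fst R N M))

/-- The diagonal. -/
def relId (R : Type) [CommRing R] (M : Type) [AddCommGroup M] [Module R M] :
    Submodule R (M × M) where
  carrier := {x | x.1 = x.2}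
  add_mem' ha hb := congrArg₂ (· + ·) ha hb
  zero_mem' := rfl
  smul_mem' r _ ha := congrArg (r • ·) ha

/-- Composition of linear relations. -/
def relComp (Γ : Submodule R (N × M)) (Γ' : Submodule R (P × N)) : Submodule R (P × M) where
  carrier := {x | ∃ n : N, (x.1, n) ∈ Γ' ∧ (n, x.2) ∈ Γ}
  add_mem' := fun ⟨n, h, k⟩ ⟨n', h', k'⟩ => ⟨n + n', Γ'.add_mem h h', Γ.add_mem k k'⟩
  zero_mem' := ⟨0, Γ'.zero_mem, Γ.zero_mem⟩
  smul_mem' := fun r _ ⟨n, h, k⟩ => ⟨r • n, Γ'.smul_mem r h, Γ.smul_mem r k⟩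

/-- Base change of a linear relation. -/
def relBC (S : Type) [CommRing S] [Algebra R S] (Γ : Submodule R (N × M)) :
    Submodule S ((S ⊗[R] N) × (S ⊗[R] M)) :=
  Submodule.span S ((fun x : N × M => ((1 : S) ⊗ₜ[R] x.1, (1 : S) ⊗ₜ[R] x.2)) '' Γ)

theorem isQRel_id : IsQRel (relId R M) := by
  refine ⟨fun m h => Eq.symm h, fun m => ⟨m, rfl⟩,
    qaux_proj (0 : M →ₗ[R] PUnit) (fun _ => ⟨0, rfl⟩) fun x => ⟨fun _ => rfl, fun _ => ?_⟩⟩
  exact ⟨(x, x), rfl, rfl⟩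

theorem IsQRel.comp [Module.Projective R N] {Γ : Submodule R (N × M)} {Γ' : Submodule R (P × N)}
    (h : IsQRel Γ) (h' : IsQRel Γ') : IsQRel (relComp Γ Γ') := by
  refine ⟨fun m ⟨n, a, b⟩ => ?_, fun m => ?_, qaux_adm h.adm h'.graph h'.surj h'.adm fun x => ?_⟩
  · obtain rfl := h'.graph n a
    exact h.graph m b
  · obtain ⟨n, a⟩ := h.surj m
    obtain ⟨x, b⟩ := h'.surj n
    exact ⟨x, n, b, a⟩
  · exact ⟨fun ⟨y, a, e⟩ => e ▸ ⟨y.2, a⟩, fun ⟨m, a⟩ => ⟨(x, m), a, rfl⟩⟩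

theorem relComp_id_left (Γ : Submodule R (N × M)) : relComp (relId R M) Γ = Γ := by
  ext x
  refine ⟨fun ⟨n, a, b⟩ => ?_, fun a => ⟨x.2, a, rfl⟩⟩
  obtain rfl : n = x.2 := b
  exact a

theorem relComp_id_right (Γ : Submodule R (N × M)) : relComp Γ (relId R N) = Γ := by
  ext x
  refine ⟨fun ⟨n, a, b⟩ => ?_, fun a => ⟨x.1, rfl, a⟩⟩
  obtain rfl : x.1 = n := a
  exact b

theorem relComp_assoc {T : Type} [AddCommGroup T] [Module R T] (Γ : Submodule R (N × M))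
    (Γ' : Submodule R (P × N)) (Γ'' : Submodule R (T × P)) :
    relComp (relComp Γ Γ') Γ'' = relComp Γ (relComp Γ' Γ'') := by
  ext x
  exact ⟨fun ⟨p, a, n, b, c⟩ => ⟨n, ⟨p, a, b⟩, c⟩, fun ⟨n, ⟨p, a, b⟩, c⟩ => ⟨p, a, n, b, c⟩⟩

variable (S : Type) [CommRing S] [Algebra R S]

theorem IsQRel.bc {Γ : Submodule R (N × M)} (h : IsQRel Γ) : IsQRel (relBC S Γ) := by
  obtain ⟨p, Q, h1, h2⟩ := qaux_nf h.graph h.adm
  refine ⟨fun m hm => ?_, fun m => ?_, qaux_bc_adm S h.graph h.adm⟩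
  · exact ((qaux_bc S h1 h2 _).1 hm).2.symm.trans (map_zero _)
  · induction m with
    | zero => exact ⟨0, Submodule.zero_mem _⟩
    | add a b ha hb => exact ha.elim fun x c => hb.elim fun y d => ⟨_, Submodule.add_mem _ c d⟩
    | tmul s m =>
      obtain ⟨n, a⟩ := h.surj m
      refine ⟨s ⊗ₜ n, (qaux_bc S h1 h2 _).2 ?_⟩
      simp [h2 _ a]

theorem relBC_id : relBC S (relId R M) = relId S (S ⊗[R] M) := by
  ext x
  refine (qaux_bc S (p := .id) (Q := .id) (fun _ => rfl) (fun _ h => ⟨rfl, h⟩) x).trans ?_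
  simp only [LinearMap.baseChange_id, LinearMap.id_apply, true_and]
  rfl

theorem relBC_comp [Module.Projective R N] {Γ : Submodule R (N × M)} {Γ' : Submodule R (P × N)}
    (h : IsQRel Γ) (h' : IsQRel Γ') :
    relBC S (relComp Γ Γ') = relComp (relBC S Γ) (relBC S Γ') := by
  refine le_antisymm (Submodule.span_le.2 ?_) ?_
  · rintro _ ⟨x, ⟨n, a, b⟩, rfl⟩
    exact ⟨1 ⊗ₜ n, Submodule.subset_span ⟨_, a, rfl⟩, Submodule.subset_span ⟨_, b, rfl⟩⟩
  · rintro x ⟨y, a, b⟩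
    obtain ⟨p, Q, h1, h2⟩ := qaux_nf h.graph h.adm
    obtain ⟨p', Q', h1', h2'⟩ := qaux_nf h'.graph h'.adm
    obtain ⟨t, ht⟩ := qaux_sec h'.surj
    obtain ⟨a1, a2⟩ := (qaux_bc S h1' h2' _).1 a
    obtain ⟨b1, b2⟩ := (qaux_bc S h1 h2 _).1 b
    have c := qaux_mem S (Γ := relComp Γ Γ') (p := p' - t ∘ₗ Q' + t ∘ₗ p ∘ₗ Q') (Q := Q ∘ₗ Q')
      (fun z => ⟨p (Q' z), by
        simpa using Γ'.add_mem (Γ'.sub_mem (h1' z) (ht (Q' z))) (ht (p (Q' z))), h1 _⟩) x.1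
    simp only [LinearMap.baseChange_add, LinearMap.baseChange_sub, LinearMap.baseChange_comp,
      LinearMap.add_apply, LinearMap.sub_apply, LinearMap.comp_apply] at c a1 a2 b1 b2
    rwa [a1, a2, b1, b2, sub_add_cancel] at c

end Vale.Agent.P178
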