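import Mathlib

/-!
P178: normal forms of linear relations.
-/

namespace Vale.Agent.P178

open TensorProduct

variable {R : Type} [CommRing R] {M N P : Type} [AddCommGroup M] [Module R M] [AddCommGroup N]
  [Module R N] [AddCommGroup P] [Module R P]

/-- A graph over a submodule with projective quotient is cut out by two linear maps. -/
theorem qaux_nf {Γ : Submodule R (N × M)} (hg : ∀ m : M, ((0 : N), m) ∈ Γ → m = 0)
    (ha : Module.Projective R (N ⧸ Γ.map (LinearMap.fst R N M))) :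
    ∃ (p : N →ₗ[R] N) (Q : N →ₗ[R] M), (∀ n, (p n, Q n) ∈ Γ) ∧
      ∀ x ∈ Γ, p x.1 = x.1 ∧ Q x.1 = x.2 := by
  obtain ⟨s, hs⟩ := (Γ.map (LinearMap.fst R N M)).mkQ.exists_rightInverse_of_surjective
    (Submodule.range_mkQ _)
  let j : Γ →ₗ[R] N := LinearMap.fst R N M ∘ₗ Γ.subtype
  have hj : Function.Injective j := by
    rw [injective_iff_map_eq_zero]
    rintro ⟨⟨n, m⟩, h⟩ e
    obtain rfl : n = 0 := e
    obtain rfl := hg m h
    rfl
  let p : N →ₗ[R] N := LinearMap.id - s ∘ₗ (Γ.map (LinearMap.fst R N M)).mkQ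
  have hp : ∀ n, p n ∈ LinearMap.range j := by
    intro n
    rw [LinearMap.range_comp, Submodule.range_subtype, ← Submodule.Quotient.mk_eq_zero]
    have := LinearMap.congr_fun hs (Submodule.Quotient.mk n)
    exact (map_sub (Γ.map (LinearMap.fst R N M)).mkQ n _).trans (sub_eq_zero.2 this.symm)
  let G : N →ₗ[R] Γ := (LinearEquiv.ofInjective j hj).symm.toLinearMap ∘ₗ p.codRestrict _ hp
  have hG : ∀ n, j (G n) = p n := fun n =>
    congrArg Subtype.val ((LinearEquiv.ofInjective j hj).apply_symm_apply (p.codRestrict _ hp n))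
  refine ⟨j ∘ₗ G, LinearMap.snd R N M ∘ₗ Γ.subtype ∘ₗ G, fun n => (G n).2, fun x hx => ?_⟩
  have h1 : p x.1 = x.1 := by
    have : (Γ.map (LinearMap.fst R N M)).mkQ x.1 = 0 :=
      (Submodule.Quotient.mk_eq_zero _).2 ⟨x, hx, rfl⟩
    simp [p, this]
  have h2 : G x.1 = ⟨x, hx⟩ := hj ((hG _).trans h1)
  exact ⟨congrArg j h2, congrArg (fun y : Γ => y.1.2) h2⟩

theorem qaux_sec [Module.Projective R M] {Γ : Submodule R (N × M)}
    (hs : ∀ m : M, ∃ n : N, (n, m) ∈ Γ) : ∃ t : M →ₗ[R] N, ∀ m, (t m, m) ∈ Γ := by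
  obtain ⟨T, hT⟩ := (LinearMap.snd R N M ∘ₗ Γ.subtype).exists_rightInverse_of_surjective
    (LinearMap.range_eq_top.2 fun m => (hs m).elim fun n h => ⟨⟨(n, m), h⟩, rfl⟩)
  refine ⟨LinearMap.fst R N M ∘ₗ Γ.subtype ∘ₗ T, fun m => ?_⟩
  have h1 : (T m).1.2 = m := LinearMap.congr_fun hT m
  have h2 : ((T m).1.1, (T m).1.2) ∈ Γ := (T m).2
  rwa [h1] at h2

theorem qaux_proj [Module.Projective R M] (f : N →ₗ[R] M) (hf : Function.Surjective f)
    {E : Submodule R N} (h : ∀ x, x ∈ E ↔ f x = 0) : Module.Projective R (N ⧸ E) :=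
  Module.Projective.of_equiv ((Submodule.quotEquivOfEq E (LinearMap.ker f)
    (Submodule.ext h)).trans (f.quotKerEquivOfSurjective hf)).symm

/-- The domain of a composition has projective quotient. -/
theorem qaux_adm [Module.Projective R N] {Γ : Submodule R (N × M)} {Γ' : Submodule R (P × N)}
    (ha : Module.Projective R (N ⧸ Γ.map (LinearMap.fst R N M)))
    (hg' : ∀ n : N, ((0 : P), n) ∈ Γ' → n = 0) (hs' : ∀ n : N, ∃ x : P, (x, n) ∈ Γ')
    (ha' : Module.Projective R (P ⧸ Γ'.map (LinearMap.fst R P N))) {E : Submodule R P}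
    (hE : ∀ x, x ∈ E ↔ ∃ m n, (x, n) ∈ Γ' ∧ (n, m) ∈ Γ) : Module.Projective R (P ⧸ E) := by
  obtain ⟨p, Q, h1, h2⟩ := qaux_nf hg' ha'
  refine qaux_proj ((Γ'.map (LinearMap.fst R P N)).mkQ.prod
    ((Γ.map (LinearMap.fst R N M)).mkQ ∘ₗ Q)) ?_ fun x => ?_
  · rintro ⟨a, b⟩
    obtain ⟨x, rfl⟩ := Submodule.mkQ_surjective _ a
    obtain ⟨n, rfl⟩ := Submodule.mkQ_surjective _ b
    obtain ⟨y, hy⟩ := hs' n
    have a1 : (Γ'.map (LinearMap.fst R P N)).mkQ (p x) = 0 :=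
      (Submodule.Quotient.mk_eq_zero _).2 ⟨_, h1 x, rfl⟩
    have a2 : (Γ'.map (LinearMap.fst R P N)).mkQ y = 0 :=
      (Submodule.Quotient.mk_eq_zero _).2 ⟨_, hy, rfl⟩
    have a3 : Q (p x) = Q x := (h2 _ (h1 x)).2
    have a4 : Q y = n := (h2 _ hy).2
    refine ⟨x - p x + y, Prod.ext ?_ ?_⟩
    · show (Γ'.map (LinearMap.fst R P N)).mkQ (x - p x + y) = _
      rw [map_add, map_sub, a1, a2, sub_zero, add_zero]
    · show (Γ.map (LinearMap.fst R N M)).mkQ (Q (x - p x + y)) = _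
      rw [map_add, map_sub, a3, a4, sub_self, zero_add]
  · rw [hE, Prod.ext_iff]
    refine Iff.trans ?_ (and_congr (Submodule.Quotient.mk_eq_zero _)
      (Submodule.Quotient.mk_eq_zero _)).symm
    constructor
    · rintro ⟨m, n, a1, a2⟩
      exact ⟨⟨_, a1, rfl⟩, ⟨_, a2, (h2 _ a1).2.symm⟩⟩
    · rintro ⟨⟨⟨x, n⟩, a1, rfl⟩, ⟨n', m⟩, a2, e⟩
      obtain rfl : n' = n := e.trans (h2 _ a1).2
      exact ⟨m, n', a1, a2⟩

variable (S : Type) [CommRing S] [Algebra R S]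

/-- Images of a linear map into a relation stay in the base change. -/
theorem qaux_mem {Γ : Submodule R (N × M)} {p : P →ₗ[R] N} {Q : P →ₗ[R] M}
    (h : ∀ n, (p n, Q n) ∈ Γ) (y : S ⊗[R] P) : (p.baseChange S y, Q.baseChange S y) ∈
      Submodule.span S ((fun x : N × M => ((1 : S) ⊗ₜ[R] x.1, (1 : S) ⊗ₜ[R] x.2)) '' Γ) := by
  induction y with
  | zero => simp only [map_zero]; exact Submodule.zero_mem _
  | add a b ha hb => simp only [map_add]; exact Submodule.add_mem _ ha hb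
  | tmul s n =>
    have := Submodule.smul_mem _ s (Submodule.subset_span (R := S)
      (Set.mem_image_of_mem (fun x : N × M => ((1 : S) ⊗ₜ[R] x.1, (1 : S) ⊗ₜ[R] x.2)) (h n)))
    simpa [TensorProduct.smul_tmul'] using this

theorem qaux_bc {Γ : Submodule R (N × M)} {p : N →ₗ[R] N} {Q : N →ₗ[R] M}
    (h1 : ∀ n, (p n, Q n) ∈ Γ) (h2 : ∀ x ∈ Γ, p x.1 = x.1 ∧ Q x.1 = x.2)
    (x : (S ⊗[R] N) × (S ⊗[R] M)) :
    x ∈ Submodule.span S ((fun x : N × M => ((1 : S) ⊗ₜ[R] x.1, (1 : S) ⊗ₜ[R] x.2)) '' Γ) ↔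
      p.baseChange S x.1 = x.1 ∧ Q.baseChange S x.1 = x.2 := by
  refine ⟨fun h => ?_, fun h => ?_⟩
  · induction h using Submodule.span_induction with
    | mem y hy =>
      obtain ⟨z, hz, rfl⟩ := hy
      simp [h2 z hz]
    | zero => simp
    | add a b _ _ ha hb => simp [ha, hb]
    | smul s a _ ha => simp [ha]
  · have := qaux_mem S h1 x.1
    rwa [h.1, h.2] at this

theorem qaux_bc_adm {Γ : Submodule R (N × M)} (hg : ∀ m : M, ((0 : N), m) ∈ Γ → m = 0)
    (ha : Module.Projective R (N ⧸ Γ.map (LinearMap.fst R N M))) :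
    Module.Projective S ((S ⊗[R] N) ⧸ (Submodule.span S ((fun x : N × M =>
      ((1 : S) ⊗ₜ[R] x.1, (1 : S) ⊗ₜ[R] x.2)) '' Γ)).map (LinearMap.fst S _ _)) := by
  obtain ⟨p, Q, h1, h2⟩ := qaux_nf hg ha
  refine qaux_proj ((Γ.map (LinearMap.fst R N M)).mkQ.baseChange S)
    (LinearMap.lTensor_surjective S (Submodule.mkQ_surjective _)) fun x => ⟨?_, fun h => ?_⟩
  · rintro ⟨y, hy, rfl⟩
    have e : (Γ.map (LinearMap.fst R N M)).mkQ ∘ₗ p = 0 := LinearMap.ext fun n =>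
      (Submodule.Quotient.mk_eq_zero _).2 ⟨_, h1 n, rfl⟩
    show LinearMap.baseChange S _ y.1 = 0
    rw [← ((qaux_bc S h1 h2 y).1 hy).1, ← LinearMap.comp_apply, ← LinearMap.baseChange_comp, e,
      LinearMap.baseChange_zero, LinearMap.zero_apply]
  · have hk : Γ.map (LinearMap.fst R N M) ≤ LinearMap.ker (LinearMap.id - p) := by
      rintro _ ⟨y, hy, rfl⟩
      exact sub_eq_zero.2 (h2 y hy).1.symm
    have e := congrArg (fun f => LinearMap.baseChange S f x) (Submodule.liftQ_mkQ _ _ hk)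
    simp only [LinearMap.baseChange_comp, LinearMap.comp_apply, h, map_zero,
      LinearMap.baseChange_sub, LinearMap.baseChange_id, LinearMap.sub_apply,
      LinearMap.id_apply] at e
    exact ⟨_, qaux_mem S h1 x, (sub_eq_zero.1 e.symm).symm⟩

end Vale.Agent.P178
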