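import Vale.Agent.P178.QCoc
import Vale.Agent.P178.Eval
import Vale.Agent.P178.Cube

/-!
P178: `K₃(A) → K₃(F)` is not injective for Quillen's `K₃ = π₄ (B Q P(-))`.
-/

namespace Vale.Agent.P178

open CategoryTheory Opposite Simplicial TensorProduct

theorem pairing_congr {Y : Type*} {M : Type*} [AddCommGroup M] (z : Y →₀ ℤ) {o o' : Y → M}
    (h : ∀ y, o y = o' y) : pairing z o = pairing z o' := by
  rw [show o = o' from funext h]

theorem pairing_map {Y : Type*} {M M' : Type*} [AddCommGroup M] [AddCommGroup M'] (z : Y →₀ ℤ)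
    (o : Y → M) (i : M →+ M') : pairing z (fun y => i (o y)) = i (pairing z o) := by
  simp [pairing, Finsupp.sum, map_sum]

theorem pairing_sub {Y : Type*} {M : Type*} [AddCommGroup M] (z : Y →₀ ℤ) (o o' : Y → M) :
    pairing z (fun y => o y - o' y) = pairing z o - pairing z o' := by
  simp [pairing, Finsupp.sum, smul_sub, Finset.sum_sub_distrib]

theorem SSS.cob_sub (S : SSS) {M : Type*} [AddCommGroup M] {n : ℕ} (o o' : S.Y n → M)
    (y : S.Y (n + 1)) : S.cob (fun x => o x - o' x) y = S.cob o y - S.cob o' y := by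
  simp [SSS.cob, smul_sub, Finset.sum_sub_distrib]

theorem kMap_not_injective (d : RingData) :
    ¬ Function.Injective (kMap (FractionRing d.A) 3 (qZero d.A)) := by
  classical
  let F := FractionRing d.A
  let P : QObj d.A := { carrier := Fin 7 → d.A }
  let Z : QObj d.A := qZero d.A
  haveI : Subsingleton Z.carrier := inferInstanceAs (Subsingleton PUnit)
  let b : Module.Basis (Fin 7) d.A P.carrier := Pi.basisFun d.A (Fin 7)
  let ι : St (Fin 7) d.A →* St (Fin 7) F := stMap _ (algebraMap d.A F)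
  let ρ : St (Fin 7) d.A →* (P.carrier ≃ₗ[d.A] P.carrier) := stRep b
  let ρ' : Cyl ι →* (((qBC d.A F).obj P).carrier ≃ₗ[F] ((qBC d.A F).obj P).carrier) :=
    (stRep (b.baseChange F)).comp (Cyl.prHom ι)
  have hρ : ∀ g, (ρ' (Cyl.inl ι g)).toLinearMap = (ρ g).toLinearMap.baseChange F :=
    fun g => stRep_baseChange b g
  let e := barEmb (Cyl.inl ι) (Cyl.inl_injective ι)
  have cAB := commute_dA_dB d.u d.t
  have cAC := commute_dA_dC d.u d.z
  have cBC := commute_dB_dC d.t d.z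
  have hz := torus_isCycle cAB cAC cBC
  have hpt := bqMap_pt F Z
  have h1A : H1Zero.{_, 1} (St (Fin 7) d.A) := st_h1Zero (by norm_num)
  have h1F : H1Zero.{_, 1} (St (Fin 7) F) := st_h1Zero (by norm_num)
  have h2A : H2Zero.{_, 1} (St (Fin 7) d.A) := st_h2Zero (by norm_num)
  have h2F : H2Zero.{_, 1} (St (Fin 7) F) := st_h2Zero (by norm_num)
  obtain ⟨γ, hγ, ⟨W, hW0, hW⟩, hval⟩ := top_main.{1, 1, 0} e (bqMap d.A F) (bqPt Z)
    (fun _ y => chi _ (qcone ρ (coneA Z P) y)) (fun _ y => chi _ (qcone ρ (coneB Z P) y))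
    (fun _ y => chi _ (qcone ρ' (coneA ((qBC d.A F).obj Z) _) y))
    (fun _ y => chi _ (qcone ρ' (coneB ((qBC d.A F).obj Z) _) y))
    (isDCone_qcone ρ) (by rw [hpt]; exact isDCone_qcone ρ')
    (fun n y => by
      rw [← qBC_coneA]
      exact (congrArg (chi _) (qcone_bc ρ F (Cyl.inl ι) ρ' hρ _ y)).trans (chi_natural _ _))
    (fun n y => by
      rw [← qBC_coneB]
      exact (congrArg (chi _) (qcone_bc ρ F (Cyl.inl ι) ρ' hρ _ y)).trans (chi_natural _ _))
    (bar_h1 h1A) (bar_h2 h2A) (bar_h1 (Cyl.h1Zero ι h1A h1F)) (bar_h2_rel ι h1A h2F)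
    (torus (dA d.u) (dB d.t) (dC d.z)) hz
    (fun M _ o ho => by
      rw [pairing_torus]
      have := Cyl.tau_inl ι cAB cAC cBC (fun o' ho' => d.tau_frac o' ho') _ (isCoc3_bar o ho)
      simpa only [tau, e, barEmb_bar3] using this)
  obtain ⟨h, hh⟩ := exists_cube_comparison.{1}
  obtain ⟨hb, -, hnull⟩ := hh _ (bqPt Z) γ hγ
  have hγ' : Spherical (bqMap d.A F (bqPt Z)) ((bqMap d.A F).comp γ) := by
    intro i
    ext p
    exact congrArg (bqMap d.A F) (DFunLike.congr_fun (hγ i) p)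
  obtain ⟨-, hnull', -⟩ := hh _ _ _ hγ'
  have hF := hnull' ⟨W, hW0, hW⟩
  intro hinj
  let lp : GenLoop (Fin 4) (BQ d.A) (bqPt Z) := ⟨γ.comp h, hb⟩
  have key : (Quotient.mk _ lp : KGroup 3 Z) = Quotient.mk _ GenLoop.const := by
    apply hinj
    exact Quotient.sound hF
  obtain ⟨H, H0, H1, Hs⟩ := hnull (Quotient.exact key)
  obtain ⟨c₀, hc₀⟩ := exists_conn_basis (D := d.D) b
  obtain ⟨ct, hct, hev⟩ := exists_qcoc d.D P c₀
  obtain ⟨cn, η, hcn, hnorm⟩ := exists_normalized _ ct hct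
  have hcn' : ∀ y, (sssOf (nerve (QObj d.A))).cob (n := 4) cn y = 0 := by
    intro y
    have h1 := hct y
    have h2 := (sssOf (nerve (QObj d.A))).cob_cob (n := 3) η y
    rw [show cn = fun y => ct y - (sssOf (nerve (QObj d.A))).cob (n := 3) η y from funext hcn]
    exact (SSS.cob_sub _ ct _ y).trans (by rw [h1, h2, sub_zero])
  obtain ⟨M', _, i, c', hi, hc', hext⟩ := exists_singular_extension.{1, 0} _ cn hcn' hnorm
  have hconst : c' (ContinuousMap.const _ (bqPt Z)) = 0 := by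
    obtain ⟨y, hy⟩ := exists_chi_const Z
    rw [← hy, hext, hnorm, map_zero]
  have hγ0 : c' γ = 0 := by
    obtain ⟨Pr, hP0, hP⟩ := prism4 c' hc'
    have := hP H γ (ContinuousMap.const _ (bqPt Z)) H0 H1
    rw [hconst, zero_sub, neg_eq_iff_eq_neg] at this
    rw [this, neg_eq_zero]
    refine Finset.sum_eq_zero fun j _ => ?_
    rw [show H.comp ((face j).prodMap (ContinuousMap.id _)) = ContinuousMap.const _ (bqPt Z) from
      ContinuousMap.ext fun p => Hs j p.1 p.2, hP0, smul_zero]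
  rw [hval M' c' hc' hconst] at hγ0
  simp only [hext, ← map_sub] at hγ0
  rw [pairing_map, ← map_zero i] at hγ0
  have h0 := hi hγ0
  have h1 := pairing_cone_cob ρ (Z := Z) hz η
  have h2 : pairing (torus (dA d.u) (dB d.t) (dC d.z))
      (fun y => ct (qcone ρ (coneB Z P) y) - ct (qcone ρ (coneA Z P) y)) = 0 := by
    rw [← add_zero (0 : d.B)]
    nth_rewrite 1 [← h0]
    rw [← h1, pairing_sub, pairing_sub, pairing_sub]
    simp only [hcn]
    rw [pairing_sub, pairing_sub]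
    abel
  rw [pairing_torus] at h2
  refine d.tau_gc_ne b c₀ hc₀ (Function.Embedding.refl _) (ρ (dA d.u)) (ρ (dB d.t)) (ρ (dC d.z))
    (stRep_dA b d.u) (stRep_dB b d.t) (stRep_dC b d.z) (fun j hj => (hj ⟨j, rfl⟩).elim)
    (fun j hj => (hj ⟨j, rfl⟩).elim) (fun j hj => (hj ⟨j, rfl⟩).elim) ?_
  simpa only [tau, (hev _ ρ Z _ _ _).1, (hev _ ρ Z _ _ _).2, sub_zero] using h2

end Vale.Agent.P178
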