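import Mathlib

/-!
P178: the affine ring `C = ℤ[y,z][x]/(ζ² + ζ + 1)`, `ζ = (1+x)³ + y z`, and the ring `B`.
-/

namespace Vale.Agent.P178

open Polynomial

/-- `ℤ[y,z]` -/
abbrev R2 : Type := MvPolynomial (Fin 2) ℤ

/-- the defining polynomial -/
noncomputable def fpol : R2[X] :=
  ((1 + X) ^ 3 + C (MvPolynomial.X 0 * MvPolynomial.X 1)) ^ 2 +
    ((1 + X) ^ 3 + C (MvPolynomial.X 0 * MvPolynomial.X 1)) + 1

/-- evaluation at zero -/
noncomputable def ev0 : R2 →+* ℤ := MvPolynomial.eval fun _ => 0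

/-- reduction to the residue field -/
noncomputable def ev3 : R2 →+* ZMod 3 := (Int.castRingHom _).comp ev0

theorem eval₂_fpol {T : Type*} [CommRing T] (i : R2 →+* T) (x : T) :
    fpol.eval₂ i x = ((1 + x) ^ 3 + i (MvPolynomial.X 0) * i (MvPolynomial.X 1)) ^ 2 +
      ((1 + x) ^ 3 + i (MvPolynomial.X 0) * i (MvPolynomial.X 1)) + 1 := by
  simp [fpol, eval₂_pow]

theorem fpol_monic : fpol.Monic := by
  unfold fpol
  monicity!

theorem fpol_natDegree : fpol.natDegree = 6 := by
  unfold fpol
  compute_degree!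

theorem fpol_map : fpol.map ev3 = X ^ 6 := by
  have h3 : (3 : (ZMod 3)[X]) = 0 := by
    rw [show (3 : (ZMod 3)[X]) = C 3 from rfl, show (3 : ZMod 3) = 0 from rfl, map_zero]
  have h0 : ev3 (MvPolynomial.X 0 * MvPolynomial.X 1) = 0 := by simp [ev3, ev0]
  simp only [fpol, Polynomial.map_add, Polynomial.map_pow, Polynomial.map_one, map_X, map_C,
    h0, map_zero, add_zero]
  linear_combination (1 + 3 * X + 6 * X ^ 2 + 7 * X ^ 3 + 5 * X ^ 4 + 2 * X ^ 5) * h3

instance : (RingHom.ker ev3).IsPrime := RingHom.ker_isPrime _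

theorem fpol_prime : Prime fpol := by
  refine Irreducible.prime (irreducible_of_eisenstein_criterion (P := RingHom.ker ev3)
    inferInstance ?_ ?_ ?_ ?_ fpol_monic.isPrimitive)
  · rw [fpol_monic.leadingCoeff]; simp
  · intro n hn
    rw [degree_eq_natDegree fpol_monic.ne_zero, fpol_natDegree] at hn
    have hn' : n < 6 := by exact_mod_cast hn
    rw [RingHom.mem_ker, ← coeff_map, fpol_map, coeff_X_pow, if_neg hn'.ne]
  · rw [degree_eq_natDegree fpol_monic.ne_zero, fpol_natDegree]; norm_num
  · intro h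
    have h1 : ev0 (fpol.coeff 0) = 3 := by
      rw [← eval₂_at_zero, eval₂_fpol]
      simp [ev0]
    have h2 : (RingHom.ker ev3).map ev0 ≤ Ideal.span {3} := by
      rw [Ideal.map_le_iff_le_comap]
      intro r hr
      rw [Ideal.mem_comap, Ideal.mem_span_singleton]
      exact (ZMod.intCast_zmod_eq_zero_iff_dvd (ev0 r) 3).1 hr
    have h3 := Ideal.mem_map_of_mem ev0 h
    rw [Ideal.map_pow, h1] at h3
    have h4 := Ideal.pow_right_mono h2 2 h3
    rw [Ideal.span_singleton_pow, Ideal.mem_span_singleton] at h4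
    norm_num at h4

theorem three_le_height : (3 : ℕ∞) ≤ (RingHom.ker ev3).height := by
  let e1 : R2 →+* ℤ[X] := MvPolynomial.eval₂Hom C ![0, X]
  have h10 : ev0 = (evalRingHom 0).comp e1 := by
    ext i
    · simp
    · fin_cases i <;> simp [ev0, e1]
  haveI : (RingHom.ker e1).IsPrime := RingHom.ker_isPrime _
  haveI : (RingHom.ker ev0).IsPrime := RingHom.ker_isPrime _
  have l1 : (⊥ : Ideal R2) < RingHom.ker e1 := by
    refine bot_lt_iff_ne_bot.2 fun h => MvPolynomial.X_ne_zero (R := ℤ) (0 : Fin 2) ?_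
    rw [← Ideal.mem_bot, ← h]
    simp [e1]
  have l2 : RingHom.ker e1 < RingHom.ker ev0 := by
    refine lt_of_le_of_ne (fun r hr => ?_) fun h => ?_
    · rw [RingHom.mem_ker] at hr ⊢
      rw [h10, RingHom.comp_apply, hr, map_zero]
    · have : MvPolynomial.X 1 ∈ RingHom.ker ev0 := by simp [ev0]
      rw [← h] at this
      simp [e1] at this
  have l3 : RingHom.ker ev0 < RingHom.ker ev3 := by
    refine lt_of_le_of_ne (fun r hr => ?_) fun h => ?_
    · rw [RingHom.mem_ker] at hr ⊢
      rw [ev3, RingHom.comp_apply, hr, map_zero]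
    · have : (3 : R2) ∈ RingHom.ker ev3 := by
        rw [RingHom.mem_ker, map_ofNat]; rfl
      rw [← h, RingHom.mem_ker, map_ofNat] at this
      norm_num at this
  have k1 := Ideal.height_add_one_le_of_lt_of_isPrime l1
  have k2 := Ideal.height_add_one_le_of_lt_of_isPrime l2
  have k3 := Ideal.height_add_one_le_of_lt_of_isPrime l3
  calc (3 : ℕ∞) = 0 + 1 + 1 + 1 := by norm_num
    _ ≤ (⊥ : Ideal R2).height + 1 + 1 + 1 := by gcongr; exact zero_le
    _ ≤ _ := (add_le_add_left ((add_le_add_left k1 1).trans k2) 1).trans k3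

/-- The affine ring. -/
abbrev CR : Type := AdjoinRoot fpol

instance : IsDomain CR := AdjoinRoot.isDomain_of_prime fpol_prime

instance : Module.Free R2 CR := fpol_monic.free_adjoinRoot

/-- Ring homomorphisms out of `CR`. -/
noncomputable def liftC {T : Type*} [CommRing T] (x y z : T)
    (h : ((1 + x) ^ 3 + y * z) ^ 2 + ((1 + x) ^ 3 + y * z) + 1 = 0) : CR →+* T :=
  AdjoinRoot.lift (MvPolynomial.eval₂Hom (Int.castRingHom T) ![y, z]) x
    (by rw [eval₂_fpol]; simpa using h)

/-- generators -/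
noncomputable def cx : CR := AdjoinRoot.root fpol
noncomputable def cy : CR := AdjoinRoot.of fpol (MvPolynomial.X 0)
noncomputable def cz : CR := AdjoinRoot.of fpol (MvPolynomial.X 1)

section
variable {T : Type*} [CommRing T] (x y z : T)
    (h : ((1 + x) ^ 3 + y * z) ^ 2 + ((1 + x) ^ 3 + y * z) + 1 = 0)
@[simp] theorem liftC_x : liftC x y z h cx = x := AdjoinRoot.lift_root _
@[simp] theorem liftC_y : liftC x y z h cy = y := by simp [liftC, cy]
@[simp] theorem liftC_z : liftC x y z h cz = z := by simp [liftC, cz]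
end

theorem c_rel : ((1 + cx) ^ 3 + cy * cz) ^ 2 + ((1 + cx) ^ 3 + cy * cz) + 1 = 0 := by
  have := AdjoinRoot.eval₂_root fpol
  rwa [eval₂_fpol] at this

theorem c_hom_ext {T : Type*} [CommRing T] {f g : CR →+* T} (hx : f cx = g cx) (hy : f cy = g cy)
    (hz : f cz = g cz) : f = g := by
  refine AdjoinRoot.ringHom_ext ?_ hx
  refine MvPolynomial.ringHom_ext (fun r => by simp) fun i => ?_
  fin_cases i
  · exact hy
  · exact hz

theorem cy_ne : cy ≠ 0 := by
  intro h
  have hi : Function.Injective (AdjoinRoot.of fpol) :=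
    AdjoinRoot.of.injective_of_degree_ne_zero (by
      rw [degree_eq_natDegree fpol_monic.ne_zero, fpol_natDegree]; norm_num)
  exact MvPolynomial.X_ne_zero (R := ℤ) (0 : Fin 2) (hi (h.trans (map_zero _).symm))

/-- the residue map -/
noncomputable def resC : CR →+* ZMod 3 := liftC 0 0 0 (by decide)

/-- the maximal ideal -/
noncomputable def mC : Ideal CR := RingHom.ker resC

instance : mC.IsPrime := RingHom.ker_isPrime _

theorem exists_int (c : CR) : ∃ n : ℤ, c - n ∈ Ideal.span {cx, cy, cz} := by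
  let I : Ideal CR := Ideal.span {cx, cy, cz}
  have hs : ∀ q : CR ⧸ I, q ∈ (⊥ : Subalgebra ℤ (CR ⧸ I)) := by
    intro q
    obtain ⟨c, rfl⟩ := Ideal.Quotient.mk_surjective q
    induction c using AdjoinRoot.induction_on with
    | ih p =>
      induction p using Polynomial.induction_on' with
      | add p q hp hq => rw [map_add, map_add]; exact add_mem hp hq
      | monomial n r =>
        rw [← C_mul_X_pow_eq_monomial, map_mul, map_mul, map_pow, map_pow, AdjoinRoot.mk_X,
          AdjoinRoot.mk_C]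
        refine mul_mem ?_ (pow_mem ?_ _)
        · induction r using MvPolynomial.induction_on with
          | C a => simp
          | add p q hp hq => rw [map_add, map_add]; exact add_mem hp hq
          | mul_X p i hp =>
            rw [map_mul, map_mul]
            refine mul_mem hp ?_
            have : Ideal.Quotient.mk I (AdjoinRoot.of fpol (MvPolynomial.X i)) = 0 := by
              rw [Ideal.Quotient.eq_zero_iff_mem]
              fin_cases i
              · exact Ideal.subset_span (by simp [cy])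
              · exact Ideal.subset_span (by simp [cz])
            rw [this]; exact zero_mem _
        · have : Ideal.Quotient.mk I (AdjoinRoot.root fpol) = 0 := by
            rw [Ideal.Quotient.eq_zero_iff_mem]
            exact Ideal.subset_span (by simp [cx])
          rw [this]; exact zero_mem _
  obtain ⟨n, hn⟩ := Algebra.mem_bot.1 (hs (Ideal.Quotient.mk I c))
  refine ⟨n, Ideal.Quotient.eq.1 ?_⟩
  rw [← hn]; simp

theorem three_mem : (3 : CR) ∈ Ideal.span {cx, cy, cz} := by
  rw [← Ideal.Quotient.eq_zero_iff_mem]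
  have h := congrArg (Ideal.Quotient.mk (Ideal.span {cx, cy, cz})) c_rel
  have hx : Ideal.Quotient.mk (Ideal.span {cx, cy, cz}) cx = 0 :=
    Ideal.Quotient.eq_zero_iff_mem.2 (Ideal.subset_span (by simp))
  have hy : Ideal.Quotient.mk (Ideal.span {cx, cy, cz}) cy = 0 :=
    Ideal.Quotient.eq_zero_iff_mem.2 (Ideal.subset_span (by simp))
  simp only [map_add, map_pow, map_mul, map_one, map_zero, hx, hy] at h
  rw [map_ofNat]
  linear_combination h

theorem span_le_mC : Ideal.span {cx, cy, cz} ≤ mC := by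
  rw [Ideal.span_le]
  rintro _ (rfl | rfl | rfl) <;> simp [mC, resC]

theorem mC_eq : mC = Ideal.span {cx, cy, cz} := by
  refine le_antisymm (fun c hc => ?_) span_le_mC
  obtain ⟨n, hn⟩ := exists_int c
  have h1 : (n : CR) ∈ mC := by simpa using mC.sub_mem hc (span_le_mC hn)
  have h2 : (n : ZMod 3) = 0 := by simpa [mC] using h1
  obtain ⟨k, rfl⟩ := (ZMod.intCast_zmod_eq_zero_iff_dvd n 3).1 h2
  have := Ideal.add_mem _ hn (Ideal.mul_mem_right (k : CR) _ three_mem)
  simpa using this

theorem three_le_height_mC : (3 : ℕ∞) ≤ mC.height := by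
  haveI : mC.LiesOver (RingHom.ker ev3) := ⟨by
    have : ev3 = resC.comp (algebraMap R2 CR) := by
      refine MvPolynomial.ringHom_ext (fun r => by simp) fun i => ?_
      fin_cases i
      · simpa [ev3, ev0, resC, cy] using (liftC_y (0 : ZMod 3) 0 0 (by decide)).symm
      · simpa [ev3, ev0, resC, cz] using (liftC_z (0 : ZMod 3) 0 0 (by decide)).symm
    rw [this]; rfl⟩
  rw [Ideal.height_eq_height_add_of_liesOver_of_hasGoingDown (RingHom.ker ev3) mC]
  exact three_le_height.trans le_self_add

/-- The local ring. -/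
abbrev AR : Type := Localization.AtPrime mC

instance : IsRegularLocalRing AR := by
  apply IsRegularLocalRing.of_spanFinrank_maximalIdeal_le
  rw [IsLocalization.AtPrime.ringKrullDim_eq_height mC AR,
    ← Localization.AtPrime.map_eq_maximalIdeal]
  have hm : mC.map (algebraMap CR AR) = Ideal.span (algebraMap CR AR '' {cx, cy, cz}) :=
    (congrArg (Ideal.map (algebraMap CR AR)) mC_eq).trans (Ideal.map_span _ _)
  rw [hm]
  have h : (Ideal.span (algebraMap CR AR '' {cx, cy, cz})).spanFinrank ≤ 3 := by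
    refine (Submodule.spanFinrank_span_le_ncard_of_finite (Set.toFinite _)).trans ?_
    refine (Set.ncard_image_le (Set.toFinite _)).trans ?_
    refine (Set.ncard_insert_le _ _).trans ?_
    have := Set.ncard_insert_le cy ({cz} : Set CR)
    rw [Set.ncard_singleton] at this
    omega
  have h3 := three_le_height_mC
  calc _ ≤ ((3 : ℕ∞) : WithBot ℕ∞) := by exact_mod_cast h
    _ ≤ _ := by exact_mod_cast h3

/-- The ring `B`. -/
abbrev BR : Type := ℤ[X] ⧸ Ideal.span {(X ^ 6 + 3 : ℤ[X]), 3 * X}

/-- its generator -/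
noncomputable def bx : BR := Ideal.Quotient.mk _ X

theorem bx6 : bx ^ 6 + 3 = 0 := by
  have : Ideal.Quotient.mk (Ideal.span {(X ^ 6 + 3 : ℤ[X]), 3 * X}) (X ^ 6 + 3) = 0 :=
    Ideal.Quotient.eq_zero_iff_mem.2 (Ideal.subset_span (by simp))
  simpa [bx, map_ofNat] using this

theorem bx3 : 3 * bx = 0 := by
  have : Ideal.Quotient.mk (Ideal.span {(X ^ 6 + 3 : ℤ[X]), 3 * X}) (3 * X) = 0 :=
    Ideal.Quotient.eq_zero_iff_mem.2 (Ideal.subset_span (by simp))
  simpa [bx, map_ofNat] using this

theorem b_three_ne : (3 : BR) ≠ 0 := by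
  intro h
  rw [← map_ofNat (Ideal.Quotient.mk _), Ideal.Quotient.eq_zero_iff_mem,
    Ideal.mem_span_pair] at h
  obtain ⟨p, q, h⟩ := h
  have hp : Prime (C 3 : ℤ[X]) := Polynomial.prime_C_iff.2 Int.prime_three
  have h3 : (C 3 : ℤ[X]) = 3 := rfl
  have hd : (C 3 : ℤ[X]) ∣ p * X ^ 6 := ⟨1 - p - q * X, by rw [h3]; linear_combination h⟩
  rcases hp.dvd_or_dvd hd with ⟨p', rfl⟩ | hd
  · have h1 : p' * (X ^ 6 + 3) + q * X = 1 := by
      refine mul_left_cancel₀ hp.ne_zero ?_
      rw [h3] at h ⊢
      linear_combination h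
    have h2 := congrArg (eval 0) h1
    simp at h2
    omega
  · have := (C_dvd_iff_dvd_coeff _ _).1 hd 6
    simp at this

theorem b_nine : (9 : BR) = 0 := by linear_combination 3 * bx6 - bx ^ 5 * bx3

theorem b_rel : ((1 + bx) ^ 3 + 0 * 0) ^ 2 + ((1 + bx) ^ 3 + 0 * 0) + 1 = 0 := by
  linear_combination bx6 + (3 + 6 * bx + 7 * bx ^ 2 + 5 * bx ^ 3 + 2 * bx ^ 4) * bx3

/-- the map `C → B` -/
noncomputable def toB : CR →+* BR := liftC bx 0 0 b_rel

theorem toB_unit (c : CR) (hc : c ∉ mC) : IsUnit (toB c) := by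
  obtain ⟨n, hn⟩ := exists_int c
  have hnil : IsNilpotent (toB (c - n)) := by
    have : Ideal.span {cx, cy, cz} ≤ (nilradical BR).comap toB := by
      rw [Ideal.span_le]
      rintro _ (rfl | rfl | rfl)
      · refine mem_nilradical.2 ⟨7, ?_⟩
        rw [toB, liftC_x]
        linear_combination bx * bx6 - bx3
      · simp [toB]
      · simp [toB]
    exact this hn
  have h3 : ¬ (3 : ℤ) ∣ n := by
    rintro ⟨k, rfl⟩
    apply hc
    rw [mC_eq]
    simpa using Ideal.add_mem _ hn (Ideal.mul_mem_right (k : CR) _ three_mem)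
  have hu : IsUnit (n : BR) := by
    have hco : IsCoprime n 9 :=
      ((Int.prime_three.irreducible.coprime_iff_not_dvd.2 h3).symm.pow_right (n := 2))
    obtain ⟨a, b, hab⟩ := hco
    have := congrArg (Int.cast : ℤ → BR) hab
    push_cast at this
    rw [b_nine, mul_zero, add_zero] at this
    exact IsUnit.of_mul_eq_one_right _ this
  have := hnil.isUnit_add_right_of_commute hu (Commute.all _ _)
  simpa using this

end Vale.Agent.P178
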