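import Vale.Agent.P178.SimpA

/-!
P178: singular simplices, horn filling, homotopy extension, semi-simplicial sets.
-/

namespace Vale.Agent.P178

open scoped unitInterval

universe u v w

variable {X : Type u} [TopologicalSpace X]

/-- The second barycentric coordinate of an edge. -/
noncomputable def smbTau : C(Dl 1, I) :=
  ⟨fun q => ⟨q 1, stdSimplex.zero_le q 1, stdSimplex.le_one q 1⟩,
    Continuous.subtype_mk ((continuous_apply 1).comp continuous_subtype_val) _⟩

/-- The affine simplex of a prism with given vertices. -/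
noncomputable def smbAff {m n : ℕ} (v : Fin (m + 1) → Fin (n + 1) × Fin 2) : C(Dl m, Dl n × I) :=
  ⟨fun q => (stdSimplex.map (Prod.fst ∘ v) q, smbTau (stdSimplex.map (Prod.snd ∘ v) q)),
    (stdSimplex.continuous_map _).prodMk (smbTau.continuous.comp (stdSimplex.continuous_map _))⟩

theorem smbAff_face {m n : ℕ} (v : Fin (m + 2) → Fin (n + 1) × Fin 2) (j : Fin (m + 2)) :
    (smbAff v).comp (face j) = smbAff (v ∘ j.succAbove) := by
  ext1 q
  exact Prod.ext (stdSimplex.map_comp_apply _ _ q)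
    (congrArg smbTau (stdSimplex.map_comp_apply _ _ q))

theorem smbAff_prod {m n : ℕ} (v : Fin (m + 1) → Fin (n + 1) × Fin 2) (i : Fin (n + 2)) :
    ((face i).prodMap (ContinuousMap.id I)).comp (smbAff v)
      = smbAff (Prod.map i.succAbove id ∘ v) := by
  ext1 q
  exact Prod.ext (stdSimplex.map_comp_apply _ _ q) rfl

theorem smbAff_bot {n : ℕ} (q : Dl n) : smbAff (fun k : Fin (n + 1) => (k, 0)) q = (q, 0) := by
  refine Prod.ext (stdSimplex.map_id_apply q) (Subtype.ext ?_)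
  change stdSimplex.map (Prod.snd ∘ fun k : Fin (n + 1) => (k, (0 : Fin 2))) q 1 = 0
  simp [FunOnFinite.linearMap_apply_apply]

theorem smbAff_top {n : ℕ} (q : Dl n) : smbAff (fun k : Fin (n + 1) => (k, 1)) q = (q, 1) := by
  refine Prod.ext (stdSimplex.map_id_apply q) (Subtype.ext ?_)
  change stdSimplex.map (Prod.snd ∘ fun k : Fin (n + 1) => (k, (1 : Fin 2))) q 1 = 1
  simp [FunOnFinite.linearMap_apply_apply]

/-- The value of a cochain on an affine simplex of the prism. -/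
noncomputable def smbE {M : Type v} {n : ℕ} (c : C(Dl 4, X) → M) (H : C(Dl n × I, X))
    (a0 a1 a2 a3 a4 : Fin (n + 1) × Fin 2) : M :=
  c (H.comp (smbAff ![a0, a1, a2, a3, a4]))

/-- The prism operator. -/
noncomputable def smbP {M : Type v} [AddCommGroup M] (c : C(Dl 4, X) → M) (H : C(Dl 3 × I, X)) :
    M :=
  smbE c H (0, 0) (0, 1) (1, 1) (2, 1) (3, 1) - smbE c H (0, 0) (1, 0) (1, 1) (2, 1) (3, 1)
    + smbE c H (0, 0) (1, 0) (2, 0) (2, 1) (3, 1) - smbE c H (0, 0) (1, 0) (2, 0) (3, 0) (3, 1)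

theorem smbE_coc {M : Type v} [AddCommGroup M] {n : ℕ} {c : C(Dl 4, X) → M} (hc : IsSingCoc c)
    (H : C(Dl n × I, X)) (a0 a1 a2 a3 a4 a5 : Fin (n + 1) × Fin 2) :
    smbE c H a1 a2 a3 a4 a5 - smbE c H a0 a2 a3 a4 a5 + smbE c H a0 a1 a3 a4 a5
      - smbE c H a0 a1 a2 a4 a5 + smbE c H a0 a1 a2 a3 a5 - smbE c H a0 a1 a2 a3 a4 = 0 := by
  have h := hc (H.comp (smbAff ![a0, a1, a2, a3, a4, a5]))
  have e : ∀ (j : Fin 6) (w : Fin 5 → Fin (n + 1) × Fin 2),
      ![a0, a1, a2, a3, a4, a5] ∘ j.succAbove = w →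
      c (dS j (H.comp (smbAff ![a0, a1, a2, a3, a4, a5]))) = c (H.comp (smbAff w)) := by
    intro j w hw
    rw [dS, ContinuousMap.comp_assoc, smbAff_face, hw]
  rw [Fin.sum_univ_six, e 0 ![a1, a2, a3, a4, a5] (by funext i; fin_cases i <;> rfl),
    e 1 ![a0, a2, a3, a4, a5] (by funext i; fin_cases i <;> rfl),
    e 2 ![a0, a1, a3, a4, a5] (by funext i; fin_cases i <;> rfl),
    e 3 ![a0, a1, a2, a4, a5] (by funext i; fin_cases i <;> rfl),
    e 4 ![a0, a1, a2, a3, a5] (by funext i; fin_cases i <;> rfl),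
    e 5 ![a0, a1, a2, a3, a4] (by funext i; fin_cases i <;> rfl)] at h
  unfold smbE
  rw [← h]
  have s0 : (-1 : ℤ) ^ ((0 : Fin 6) : ℕ) = 1 := by decide
  have s1 : (-1 : ℤ) ^ ((1 : Fin 6) : ℕ) = -1 := by decide
  have s2 : (-1 : ℤ) ^ ((2 : Fin 6) : ℕ) = 1 := by decide
  have s3 : (-1 : ℤ) ^ ((3 : Fin 6) : ℕ) = -1 := by decide
  have s4 : (-1 : ℤ) ^ ((4 : Fin 6) : ℕ) = 1 := by decide
  have s5 : (-1 : ℤ) ^ ((5 : Fin 6) : ℕ) = -1 := by decide
  rw [s0, s1, s2, s3, s4, s5]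
  abel

theorem smbP_face {M : Type v} [AddCommGroup M] (c : C(Dl 4, X) → M) (H : C(Dl 4 × I, X))
    (i a0 a1 a2 a3 : Fin 5) (h : i.succAbove = ![a0, a1, a2, a3]) :
    smbP c (H.comp ((face i).prodMap (ContinuousMap.id I))) =
      smbE c H (a0, 0) (a0, 1) (a1, 1) (a2, 1) (a3, 1)
        - smbE c H (a0, 0) (a1, 0) (a1, 1) (a2, 1) (a3, 1)
        + smbE c H (a0, 0) (a1, 0) (a2, 0) (a2, 1) (a3, 1)
        - smbE c H (a0, 0) (a1, 0) (a2, 0) (a3, 0) (a3, 1) := by
  have e : ∀ b0 b1 b2 b3 b4 : Fin 4 × Fin 2,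
      smbE c (H.comp ((face i).prodMap (ContinuousMap.id I))) b0 b1 b2 b3 b4 =
        smbE c H (Prod.map i.succAbove id b0) (Prod.map i.succAbove id b1)
          (Prod.map i.succAbove id b2) (Prod.map i.succAbove id b3)
          (Prod.map i.succAbove id b4) := by
    intro b0 b1 b2 b3 b4
    unfold smbE
    rw [ContinuousMap.comp_assoc, smbAff_prod]
    congr 3
    funext k
    fin_cases k <;> rfl
  rw [smbP, e, e, e, e, h]
  rfl

/-- Stokes formula for the prism over a 4-simplex. -/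
theorem prism4 {M : Type v} [AddCommGroup M] (c : C(Dl 4, X) → M) (hc : IsSingCoc c) :
    ∃ P : C(Dl 3 × I, X) → M, (∀ x, P (ContinuousMap.const _ x) = 0) ∧
      ∀ (H : C(Dl 4 × I, X)) (f g : C(Dl 4, X)), (∀ p, H (p, 0) = f p) → (∀ p, H (p, 1) = g p) →
        c g - c f = ∑ i : Fin 5, (-1 : ℤ) ^ (i : ℕ) •
          P (H.comp ((face i).prodMap (ContinuousMap.id I))) := by
  refine ⟨smbP c, fun x => ?_, fun H f g hf hg => ?_⟩
  · simp [smbP, smbE]
  have ef : c f = smbE c H (0, 0) (1, 0) (2, 0) (3, 0) (4, 0) := by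
    have : (![(0, 0), (1, 0), (2, 0), (3, 0), (4, 0)] : Fin 5 → Fin 5 × Fin 2)
        = fun k => (k, 0) := by decide
    rw [smbE, this]
    congr 1
    ext q
    rw [ContinuousMap.comp_apply, smbAff_bot, hf]
  have eg : c g = smbE c H (0, 1) (1, 1) (2, 1) (3, 1) (4, 1) := by
    have : (![(0, 1), (1, 1), (2, 1), (3, 1), (4, 1)] : Fin 5 → Fin 5 × Fin 2)
        = fun k => (k, 1) := by decide
    rw [smbE, this]
    congr 1
    ext q
    rw [ContinuousMap.comp_apply, smbAff_top, hg]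
  have h0 := smbE_coc hc H (0, 0) (0, 1) (1, 1) (2, 1) (3, 1) (4, 1)
  have h1 := smbE_coc hc H (0, 0) (1, 0) (1, 1) (2, 1) (3, 1) (4, 1)
  have h2 := smbE_coc hc H (0, 0) (1, 0) (2, 0) (2, 1) (3, 1) (4, 1)
  have h3 := smbE_coc hc H (0, 0) (1, 0) (2, 0) (3, 0) (3, 1) (4, 1)
  have h4 := smbE_coc hc H (0, 0) (1, 0) (2, 0) (3, 0) (4, 0) (4, 1)
  have s0 : (-1 : ℤ) ^ ((0 : Fin 5) : ℕ) = 1 := by decide
  have s1 : (-1 : ℤ) ^ ((1 : Fin 5) : ℕ) = -1 := by decide
  have s2 : (-1 : ℤ) ^ ((2 : Fin 5) : ℕ) = 1 := by decide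
  have s3 : (-1 : ℤ) ^ ((3 : Fin 5) : ℕ) = -1 := by decide
  have s4 : (-1 : ℤ) ^ ((4 : Fin 5) : ℕ) = 1 := by decide
  rw [Fin.sum_univ_five, smbP_face c H 0 1 2 3 4 (by decide), smbP_face c H 1 0 2 3 4 (by decide),
    smbP_face c H 2 0 1 3 4 (by decide), smbP_face c H 3 0 1 2 4 (by decide),
    smbP_face c H 4 0 1 2 3 (by decide), ef, eg, s0, s1, s2, s3, s4]
  linear_combination (norm := abel) h0 - h1 + h2 - h3 + h4

/-- Semi-simplicial sets. -/
structure SSS where
  Y : ℕ → Type w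
  d : ∀ {n : ℕ}, Fin (n + 2) → Y (n + 1) → Y n
  dd : ∀ {n : ℕ} (i j : Fin (n + 3)) (i' j' : Fin (n + 2)),
    i.succAbove ∘ i'.succAbove = j.succAbove ∘ j'.succAbove → ∀ y : Y (n + 2),
      d i' (d i y) = d j' (d j y)

/-- The coboundary of a cochain. -/
def SSS.cob (S : SSS.{w}) {M : Type v} [AddCommGroup M] {n : ℕ} (o : S.Y n → M)
    (y : S.Y (n + 1)) : M :=
  ∑ i : Fin (n + 2), (-1 : ℤ) ^ (i : ℕ) • o (S.d i y)

theorem SSS.cob_cob (S : SSS.{w}) {M : Type v} [AddCommGroup M] {n : ℕ} (o : S.Y n → M)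
    (y : S.Y (n + 2)) : S.cob (S.cob o) y = 0 := by
  unfold SSS.cob
  simp only [Finset.smul_sum, smul_smul, ← pow_add]
  rw [← Finset.sum_product']
  refine Finset.sum_ninvolution (fun a => (a.1.succAbove a.2, a.2.predAbove a.1)) (fun a => ?_)
    (fun a _ h => Fin.succAbove_ne _ _ (congrArg Prod.fst h)) (fun a => by simp) (fun a => ?_)
  · rw [Fin.neg_one_pow_succAbove_add_predAbove, neg_smul,
      S.dd (a.1.succAbove a.2) a.1 (a.2.predAbove a.1) a.2
        (funext fun k => Fin.succAbove_succAbove_succAbove_predAbove _ _ k), add_neg_cancel]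
  · exact Prod.ext (Fin.succAbove_succAbove_predAbove _ _) (Fin.predAbove_predAbove_succAbove _ _)

open CategoryTheory in
/-- The semi-simplicial set underlying a simplicial set. -/
def sssOf (X : SSet.{w}) : SSS.{w} where
  Y n := X.obj (Opposite.op (SimplexCategory.mk n))
  d i y := X.δ i y
  dd := by
    intro n i j i' j' h y
    have e : SimplexCategory.δ i' ≫ SimplexCategory.δ i
        = SimplexCategory.δ j' ≫ SimplexCategory.δ j := by
      ext k
      exact congrArg Fin.val (congrFun h k)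
    have e2 : X.δ i ≫ X.δ i' = X.δ j ≫ X.δ j' := by
      simp only [CategoryTheory.SimplicialObject.δ_def, ← X.map_comp, ← CategoryTheory.op_comp, e]
    exact congrArg (fun f => f y) e2

theorem smb_seq {T : ℕ → Type v} (t0 : T 0) (R : ∀ n, T n → T (n + 1) → Prop)
    (h : ∀ n t, ∃ t', R n t t') : ∃ f : ∀ n, T n, ∀ n, R n (f n) (f (n + 1)) := by
  choose g hg using h
  exact ⟨fun n => Nat.rec t0 g n, fun n => hg n _⟩

/-- Relative homotopy extension for families of cone cells `G y : Δ^{n+1} → X` (`y ∈ Y n`) with a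
prescribed track `K` on the faces `0`. -/
theorem ext_homotopy (S : SSS.{w}) [Subsingleton (S.Y 0)]
    (G : ∀ n, S.Y n → C(Dl (n + 1), X))
    (hG : ∀ n (i : Fin (n + 2)) y, dS i.succ (G (n + 1) y) = G n (S.d i y))
    (K : ∀ n, S.Y n → C(Dl n × I, X))
    (hK : ∀ n (i : Fin (n + 2)) y p s, K (n + 1) y (face i p, s) = K n (S.d i y) (p, s))
    (hK0 : ∀ n y p, K n y (p, 0) = G n y (face 0 p))
    (P : ∀ n, S.Y n → Prop) (hP0 : ∀ y, P 0 y)
    (hPd : ∀ n (i : Fin (n + 2)) y, P (n + 1) y → P n (S.d i y))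
    (H₀ : ∀ n, S.Y n → C(Dl (n + 1) × I, X))
    (b0 : ∀ n y, P n y → ∀ p, H₀ n y (p, 0) = G n y p)
    (bK : ∀ n y, P n y → ∀ p s, H₀ n y (face 0 p, s) = K n y (p, s))
    (bd : ∀ n (i : Fin (n + 2)) y, P (n + 1) y → ∀ p s,
      H₀ (n + 1) y (face i.succ p, s) = H₀ n (S.d i y) (p, s)) :
    ∃ H : ∀ n, S.Y n → C(Dl (n + 1) × I, X), (∀ n y, P n y → H n y = H₀ n y) ∧
      (∀ n y p, H n y (p, 0) = G n y p) ∧ (∀ n y p s, H n y (face 0 p, s) = K n y (p, s)) ∧
      ∀ n (i : Fin (n + 2)) y p s, H (n + 1) y (face i.succ p, s) = H n (S.d i y) (p, s) := by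
  classical
  let A : ∀ n, (S.Y n → C(Dl (n + 1) × I, X)) → Prop := fun n H =>
    (∀ y, P n y → H y = H₀ n y) ∧ (∀ y p, H y (p, 0) = G n y p) ∧
      (∀ y p s, H y (face 0 p, s) = K n y (p, s)) ∧
      ∀ (y : S.Y (n + 1)) (i j : Fin (n + 2)) p q s, face i.succ p = face j.succ q →
        H (S.d i y) (p, s) = H (S.d j y) (q, s)
  have inner : ∀ {n : ℕ} {i j : Fin (n + 2)}, i ≠ j → ∀ {p q : Dl (n + 1)},
      face i.succ p = face j.succ q → ∃ (i' j' : Fin (n + 1)) (r : Dl n),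
        p = face i'.succ r ∧ q = face j'.succ r ∧
        i.succ.succAbove ∘ i'.succ.succAbove = j.succ.succAbove ∘ j'.succ.succAbove := by
    intro n i j hij p q h
    obtain ⟨i', j', r, h1, h2, h3, h4, h5⟩ :=
      face_eq_face (fun e => hij (Fin.succ_injective _ e)) h
    have hi : i' ≠ 0 := by
      rintro rfl
      exact Fin.succ_ne_zero j (by rw [← h3, Fin.succ_succAbove_zero])
    have hj : j' ≠ 0 := by
      rintro rfl
      exact Fin.succ_ne_zero i (by rw [← h4, Fin.succ_succAbove_zero])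
    obtain ⟨i', rfl⟩ := Fin.exists_succ_eq.2 hi
    obtain ⟨j', rfl⟩ := Fin.exists_succ_eq.2 hj
    exact ⟨i', j', r, h1, h2, h5⟩
  have base : A 0 (H₀ 0) := by
    refine ⟨fun _ _ => rfl, fun y => b0 0 y (hP0 y), fun y => bK 0 y (hP0 y),
      fun y i j p q s h => ?_⟩
    rw [Subsingleton.elim (S.d i y) (S.d j y)]
    by_cases hij : i = j
    · subst hij
      rw [face_injective _ h]
    · obtain ⟨i', j', r, h1, h2, -⟩ := inner hij h
      rw [h1, h2, Subsingleton.elim (α := Fin 1) i' j']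
  have step : ∀ n (t : {H // A n H}), ∃ t' : {H // A (n + 1) H},
      ∀ (i : Fin (n + 2)) y p s, t'.1 y (face i.succ p, s) = t.1 (S.d i y) (p, s) := by
    rintro n ⟨H, a1, a2, a3, a4⟩
    have key : ∀ y : S.Y (n + 1), ∃ H' : C(Dl (n + 2) × I, X), (P (n + 1) y → H' = H₀ (n + 1) y) ∧
        (∀ p, H' (p, 0) = G (n + 1) y p) ∧ (∀ p s, H' (face 0 p, s) = K (n + 1) y (p, s)) ∧
        ∀ (i : Fin (n + 2)) p s, H' (face i.succ p, s) = H (S.d i y) (p, s) := by
      intro y
      by_cases hy : P (n + 1) y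
      · exact ⟨H₀ (n + 1) y, fun _ => rfl, b0 _ y hy, bK _ y hy, fun i p s => by
          rw [bd n i y hy, a1 _ (hPd n i y hy)]⟩
      · have c0 : ∀ (i : Fin (n + 2)) p q s, face 0 p = face i.succ q →
            K (n + 1) y (p, s) = H (S.d i y) (q, s) := by
          intro i p q s h
          obtain ⟨i', j', r, h1, h2, h3, h4, -⟩ := face_eq_face (Fin.succ_ne_zero i).symm h
          have hi : i' = i := Fin.succ_injective _ (by rw [← h3, Fin.zero_succAbove])
          have hj : j' = 0 :=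
            Fin.succAbove_right_injective (h4.trans (Fin.succ_succAbove_zero i).symm)
          rw [h1, h2, hi, hj, hK, a3]
        obtain ⟨H', b1, b2⟩ := hep (G (n + 1) y)
          (Fin.cons (K (n + 1) y) fun i => H (S.d i y)) (by
            intro i p
            refine Fin.cases ?_ (fun i => ?_) i
            · exact hK0 _ y p
            · rw [Fin.cons_succ, a2, ← hG]; rfl) (by
            intro i j p q s
            refine Fin.cases ?_ (fun i => ?_) i <;> refine Fin.cases ?_ (fun j => ?_) j <;> intro h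
            · rw [face_injective _ h]
            · exact c0 j p q s h
            · exact (c0 i q p s h.symm).symm
            · exact a4 y i j p q s h)
        exact ⟨H', fun h => absurd h hy, b1, b2 0, fun i => b2 i.succ⟩
    choose H' k1 k2 k3 k4 using key
    refine ⟨⟨H', k1, k2, k3, fun y i j p q s h => ?_⟩, fun i y => k4 y i⟩
    by_cases hij : i = j
    · subst hij
      rw [face_injective _ h]
    · obtain ⟨i', j', r, h1, h2, h3⟩ := inner hij h
      rw [h1, h2, k4, k4, S.dd i j i' j' (funext fun k => Fin.succ_injective _ (by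
        simpa only [Function.comp_apply, Fin.succ_succAbove_succ] using congrFun h3 k.succ))]
  obtain ⟨f, hf⟩ := smb_seq (T := fun n => {H // A n H}) ⟨H₀ 0, base⟩ _ step
  exact ⟨fun n => (f n).1, fun n => (f n).2.1, fun n => (f n).2.2.1, fun n => (f n).2.2.2.1, hf⟩

end Vale.Agent.P178
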