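import Mathlib

/-!
P178: singular simplices, horn filling, homotopy extension, semi-simplicial sets.
-/

namespace Vale.Agent.P178

open scoped unitInterval

universe u v w

/-- The topological `n`-simplex. -/
abbrev Dl (n : ℕ) : Type := stdSimplex ℝ (Fin (n + 1))

/-- The `i`-th face inclusion. -/
noncomputable def face {n : ℕ} (i : Fin (n + 2)) : C(Dl n, Dl (n + 1)) :=
  ⟨stdSimplex.map i.succAbove, stdSimplex.continuous_map _⟩

variable {X : Type u} [TopologicalSpace X]

/-- The `i`-th face of a singular simplex. -/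
noncomputable def dS {n : ℕ} (i : Fin (n + 2)) (w : C(Dl (n + 1), X)) : C(Dl n, X) :=
  w.comp (face i)

/-- All faces are constant at `x₀`. -/
def Spherical {n : ℕ} (x₀ : X) (w : C(Dl (n + 1), X)) : Prop :=
  ∀ i, dS i w = ContinuousMap.const _ x₀

/-- Singular cocycles. -/
def IsSingCoc {n : ℕ} {M : Type v} [AddCommGroup M] (c : C(Dl n, X) → M) : Prop :=
  ∀ W : C(Dl (n + 1), X), ∑ i : Fin (n + 2), (-1 : ℤ) ^ (i : ℕ) • c (dS i W) = 0

theorem sa_face_succAbove {n : ℕ} (i : Fin (n + 2)) (p : Dl n) (j : Fin (n + 1)) :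
    face i p (i.succAbove j) = p j := by
  change FunOnFinite.linearMap ℝ ℝ i.succAbove p (i.succAbove j) = p j
  rw [FunOnFinite.linearMap_apply_apply]
  simp [Finset.filter_eq']

theorem sa_face_self {n : ℕ} (i : Fin (n + 2)) (p : Dl n) : face i p i = 0 := by
  change FunOnFinite.linearMap ℝ ℝ i.succAbove p i = 0
  rw [FunOnFinite.linearMap_apply_apply]
  simp

theorem face_injective {n : ℕ} (i : Fin (n + 2)) : Function.Injective (face (n := n) i) := by
  intro p q h
  ext j
  rw [← sa_face_succAbove i p j, h, sa_face_succAbove]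

theorem mem_range_face {n : ℕ} (i : Fin (n + 2)) (p : Dl (n + 1)) :
    p ∈ Set.range (face i) ↔ p i = 0 := by
  constructor
  · rintro ⟨q, rfl⟩
    exact sa_face_self i q
  · intro h
    have h1 := stdSimplex.sum_eq_one p
    rw [Fin.sum_univ_succAbove _ i, h, zero_add] at h1
    refine ⟨⟨fun j => p (i.succAbove j), fun j => stdSimplex.zero_le p _, h1⟩, ?_⟩
    ext k
    rcases eq_or_ne k i with rfl | hk
    · rw [sa_face_self, h]
    · obtain ⟨j, rfl⟩ := Fin.exists_succAbove_eq hk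
      rw [sa_face_succAbove]
      rfl

theorem face_face {n : ℕ} {i j : Fin (n + 3)} {i' j' : Fin (n + 2)}
    (h : i.succAbove ∘ i'.succAbove = j.succAbove ∘ j'.succAbove) (p : Dl n) :
    face i (face i' p) = face j (face j' p) := by
  change stdSimplex.map _ (stdSimplex.map _ p) = stdSimplex.map _ (stdSimplex.map _ p)
  rw [stdSimplex.map_comp_apply, stdSimplex.map_comp_apply, h]

theorem face_eq_face_zero {i j : Fin 2} {p q : Dl 0} (h : face i p = face j q) : i = j := by
  by_contra hij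
  obtain ⟨k, rfl⟩ := Fin.exists_succAbove_eq hij
  have h1 := sa_face_self (j.succAbove k) p
  rw [h, sa_face_succAbove, stdSimplex.eq_one_of_unique (X := Fin 1) q k] at h1
  exact one_ne_zero h1

theorem face_eq_face {n : ℕ} {i j : Fin (n + 3)} (hij : i ≠ j) {p q : Dl (n + 1)}
    (h : face i p = face j q) :
    ∃ (i' j' : Fin (n + 2)) (r : Dl n), p = face i' r ∧ q = face j' r ∧
      i.succAbove i' = j ∧ j.succAbove j' = i ∧
      i.succAbove ∘ i'.succAbove = j.succAbove ∘ j'.succAbove := by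
  obtain ⟨i', rfl⟩ := Fin.exists_succAbove_eq hij.symm
  have h1 : p i' = 0 := by rw [← sa_face_succAbove i p i', h, sa_face_self]
  obtain ⟨r, rfl⟩ := (mem_range_face i' p).2 h1
  have h2 : i.succAbove ∘ i'.succAbove =
      (i.succAbove i').succAbove ∘ (i'.predAbove i).succAbove :=
    funext fun k => (Fin.succAbove_succAbove_succAbove_predAbove i i' k).symm
  exact ⟨i', i'.predAbove i, r, rfl, face_injective _ (h.symm.trans (face_face h2 r)), rfl,
    Fin.succAbove_succAbove_predAbove i i', h2⟩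

theorem sa_cont {n : ℕ} (i : Fin (n + 1)) : Continuous fun q : Dl n => q i :=
  (continuous_apply i).comp continuous_subtype_val

/-- Gluing along a map from a compact space, followed by a retraction. -/
theorem sa_glue {A B S : Type} [TopologicalSpace A] [TopologicalSpace B] [T2Space B]
    [TopologicalSpace S] [CompactSpace S] (e : S → B) (he : Continuous e) (x : S → X)
    (hx : Continuous x) (hc : ∀ p q, e p = e q → x p = x q) (r : A → B) (hr : Continuous r)
    (hs : ∀ a, ∃ p, e p = r a) : ∃ W : C(A, X), ∀ a p, e p = r a → W a = x p := by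
  have h1 : Continuous (Set.rangeFactorization e) := he.subtype_mk _
  have h2 := h1.isClosedMap.isQuotientMap h1 Set.rangeFactorization_surjective
  have h3 : ∀ (b : Set.range e) p, e p = b → x b.2.choose = x p :=
    fun b p h => hc _ _ (b.2.choose_spec.trans h.symm)
  have h4 : Continuous fun b : Set.range e => x b.2.choose := by
    rw [h2.continuous_iff]
    exact hx.congr fun p => (h3 (Set.rangeFactorization e p) p rfl).symm
  exact ⟨⟨fun a => x (hs a).choose, h4.comp (hr.subtype_mk hs)⟩, fun a p h => h3 ⟨r a, hs a⟩ p h⟩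

theorem sa_min {n m : ℕ} (e : Fin (m + 1) → Fin (n + 1)) : ∃ μ : Dl n → ℝ, Continuous μ ∧
    (∀ q, 0 ≤ μ q) ∧ (∀ q j, μ q ≤ q (e j)) ∧ ∀ q, ∃ j, μ q = q (e j) := by
  refine ⟨fun q => Finset.univ.inf' Finset.univ_nonempty fun j => q (e j),
    Continuous.finset_inf'_apply _ fun j _ => sa_cont (e j),
    fun q => Finset.le_inf' _ _ fun j _ => stdSimplex.zero_le q _,
    fun q j => Finset.inf'_le (fun j => q (e j)) (Finset.mem_univ j), fun q => ?_⟩
  obtain ⟨j, -, hj⟩ := Finset.exists_mem_eq_inf' Finset.univ_nonempty fun j => q (e j)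
  exact ⟨j, hj⟩

/-- Horn filling. -/
theorem horn_fill {n : ℕ} (k : Fin (n + 2)) (x : Fin (n + 2) → C(Dl n, X))
    (hx : ∀ i j, i ≠ k → j ≠ k → ∀ p q, face i p = face j q → x i p = x j q) :
    ∃ W : C(Dl (n + 1), X), ∀ i, i ≠ k → dS i W = x i := by
  obtain ⟨μ, hμ, h0, h1, h2⟩ := sa_min (n := n + 1) k.succAbove
  have hr : ∀ q : Dl (n + 1), (fun i => if i = k then q i + (n + 1) * μ q else q i - μ q) ∈
      stdSimplex ℝ (Fin (n + 2)) := by
    intro q
    refine ⟨fun i => ?_, ?_⟩
    · dsimp only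
      split_ifs with h
      · exact add_nonneg (stdSimplex.zero_le q i) (mul_nonneg (by positivity) (h0 q))
      · obtain ⟨j, rfl⟩ := Fin.exists_succAbove_eq h
        exact sub_nonneg.2 (h1 q j)
    · have h3 := stdSimplex.sum_eq_one q
      rw [Fin.sum_univ_succAbove _ k] at h3 ⊢
      simp only [if_true, Fin.succAbove_ne, if_false, Finset.sum_sub_distrib, Finset.sum_const,
        Finset.card_univ, Fintype.card_fin, nsmul_eq_mul]
      push_cast
      linarith
  obtain ⟨W, hW⟩ := sa_glue (fun z : Fin (n + 1) × Dl n => face (k.succAbove z.1) z.2)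
    (continuous_prod_of_discrete_left.2 fun j => (face (k.succAbove j)).continuous)
    (fun z => x (k.succAbove z.1) z.2)
    (continuous_prod_of_discrete_left.2 fun j => (x (k.succAbove j)).continuous)
    (fun z z' h => hx _ _ (Fin.succAbove_ne _ _) (Fin.succAbove_ne _ _) _ _ h)
    (fun q => ⟨_, hr q⟩) (Continuous.subtype_mk (continuous_pi fun i => by
      split_ifs
      · exact (sa_cont i).add (continuous_const.mul hμ)
      · exact (sa_cont i).sub hμ) _) (fun q => by
      obtain ⟨j, hj⟩ := h2 q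
      obtain ⟨p, hp⟩ := (mem_range_face (k.succAbove j) ⟨_, hr q⟩).2 (by
        change (if k.succAbove j = k then _ else _) = _
        rw [if_neg (Fin.succAbove_ne _ _), hj, sub_self])
      exact ⟨(j, p), hp⟩)
  refine ⟨W, fun i hi => ?_⟩
  obtain ⟨j, rfl⟩ := Fin.exists_succAbove_eq hi
  ext p
  refine hW (face _ p) (j, p) ?_
  have h3 : μ (face (k.succAbove j) p) = 0 := le_antisymm (sa_face_self _ p ▸ h1 _ j) (h0 _)
  ext i
  change _ = if i = k then _ else _
  rw [h3]
  simp

/-- A retraction of the prism onto its bottom and sides. -/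
theorem sa_retr (n : ℕ) : ∃ r : Dl (n + 1) × I → Dl (n + 1) × I, Continuous r ∧
    (∀ q, r (q, 0) = (q, 0)) ∧ (∀ q s i, q i = 0 → r (q, s) = (q, s)) ∧
    ∀ z, (r z).2 = 0 ∨ ∃ i, (r z).1 i = 0 := by
  obtain ⟨μ, hμ, h0, h1, h2⟩ := sa_min (n := n + 1) id
  obtain ⟨N, hN⟩ : ∃ N : ℝ, N = n + 2 := ⟨_, rfl⟩
  have hN0 : 0 < N := by rw [hN]; positivity
  obtain ⟨θ, hθ⟩ : ∃ θ : Dl (n + 1) × I → ℝ, ∀ z, θ z = min (μ z.1) (z.2 / (2 * N)) :=
    ⟨_, fun _ => rfl⟩
  have t0 : ∀ z, 0 ≤ θ z := fun z => hθ z ▸ le_min (h0 _) (div_nonneg z.2.2.1 (by positivity))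
  have t1 : ∀ z i, θ z ≤ z.1 i := fun z i => hθ z ▸ (min_le_left _ _).trans (h1 _ i)
  have t2 : ∀ z, 2 * N * θ z ≤ z.2 := fun z => by
    rw [mul_comm, ← le_div_iff₀ (by positivity), hθ]
    exact min_le_right _ _
  have t3 : ∀ z, 0 < 1 - N * θ z := fun z => by linarith [t2 z, z.2.2.2]
  have tc : Continuous θ := by
    rw [show θ = _ from funext hθ]
    fun_prop
  have m1 : ∀ z, (fun i => (z.1 i - θ z) / (1 - N * θ z)) ∈ stdSimplex ℝ (Fin (n + 2)) := by
    intro z
    refine ⟨fun i => div_nonneg (sub_nonneg.2 (t1 z i)) (t3 z).le, ?_⟩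
    rw [← Finset.sum_div, Finset.sum_sub_distrib, stdSimplex.sum_eq_one, Finset.sum_const,
      Finset.card_univ, Fintype.card_fin, nsmul_eq_mul, div_eq_one_iff_eq (t3 z).ne', hN]
    push_cast
    rfl
  have m2 : ∀ z, z.2 - 2 * N * θ z ∈ I := fun z =>
    ⟨sub_nonneg.2 (t2 z), by nlinarith [z.2.2.2, t0 z]⟩
  have hid : ∀ z, θ z = 0 → ((⟨_, m1 z⟩, ⟨_, m2 z⟩) : Dl (n + 1) × I) = z := by
    intro z h
    refine Prod.ext (Subtype.ext (funext fun i => ?_)) (Subtype.ext ?_)
    · change (z.1 i - θ z) / (1 - N * θ z) = z.1 i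
      simp [h]
    · simp [h]
  refine ⟨fun z => (⟨_, m1 z⟩, ⟨_, m2 z⟩), Continuous.prodMk (Continuous.subtype_mk
    (continuous_pi fun i => Continuous.div (((sa_cont i).comp continuous_fst).sub tc)
      (by fun_prop) fun z => (t3 z).ne') _) (Continuous.subtype_mk (by fun_prop) _),
    fun q => hid _ (le_antisymm ?_ (t0 _)), fun q s i h => hid _ (le_antisymm (h ▸ t1 _ i) (t0 _)),
    fun z => ?_⟩
  · rw [hθ]
    simp
  · rcases le_total (μ z.1) (z.2 / (2 * N)) with h | h
    · obtain ⟨i, hi⟩ := h2 z.1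
      refine Or.inr ⟨i, ?_⟩
      change (z.1 i - θ z) / (1 - N * θ z) = 0
      rw [hθ, min_eq_left h, hi, id, sub_self, zero_div]
    · refine Or.inl (Subtype.ext ?_)
      change z.2 - 2 * N * θ z = 0
      rw [hθ, min_eq_right h, mul_div_cancel₀ _ (by positivity), sub_self]

/-- Homotopy extension for one simplex. -/
theorem hep {n : ℕ} (g : C(Dl (n + 1), X)) (K : Fin (n + 2) → C(Dl n × I, X))
    (h0 : ∀ i p, K i (p, 0) = g (face i p))
    (hc : ∀ i j p q s, face i p = face j q → K i (p, s) = K j (q, s)) :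
    ∃ H : C(Dl (n + 1) × I, X), (∀ p, H (p, 0) = g p) ∧
      ∀ i p s, H (face i p, s) = K i (p, s) := by
  obtain ⟨r, hr, r0, r1, r2⟩ := sa_retr n
  obtain ⟨W, hW⟩ := sa_glue (A := Dl (n + 1) × I)
    (Sum.elim (fun q : Dl (n + 1) => (q, (0 : I)))
      fun z : Fin (n + 2) × Dl n × I => (face z.1 z.2.1, z.2.2))
    (Continuous.sumElim (by fun_prop) (continuous_prod_of_discrete_left.2 fun i => by fun_prop))
    (Sum.elim g fun z => K z.1 z.2)
    (Continuous.sumElim g.continuous (continuous_prod_of_discrete_left.2 fun i => (K i).continuous))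
    (by
      rintro (q | ⟨i, p, s⟩) (q' | ⟨i', p', s'⟩) h <;>
        simp only [Sum.elim_inl, Sum.elim_inr, Prod.mk.injEq] at h ⊢
      · rw [h.1]
      · rw [h.1, ← h.2, h0]
      · rw [← h.1, h.2, h0]
      · rw [h.2, hc i i' p p' s' h.1]) r hr (fun z => by
      rcases r2 z with h | ⟨i, h⟩
      · exact ⟨.inl (r z).1, Prod.ext rfl h.symm⟩
      · obtain ⟨p, hp⟩ := (mem_range_face i _).2 h
        exact ⟨.inr (i, p, (r z).2), Prod.ext hp rfl⟩)
  exact ⟨W, fun p => hW _ (.inl p) (r0 p).symm,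
    fun i p s => hW _ (.inr (i, p, s)) (r1 _ s i (sa_face_self i p)).symm⟩

/-- Three sides of a square: an edge `g`, a track `K` on its face `0`, and a constant top. -/
theorem square_fill (g : C(Dl 1, X)) (K : C(Dl 0 × I, X)) (x₀ : X)
    (h0 : ∀ p, K (p, 0) = g (face 0 p)) (h1 : ∀ p, K (p, 1) = x₀) :
    ∃ H : C(Dl 1 × I, X), (∀ p, H (p, 0) = g p) ∧ (∀ p, H (p, 1) = x₀) ∧
      ∀ p s, H (face 0 p, s) = K (p, s) := by
  have hext : ∀ p q : Dl 1, p 0 = q 0 → p = q := by
    intro p q h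
    ext i
    have := stdSimplex.add_eq_one p
    have := stdSimplex.add_eq_one q
    fin_cases i
    · exact h
    · change p 1 = q 1
      linarith
  have hm : ∀ (p : Dl 1) (q : Dl 0) (s : I), -p 0 = s → g p = K (q, s) := by
    intro p q s h
    have h2 : (s : ℝ) = 0 := by linarith [stdSimplex.zero_le p 0, s.2.1]
    rw [show s = 0 from Subtype.ext h2, h0, hext p (face 0 q) (by rw [sa_face_self]; linarith)]
  obtain ⟨W, hW⟩ := sa_glue (A := Dl 1 × I)
    (Sum.elim (fun q : Dl 1 => -q 0) fun z : Dl 0 × I => (z.2 : ℝ))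
    (Continuous.sumElim (sa_cont 0).neg (by fun_prop)) (Sum.elim g K)
    (Continuous.sumElim g.continuous K.continuous)
    (by
      rintro (q | ⟨p, s⟩) (q' | ⟨p', s'⟩) h <;> simp only [Sum.elim_inl, Sum.elim_inr] at h ⊢
      · rw [hext q q' (neg_injective h)]
      · exact hm _ _ _ h
      · exact (hm _ _ _ h.symm).symm
      · rw [Subsingleton.elim p p', Subtype.ext h])
    (fun z => z.2 - z.1 0 * (1 - z.2))
    (Continuous.sub (by fun_prop) (((sa_cont 0).comp continuous_fst).mul (by fun_prop)))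
    (fun z => by
      have a0 := stdSimplex.zero_le z.1 0
      have a1 := stdSimplex.le_one z.1 0
      have s0 := z.2.2.1
      have s1 := z.2.2.2
      rcases le_total ((z.2 : ℝ) - z.1 0 * (1 - z.2)) 0 with h | h
      · refine ⟨.inl ⟨![-(z.2 - z.1 0 * (1 - z.2)), 1 + (z.2 - z.1 0 * (1 - z.2))], fun i => ?_,
          by rw [Fin.sum_univ_two]; exact neg_add_cancel_comm_assoc _ _⟩, neg_neg _⟩
        fin_cases i
        · exact neg_nonneg.2 h
        · change 0 ≤ 1 + ((z.2 : ℝ) - z.1 0 * (1 - z.2))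
          nlinarith
      · exact ⟨.inr (default, ⟨_, h, by nlinarith⟩), rfl⟩)
  refine ⟨W, fun p => hW _ (.inl p) (by simp), fun p => ?_,
    fun p s => hW _ (.inr (p, s)) (by simp [sa_face_self])⟩
  exact (hW _ (.inr (default, 1)) (by simp)).trans (h1 _)

/-- The segment between two points of a simplex. -/
def saMix {n : ℕ} (p q : Dl n) (s : I) : Dl n :=
  ⟨(1 - (s : ℝ)) • p.1 + (s : ℝ) • q.1,
    convex_stdSimplex ℝ _ p.2 q.2 (sub_nonneg.2 s.2.2) s.2.1 (sub_add_cancel _ _)⟩

theorem saMix_zero {n : ℕ} (p q : Dl n) : saMix p q 0 = p := Subtype.ext (by simp [saMix])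

theorem saMix_one {n : ℕ} (p q : Dl n) : saMix p q 1 = q := Subtype.ext (by simp [saMix])

theorem saMix_cont {n m : ℕ} (q : Dl n) {f : Dl m → Dl n} (hf : Continuous f) :
    Continuous fun z : Dl m × I => saMix (f z.1) q z.2 :=
  Continuous.subtype_mk (by fun_prop) _

theorem saMix_map {n m : ℕ} (f : Fin (n + 1) → Fin (m + 1)) (p q : Dl n) (s : I) :
    stdSimplex.map f (saMix p q s) = saMix (stdSimplex.map f p) (stdSimplex.map f q) s := by
  refine Subtype.ext ?_
  change FunOnFinite.linearMap ℝ ℝ f ((1 - (s : ℝ)) • p.1 + (s : ℝ) • q.1) = _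
  rw [map_add, map_smul, map_smul]
  rfl

/-- The contraction of a simplex to its vertex `0`. -/
theorem exists_contr0 : ∃ κ : ∀ n : ℕ, C(Dl n × I, Dl n),
    (∀ n p, κ n (p, 0) = p) ∧ (∀ n p, κ n (p, 1) = stdSimplex.vertex 0) ∧
    ∀ n (i : Fin (n + 1)) p s, κ (n + 1) (face i.succ p, s) = face i.succ (κ n (p, s)) := by
  refine ⟨fun n => ⟨fun z => saMix z.1 (stdSimplex.vertex 0) z.2, saMix_cont _ continuous_id⟩,
    fun n p => saMix_zero _ _, fun n p => saMix_one _ _, fun n i p s => ?_⟩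
  change saMix _ _ _ = stdSimplex.map _ (saMix _ _ _)
  rw [saMix_map, stdSimplex.map_vertex, Fin.succ_succAbove_zero]
  rfl

/-- The cone with apex the last vertex. -/
theorem exists_coneLast : ∃ κ : ∀ n : ℕ, C(Dl n × I, Dl (n + 1)),
    (∀ n p, κ n (p, 0) = face (Fin.last (n + 1)) p) ∧
    (∀ n p, κ n (p, 1) = stdSimplex.vertex (Fin.last (n + 1))) ∧
    ∀ n (i : Fin (n + 2)) p s, κ (n + 1) (face i p, s) = face i.castSucc (κ n (p, s)) := by
  refine ⟨fun n => ⟨fun z => saMix (face (Fin.last (n + 1)) z.1) (stdSimplex.vertex (Fin.last _)) z.2,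
    saMix_cont _ (face _).continuous⟩, fun n p => saMix_zero _ _, fun n p => saMix_one _ _,
    fun n i p s => ?_⟩
  change saMix _ _ _ = stdSimplex.map _ (saMix _ _ _)
  rw [saMix_map, stdSimplex.map_vertex, Fin.succAbove_ne_last_last (Fin.castSucc_ne_last i),
    face_face (i := Fin.last (n + 2)) (i' := i) (j := i.castSucc) (j' := Fin.last (n + 1))
      (funext fun k => by simp [Fin.castSucc_succAbove_castSucc])]
  rfl

end Vale.Agent.P178
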