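import Vale.Agent.P178.StDefs
import Vale.Agent.P178.Coc

/-!
P178: basic API for Steinberg groups.
-/

namespace Vale.Agent.P178

open scoped commutatorElement

universe v

variable {ι κ : Type} {R S : Type} [CommRing R] [CommRing S]

/-- The generator `x i j r`. -/
def stx (i j : ι) (r : R) : St ι R := PresentedGroup.of (i, j, r)

/-- A family of elements of a group satisfying the Steinberg relations. -/
structure IsStFam {G : Type*} [Group G] (X : ι → ι → R → G) : Prop where
  diag : ∀ i r, X i i r = 1
  add : ∀ i j r s, i ≠ j → X i j (r + s) = X i j r * X i j s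
  comm : ∀ i j k l r s, i ≠ j → k ≠ l → j ≠ k → i ≠ l → Commute (X i j r) (X k l s)
  bra : ∀ i j l r s, i ≠ j → j ≠ l → i ≠ l → ⁅X i j r, X j l s⁆ = X i l (r * s)

theorem isStFam_stx : IsStFam (stx : ι → ι → R → St ι R) := by
  refine ⟨fun i r => ?_, fun i j r s h => ?_, fun i j k l r s h1 h2 h3 h4 => ?_,
    fun i j l r s h1 h2 h3 => ?_⟩
  · exact PresentedGroup.one_of_mem (rels := {w | StRel ι R w}) (StRel.diag i r)
  · exact (PresentedGroup.mk_eq_mk_of_mul_inv_mem (rels := {w | StRel ι R w})
      (StRel.add i j r s h)).symm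
  · rw [← commutatorElement_eq_one_iff_commute]
    exact PresentedGroup.one_of_mem (rels := {w | StRel ι R w}) (StRel.comm i j k l r s h1 h2 h3 h4)
  · exact PresentedGroup.mk_eq_mk_of_mul_inv_mem (rels := {w | StRel ι R w})
      (StRel.bra i j l r s h1 h2 h3)

theorem IsStFam.rel {G : Type*} [Group G] {X : ι → ι → R → G} (h : IsStFam X) :
    ∀ w ∈ {w : FreeGroup (ι × ι × R) | StRel ι R w},
      FreeGroup.lift (fun p : ι × ι × R => X p.1 p.2.1 p.2.2) w = 1 := by
  intro w hw
  cases hw with
  | diag i r => simpa using h.diag i r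
  | add i j r s h1 => simp [h.add i j r s h1]
  | comm i j k l r s h1 h2 h3 h4 =>
      simpa [map_commutatorElement, commutatorElement_eq_one_iff_commute]
        using h.comm i j k l r s h1 h2 h3 h4
  | bra i j l r s h1 h2 h3 => simp [map_commutatorElement, h.bra i j l r s h1 h2 h3]

/-- Universal property. -/
def IsStFam.lift {G : Type*} [Group G] {X : ι → ι → R → G} (h : IsStFam X) : St ι R →* G :=
  PresentedGroup.toGroup h.rel

@[simp] theorem IsStFam.lift_stx {G : Type*} [Group G] {X : ι → ι → R → G} (h : IsStFam X)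
    (i j : ι) (r : R) : h.lift (stx i j r) = X i j r :=
  PresentedGroup.toGroup.of h.rel

@[simp] theorem stMap_stx (f : R →+* S) (i j : ι) (r : R) :
    stMap ι f (stx i j r) = stx i j (f r) :=
  PresentedGroup.toGroup.of (stRel_map f)

theorem IsStFam.zero {G : Type*} [Group G] {X : ι → ι → R → G} (h : IsStFam X) {i j : ι}
    (hij : i ≠ j) : X i j 0 = 1 := by
  have := h.add i j 0 0 hij
  rw [add_zero] at this
  exact mul_eq_left.1 this.symm

theorem IsStFam.neg {G : Type*} [Group G] {X : ι → ι → R → G} (h : IsStFam X) {i j : ι}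
    (hij : i ≠ j) (r : R) : X i j (-r) = (X i j r)⁻¹ := by
  rw [eq_inv_iff_mul_eq_one, ← h.add _ _ _ _ hij, neg_add_cancel, h.zero hij]

theorem st_induction {p : St ι R → Prop} (h1 : p 1) (hx : ∀ i j r g, i ≠ j → p g → p (stx i j r * g))
    (g : St ι R) : p g := by
  have hg : g ∈ Subgroup.closure (Set.range (PresentedGroup.of :
      ι × ι × R → St ι R)) := by
    rw [PresentedGroup.closure_range_of]; exact Subgroup.mem_top g
  induction hg using Subgroup.closure_induction_left with
  | one => exact h1
  | mul_left x hx' y _ hy =>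
    obtain ⟨⟨i, j, r⟩, rfl⟩ := hx'
    change p (stx i j r * y)
    by_cases hij : i = j
    · rw [hij, isStFam_stx.diag, one_mul]; exact hy
    · exact hx i j r y hij hy
  | inv_mul_cancel x hx' y _ hy =>
    obtain ⟨⟨i, j, r⟩, rfl⟩ := hx'
    change p ((stx i j r)⁻¹ * y)
    by_cases hij : i = j
    · rw [hij, isStFam_stx.diag, inv_one, one_mul]; exact hy
    · rw [← isStFam_stx.neg hij]; exact hx i j (-r) y hij hy

theorem st_hom_ext {G : Type*} [Monoid G] {f g : St ι R →* G}
    (h : ∀ i j r, i ≠ j → f (stx i j r) = g (stx i j r)) : f = g := by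
  refine MonoidHom.ext fun x => ?_
  induction x using st_induction with
  | h1 => rw [map_one, map_one]
  | hx i j r y hij hy => rw [map_mul, map_mul, h i j r hij, hy]

theorem isStFam_emb (e : ι ↪ κ) : IsStFam (fun i j (r : R) => (stx (e i) (e j) r : St κ R)) := by
  refine ⟨fun i r => isStFam_stx.diag _ r, fun i j r s h => isStFam_stx.add _ _ r s (e.injective.ne h),
    fun i j k l r s h1 h2 h3 h4 => isStFam_stx.comm _ _ _ _ r s (e.injective.ne h1)
      (e.injective.ne h2) (e.injective.ne h3) (e.injective.ne h4),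
    fun i j l r s h1 h2 h3 => isStFam_stx.bra _ _ _ r s (e.injective.ne h1)
      (e.injective.ne h2) (e.injective.ne h3)⟩

/-- Enlarging the index type. -/
def stEmb (R : Type) [CommRing R] (e : ι ↪ κ) : St ι R →* St κ R := (isStFam_emb e).lift

@[simp] theorem stEmb_stx (e : ι ↪ κ) (i j : ι) (r : R) :
    stEmb R e (stx i j r) = stx (e i) (e j) r := IsStFam.lift_stx _ i j r

theorem stMap_stEmb (f : R →+* S) (e : ι ↪ κ) (g : St ι R) :
    stMap κ f (stEmb R e g) = stEmb S e (stMap ι f g) := by
  have : (stMap κ f).comp (stEmb R e) = (stEmb S e).comp (stMap ι f) :=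
    st_hom_ext fun i j r _ => by simp
  exact DFunLike.congr_fun this g

/-- `w i j u`. -/
def stw (i j : ι) (u : Rˣ) : St ι R :=
  stx i j (u : R) * stx j i (-((u⁻¹ : Rˣ) : R)) * stx i j (u : R)

/-- `h i j u`, a lift of the diagonal matrix with `u` at `i` and `u⁻¹` at `j`. -/
def sth (i j : ι) (u : Rˣ) : St ι R := stw i j u * stw i j (-1)

theorem stMap_sth (f : R →+* S) (i j : ι) (u : Rˣ) :
    stMap ι f (sth i j u) = sth i j (Units.map (f : R →* S) u) := by
  simp [sth, stw]

theorem stEmb_sth (e : ι ↪ κ) (i j : ι) (u : Rˣ) :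
    stEmb R e (sth i j u) = sth (e i) (e j) u := by
  simp [sth, stw]

/-- exponent pattern `(1,1,-1,-1)` -/
def dA (u : Rˣ) : St (Fin 7) R := sth 0 3 u * sth 1 2 u
/-- exponent pattern `(1,-1,1,-1)` -/
def dB (u : Rˣ) : St (Fin 7) R := sth 0 3 u * sth 2 1 u
/-- exponent pattern `(1,-1,-1,1)` -/
def dC (u : Rˣ) : St (Fin 7) R := sth 0 1 u * sth 3 2 u

theorem stMap_dA (f : R →+* S) (u : Rˣ) :
    stMap _ f (dA u) = dA (Units.map (f : R →* S) u) := by simp [dA, stMap_sth]
theorem stMap_dB (f : R →+* S) (u : Rˣ) :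
    stMap _ f (dB u) = dB (Units.map (f : R →* S) u) := by simp [dB, stMap_sth]
theorem stMap_dC (f : R →+* S) (u : Rˣ) :
    stMap _ f (dC u) = dC (Units.map (f : R →* S) u) := by simp [dC, stMap_sth]

/-- The Steinberg group is perfect. -/
theorem st_h1Zero {n : ℕ} (hn : 3 ≤ n) : H1Zero.{_, v} (St (Fin n) R) := by
  intro M _ o ho g
  have h1 : ∀ a b, o (a * b) = o a + o b := fun a b => by
    have := ho a b
    linear_combination (norm := abel1) -this
  have h2 : ∀ i j r, i ≠ j → o (stx i j r) = 0 := by
    intro i j r hij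
    obtain ⟨k, hki, hkj⟩ : ∃ k : Fin n, k ≠ i ∧ k ≠ j := by
      by_contra hc
      have hs : (Finset.univ : Finset (Fin n)) ⊆ {i, j} := fun k _ => by
        by_contra hk
        simp only [Finset.mem_insert, Finset.mem_singleton, not_or] at hk
        exact hc ⟨k, hk⟩
      have h3 := (Finset.card_le_card hs).trans Finset.card_le_two
      rw [Finset.card_univ, Fintype.card_fin] at h3
      omega
    have e := isStFam_stx.bra i k j r (1 : R) hki.symm hkj hij
    rw [mul_one] at e
    have e2 : stx i j r * stx k j 1 * stx i k r = stx i k r * stx k j (1 : R) := by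
      rw [← e, commutatorElement_def]; group
    have e3 := congrArg o e2
    rw [h1, h1, h1] at e3
    linear_combination (norm := abel1) e3
  induction g using st_induction with
  | h1 =>
    have := h1 1 1
    rw [mul_one] at this
    exact left_eq_add.1 this
  | hx i j r y hij hy => rw [h1, h2 i j r hij, hy, add_zero]

section rep
variable {P : Type*} [AddCommGroup P] [Module R P]

open Classical in
/-- Elementary automorphism attached to a basis. -/
noncomputable def elemEquiv (b : Module.Basis ι R P) (i j : ι) (r : R) : P ≃ₗ[R] P :=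
  if h : i ≠ j then
    LinearEquiv.transvection (f := r • b.coord j) (v := b i) (by simp [h.symm])
  else 1

theorem elemEquiv_apply (b : Module.Basis ι R P) {i j : ι} (h : i ≠ j) (r : R) (v : P) :
    elemEquiv b i j r v = v + (r * b.repr v j) • b i := by
  simp [elemEquiv, h, LinearMap.transvection.apply]

theorem isStFam_elemEquiv (b : Module.Basis ι R P) : IsStFam (elemEquiv b) := by
  classical
  refine ⟨fun i r => by simp [elemEquiv], fun i j r s h => ?_, fun i j k l r s h1 h2 h3 h4 => ?_,
    fun i j l r s h1 h2 h3 => ?_⟩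
  · ext v
    simp only [LinearEquiv.mul_apply, elemEquiv_apply b h, map_add, map_smul, Finsupp.add_apply,
      Finsupp.smul_apply, b.repr_self, Finsupp.single_apply, if_neg h, smul_zero, add_zero]
    module
  · ext v
    simp only [LinearEquiv.mul_apply, elemEquiv_apply b h1, elemEquiv_apply b h2, map_add, map_smul,
      Finsupp.add_apply, Finsupp.smul_apply, b.repr_self, Finsupp.single_apply,
      if_neg h3.symm, if_neg h4, smul_zero, add_zero]
    module
  · have e : elemEquiv b i j r * elemEquiv b j l s =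
        elemEquiv b i l (r * s) * elemEquiv b j l s * elemEquiv b i j r := by
      ext v
      simp only [LinearEquiv.mul_apply, elemEquiv_apply b h1, elemEquiv_apply b h2,
        elemEquiv_apply b h3, map_add, map_smul, Finsupp.add_apply, Finsupp.smul_apply,
        b.repr_self, Finsupp.single_apply, if_neg h2, if_neg h3, if_true, smul_zero,
        add_zero, mul_zero, zero_smul]
      module
    rw [commutatorElement_def, e]; group

/-- The standard representation attached to a basis. -/
noncomputable def stRep (b : Module.Basis ι R P) : St ι R →* (P ≃ₗ[R] P) :=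
  (isStFam_elemEquiv b).lift

theorem stRep_stx (b : Module.Basis ι R P) (i j : ι) (r : R) :
    stRep b (stx i j r) = elemEquiv b i j r := IsStFam.lift_stx _ i j r

theorem stRep_stw [DecidableEq ι] (b : Module.Basis ι R P) {i j : ι} (h : i ≠ j) (u : Rˣ) :
    stRep b (stw i j u) (b i) = (-((u⁻¹ : Rˣ) : R)) • b j ∧
      stRep b (stw i j u) (b j) = (u : R) • b i ∧
      ∀ k, k ≠ i → k ≠ j → stRep b (stw i j u) (b k) = b k := by
  have hu : ((u⁻¹ : Rˣ) : R) * u = 1 := u.inv_mul
  have e0 : ∀ (i j k : ι) (r : R), i ≠ j → k ≠ j → elemEquiv b i j r (b k) = b k := by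
    intro i j k r h hk
    rw [elemEquiv_apply b h, b.repr_self, Finsupp.single_apply, if_neg hk, mul_zero, zero_smul,
      add_zero]
  have e1 : ∀ (i j : ι) (r : R), i ≠ j → elemEquiv b i j r (b j) = b j + r • b i := by
    intro i j r h
    rw [elemEquiv_apply b h, b.repr_self, Finsupp.single_apply, if_pos rfl, mul_one]
  refine ⟨?_, ?_, fun k hi hj => ?_⟩
  · simp only [stw, map_mul, stRep_stx, LinearEquiv.mul_apply, e0 i j i _ h h, e1 j i _ h.symm,
      e1 i j _ h, map_add, map_smul]
    match_scalars
    · linear_combination (-1 : R) * hu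
    · ring
  · simp only [stw, map_mul, stRep_stx, LinearEquiv.mul_apply, e0 i j i _ h h, e1 j i _ h.symm,
      e1 i j _ h, e0 j i j _ h.symm h.symm, map_add, map_smul]
    match_scalars
    · linear_combination (-1 : R) * hu
    · linear_combination (-(u : R)) * hu
  · simp only [stw, map_mul, stRep_stx, LinearEquiv.mul_apply, e0 i j k _ h hj,
      e0 j i k _ h.symm hi]

theorem stRep_sth [DecidableEq ι] (b : Module.Basis ι R P) {i j : ι} (h : i ≠ j) (u : Rˣ) (k : ι) :
    stRep b (sth i j u) (b k) =
      ((if k = i then u else if k = j then u⁻¹ else 1 : Rˣ) : R) • b k := by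
  obtain ⟨a1, a2, a3⟩ := stRep_stw b h u
  obtain ⟨c1, c2, c3⟩ := stRep_stw b h (-1)
  rw [sth, map_mul, LinearEquiv.mul_apply]
  split_ifs with hi hj
  · rw [hi, c1, map_smul, a2]; simp
  · rw [hj, c2, map_smul, a1]; simp
  · rw [c3 k hi hj, a3 k hi hj]; simp

theorem stRep_baseChange [Algebra R S] (b : Module.Basis ι R P) (g : St ι R) :
    (stRep (b.baseChange S) (stMap ι (algebraMap R S) g)).toLinearMap =
      (stRep b g).toLinearMap.baseChange S := by
  classical
  induction g using st_induction with
  | h1 =>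
    rw [map_one, map_one, map_one]
    exact LinearMap.baseChange_id.symm
  | hx i j r y hij hy =>
    rw [map_mul, map_mul, map_mul, LinearEquiv.coe_toLinearMap_mul,
      LinearEquiv.coe_toLinearMap_mul, LinearMap.baseChange_mul, hy]
    congr 1
    rw [stMap_stx, stRep_stx, stRep_stx]
    refine (b.baseChange S).ext fun k => ?_
    rw [LinearEquiv.coe_coe, elemEquiv_apply _ hij, Module.Basis.repr_self,
      Module.Basis.baseChange_apply, Module.Basis.baseChange_apply, LinearMap.baseChange_tmul,
      LinearEquiv.coe_coe, elemEquiv_apply _ hij, Module.Basis.repr_self, TensorProduct.tmul_add,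
      TensorProduct.tmul_smul, Finsupp.single_apply, Finsupp.single_apply]
    split_ifs
    · rw [mul_one, mul_one, algebraMap_smul]
    · rw [mul_zero, mul_zero, zero_smul, zero_smul]

/-- exponents of the three diagonal families -/
def expA : Fin 7 → ℤ := ![1, 1, -1, -1, 0, 0, 0]
def expB : Fin 7 → ℤ := ![1, -1, 1, -1, 0, 0, 0]
def expC : Fin 7 → ℤ := ![1, -1, -1, 1, 0, 0, 0]

theorem stRep_dA (b : Module.Basis (Fin 7) R P) (u : Rˣ) (k : Fin 7) :
    stRep b (dA u) (b k) = ((u ^ expA k : Rˣ) : R) • b k := by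
  rw [dA, map_mul, LinearEquiv.mul_apply, stRep_sth b (by decide : (1 : Fin 7) ≠ 2), map_smul,
    stRep_sth b (by decide : (0 : Fin 7) ≠ 3), smul_smul, ← Units.val_mul]
  congr 2
  fin_cases k <;> simp [expA]
theorem stRep_dB (b : Module.Basis (Fin 7) R P) (u : Rˣ) (k : Fin 7) :
    stRep b (dB u) (b k) = ((u ^ expB k : Rˣ) : R) • b k := by
  rw [dB, map_mul, LinearEquiv.mul_apply, stRep_sth b (by decide : (2 : Fin 7) ≠ 1), map_smul,
    stRep_sth b (by decide : (0 : Fin 7) ≠ 3), smul_smul, ← Units.val_mul]
  congr 2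
  fin_cases k <;> simp [expB]
theorem stRep_dC (b : Module.Basis (Fin 7) R P) (u : Rˣ) (k : Fin 7) :
    stRep b (dC u) (b k) = ((u ^ expC k : Rˣ) : R) • b k := by
  rw [dC, map_mul, LinearEquiv.mul_apply, stRep_sth b (by decide : (3 : Fin 7) ≠ 2), map_smul,
    stRep_sth b (by decide : (0 : Fin 7) ≠ 1), smul_smul, ← Units.val_mul]
  congr 2
  fin_cases k <;> simp [expC]

end rep

end Vale.Agent.P178
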