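import Mathlib

/-!
P178: the Steinberg group `St ι R` of a commutative ring on an index type `ι`, and
`K₃(R) = H₃(St(R), ℤ)`.
-/

namespace Vale.Agent.P178

open CategoryTheory
open scoped commutatorElement

/-- The Steinberg relators in the free group on symbols `x i j r`. Symbols with `i = j` are
killed, so that the generators are the `x i j r` with `i ≠ j`. -/
inductive StRel (ι : Type) (R : Type) [CommRing R] : FreeGroup (ι × ι × R) → Prop
  | diag (i : ι) (r : R) : StRel ι R (FreeGroup.of (i, i, r))
  | add (i j : ι) (r s : R) : i ≠ j →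
      StRel ι R (FreeGroup.of (i, j, r) * FreeGroup.of (i, j, s) * (FreeGroup.of (i, j, r + s))⁻¹)
  | comm (i j k l : ι) (r s : R) : i ≠ j → k ≠ l → j ≠ k → i ≠ l →
      StRel ι R ⁅FreeGroup.of (i, j, r), FreeGroup.of (k, l, s)⁆
  | bra (i j l : ι) (r s : R) : i ≠ j → j ≠ l → i ≠ l →
      StRel ι R (⁅FreeGroup.of (i, j, r), FreeGroup.of (j, l, s)⁆ * (FreeGroup.of (i, l, r * s))⁻¹)

/-- The Steinberg group on the index type `ι`; `St ℕ R` is the stable Steinberg group. -/
abbrev St (ι : Type) (R : Type) [CommRing R] : Type :=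
  PresentedGroup {w : FreeGroup (ι × ι × R) | StRel ι R w}

theorem stRel_map {ι R S : Type} [CommRing R] [CommRing S] (f : R →+* S) :
    ∀ w ∈ {w : FreeGroup (ι × ι × R) | StRel ι R w},
      FreeGroup.lift (fun p : ι × ι × R => (PresentedGroup.of (p.1, p.2.1, f p.2.2) : St ι S)) w
        = 1 := by
  intro w hw
  have key : ∀ v : FreeGroup (ι × ι × S), StRel ι S v →
      (PresentedGroup.mk {w : FreeGroup (ι × ι × S) | StRel ι S w} v : St ι S) = 1 :=
    fun v hv => PresentedGroup.one_of_mem hv
  cases hw with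
  | diag i r => simpa [PresentedGroup.of] using key _ (StRel.diag i (f r))
  | add i j r s h => simpa [PresentedGroup.of] using key _ (StRel.add i j (f r) (f s) h)
  | comm i j k l r s h1 h2 h3 h4 =>
      simpa [map_commutatorElement, PresentedGroup.of] using key _ (StRel.comm i j k l (f r) (f s) h1 h2 h3 h4)
  | bra i j l r s h1 h2 h3 =>
      simpa [map_commutatorElement, PresentedGroup.of] using key _ (StRel.bra i j l (f r) (f s) h1 h2 h3)

/-- The map of Steinberg groups induced by a ring homomorphism: `x i j r ↦ x i j (f r)`. -/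
def stMap (ι : Type) {R S : Type} [CommRing R] [CommRing S] (f : R →+* S) : St ι R →* St ι S :=
  PresentedGroup.toGroup (stRel_map f)

/-- `K₃(R) = H₃(St(R), ℤ)`. -/
noncomputable abbrev KThree (R : Type) [CommRing R] : ModuleCat ℤ :=
  groupHomology (Rep.trivial ℤ (St ℕ R) ℤ) 3

/-- The map on `K₃` induced by a ring homomorphism. -/
noncomputable def kThreeMap {R S : Type} [CommRing R] [CommRing S] (f : R →+* S) :
    KThree R ⟶ KThree S :=
  groupHomology.map (stMap ℕ f) (𝟙 (Rep.trivial ℤ (St ℕ R) ℤ)) 3

end Vale.Agent.P178
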