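import Vale.Agent.P178.StBasic

/-!
P178: diagonal elements of Steinberg groups and the symbol `c (μ, t)`.
-/

namespace Vale.Agent.P178

open scoped commutatorElement

variable {R : Type} [CommRing R] {n : ℕ}

/-- `D` acts on the generators like the diagonal matrix `lam`. -/
def IsDiagSt (D : St (Fin n) R) (lam : Fin n → Rˣ) : Prop :=
  ∀ k l r, k ≠ l → D * stx k l r * D⁻¹ = stx k l ((lam k : R) * r * ((lam l)⁻¹ : Rˣ))

theorem IsDiagSt.one : IsDiagSt (1 : St (Fin n) R) 1 := by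
  intro k l r _
  simp

theorem IsDiagSt.mul {D D' : St (Fin n) R} {lam lam' : Fin n → Rˣ} (h : IsDiagSt D lam)
    (h' : IsDiagSt D' lam') : IsDiagSt (D * D') (lam * lam') := by
  intro k l r hkl
  have e : D * D' * stx k l r * (D * D')⁻¹ = D * (D' * stx k l r * D'⁻¹) * D⁻¹ := by group
  rw [e, h' k l r hkl, h k l _ hkl]
  congr 1
  simp only [Pi.mul_apply, mul_inv_rev, Units.val_mul]
  ring

theorem IsDiagSt.inv {D : St (Fin n) R} {lam : Fin n → Rˣ} (h : IsDiagSt D lam) :
    IsDiagSt D⁻¹ lam⁻¹ := by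
  intro k l r hkl
  have e := h k l (((lam k)⁻¹ : Rˣ) * r * (lam l : R)) hkl
  have e2 : (lam k : R) * (((lam k)⁻¹ : Rˣ) * r * (lam l : R)) * ((lam l)⁻¹ : Rˣ) = r := by
    rw [mul_assoc, mul_assoc, Units.mul_inv, mul_one, Units.mul_inv_cancel_left]
  rw [e2] at e
  simp only [Pi.inv_apply, inv_inv]
  rw [← e]
  group

/-- Elements of the same type differ by a central element. -/
theorem IsDiagSt.central {D D' : St (Fin n) R} {lam : Fin n → Rˣ} (h : IsDiagSt D lam)
    (h' : IsDiagSt D' lam) : D' * D⁻¹ ∈ Subgroup.center (St (Fin n) R) := by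
  have h1 := h'.mul h.inv
  rw [mul_inv_cancel] at h1
  rw [Subgroup.mem_center_iff]
  intro g
  induction g using st_induction with
  | h1 => simp
  | hx i j r g hij ih =>
    have h2 := h1 i j r hij
    simp only [Pi.one_apply, Units.val_one, one_mul, inv_one, mul_one] at h2
    rw [mul_inv_eq_iff_eq_mul] at h2
    rw [mul_assoc, ih, ← mul_assoc, ← h2, mul_assoc]

theorem IsDiagSt.commute_stx {D : St (Fin n) R} {lam : Fin n → Rˣ} (h : IsDiagSt D lam)
    {k l : Fin n} (hkl : lam k = lam l) (r : R) : Commute D (stx k l r) := by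
  by_cases h0 : k = l
  · rw [h0, isStFam_stx.diag]
    exact Commute.one_right _
  have h1 := h k l r h0
  rw [hkl, mul_right_comm, Units.mul_inv, one_mul, mul_inv_eq_iff_eq_mul] at h1
  exact h1

section W

variable {ι : Type}

theorem sd_zero {i j : ι} (hij : i ≠ j) : (stx i j 0 : St ι R) = 1 := by
  have := isStFam_stx.add i j (0 : R) 0 hij
  rw [add_zero] at this
  exact left_eq_mul.1 this

theorem sd_neg {i j : ι} (hij : i ≠ j) (r : R) : (stx i j (-r) : St ι R) = (stx i j r)⁻¹ := by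
  rw [eq_inv_iff_mul_eq_one, ← isStFam_stx.add i j _ _ hij, neg_add_cancel, sd_zero hij]

theorem sd_conj_left {i j l : ι} (hij : i ≠ j) (hjl : j ≠ l) (hil : i ≠ l) (r s : R) :
    MulAut.conj (stx i j r : St ι R) (stx j l s) = stx i l (r * s) * stx j l s := by
  rw [← isStFam_stx.bra i j l r s hij hjl hil, commutatorElement_def, MulAut.conj_apply]
  group

theorem sd_conj_right {i j l : ι} (hij : i ≠ j) (hjl : j ≠ l) (hil : i ≠ l) (r s : R) :
    MulAut.conj (stx j l s : St ι R) (stx i j r) = stx i l (-(r * s)) * stx i j r := by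
  rw [sd_neg hil, ← isStFam_stx.bra i j l r s hij hjl hil, commutatorElement_def,
    MulAut.conj_apply]
  group

theorem sd_conj_comm {i j k l : ι} (hij : i ≠ j) (hkl : k ≠ l) (hjk : j ≠ k) (hil : i ≠ l)
    (r s : R) : MulAut.conj (stx i j r : St ι R) (stx k l s) = stx k l s := by
  rw [MulAut.conj_apply, (isStFam_stx.comm i j k l r s hij hkl hjk hil).eq, mul_inv_cancel_right]

theorem sd_col {i j m : ι} (hij : i ≠ j) (him : i ≠ m) (hjm : j ≠ m) (r a b : R) :
    MulAut.conj (stx i j r : St ι R) (stx i m a * stx j m b) = stx i m (a + r * b) * stx j m b := by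
  rw [map_mul, sd_conj_comm hij him hij.symm him, sd_conj_left hij hjm him,
    isStFam_stx.add i m _ _ him, mul_assoc]

theorem sd_col_swap {i j m : ι} (him : i ≠ m) (hjm : j ≠ m) (a b : R) :
    (stx i m a * stx j m b : St ι R) = stx j m b * stx i m a :=
  (isStFam_stx.comm i m j m a b him hjm hjm.symm him).eq

theorem sd_row {i j m : ι} (hij : i ≠ j) (him : i ≠ m) (hjm : j ≠ m) (r a b : R) :
    MulAut.conj (stx i j r : St ι R) (stx m j b * stx m i a) =
      stx m j (b - a * r) * stx m i a := by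
  rw [map_mul, sd_conj_comm hij hjm.symm hjm hij, sd_conj_right him.symm hij hjm.symm,
    sub_eq_add_neg, isStFam_stx.add m j _ _ hjm.symm, mul_assoc]

theorem sd_row_swap {i j m : ι} (him : i ≠ m) (hjm : j ≠ m) (a b : R) :
    (stx m i a * stx m j b : St ι R) = stx m j b * stx m i a :=
  (isStFam_stx.comm m i m j a b him.symm hjm.symm him hjm.symm).eq

theorem sd_w_col {i j m : ι} (hij : i ≠ j) (him : i ≠ m) (hjm : j ≠ m) (u : Rˣ) (a b : R) :
    MulAut.conj (stw i j u : St ι R) (stx i m a * stx j m b) =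
      stx i m (u * b) * stx j m (-((u⁻¹ : Rˣ) * a)) := by
  rw [stw, map_mul MulAut.conj, map_mul MulAut.conj, MulAut.mul_apply, MulAut.mul_apply, sd_col hij him hjm,
    sd_col_swap him hjm, sd_col hij.symm hjm him, sd_col_swap hjm him, sd_col hij him hjm]
  have h := u.inv_mul
  congr 2
  · linear_combination (-(a : R) - u * b) * h
  · linear_combination (-b) * h

theorem sd_w_row {i j m : ι} (hij : i ≠ j) (him : i ≠ m) (hjm : j ≠ m) (u : Rˣ) (a b : R) :
    MulAut.conj (stw i j u : St ι R) (stx m j b * stx m i a) =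
      stx m j (-(a * u)) * stx m i (b * (u⁻¹ : Rˣ)) := by
  rw [stw, map_mul MulAut.conj, map_mul MulAut.conj, MulAut.mul_apply, MulAut.mul_apply, sd_row hij him hjm,
    sd_row_swap hjm him, sd_row hij.symm hjm him, sd_row_swap him hjm, sd_row hij him hjm]
  have h := u.inv_mul
  congr 2
  · linear_combination ((a : R) * u - b) * h
  · linear_combination (-a) * h

theorem sd_w_im {i j m : ι} (hij : i ≠ j) (him : i ≠ m) (hjm : j ≠ m) (u : Rˣ) (a : R) :
    MulAut.conj (stw i j u : St ι R) (stx i m a) = stx j m (-((u⁻¹ : Rˣ) * a)) := by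
  simpa [sd_zero him, sd_zero hjm] using sd_w_col hij him hjm u a 0

theorem sd_w_jm {i j m : ι} (hij : i ≠ j) (him : i ≠ m) (hjm : j ≠ m) (u : Rˣ) (b : R) :
    MulAut.conj (stw i j u : St ι R) (stx j m b) = stx i m (u * b) := by
  simpa [sd_zero him, sd_zero hjm] using sd_w_col hij him hjm u 0 b

theorem sd_w_mi {i j m : ι} (hij : i ≠ j) (him : i ≠ m) (hjm : j ≠ m) (u : Rˣ) (a : R) :
    MulAut.conj (stw i j u : St ι R) (stx m i a) = stx m j (-(a * u)) := by
  simpa [sd_zero him.symm, sd_zero hjm.symm] using sd_w_row hij him hjm u a 0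

theorem sd_w_mj {i j m : ι} (hij : i ≠ j) (him : i ≠ m) (hjm : j ≠ m) (u : Rˣ) (b : R) :
    MulAut.conj (stw i j u : St ι R) (stx m j b) = stx m i (b * (u⁻¹ : Rˣ)) := by
  simpa [sd_zero him.symm, sd_zero hjm.symm] using sd_w_row hij him hjm u 0 b

theorem sd_w_ij {i j m : ι} (hij : i ≠ j) (him : i ≠ m) (hjm : j ≠ m) (u : Rˣ) (a : R) :
    MulAut.conj (stw i j u : St ι R) (stx i j a) =
      stx j i (-((u⁻¹ : Rˣ) * a * (u⁻¹ : Rˣ))) := by
  have h := isStFam_stx.bra i m j a 1 him hjm.symm hij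
  rw [mul_one] at h
  rw [← h, map_commutatorElement, sd_w_im hij him hjm, sd_w_mj hij him hjm,
    isStFam_stx.bra j m i _ _ hjm him.symm hij.symm]
  congr 1; ring

theorem sd_w_ji {i j m : ι} (hij : i ≠ j) (him : i ≠ m) (hjm : j ≠ m) (u : Rˣ) (a : R) :
    MulAut.conj (stw i j u : St ι R) (stx j i a) = stx i j (-(u * a * u)) := by
  have h := isStFam_stx.bra j m i a 1 hjm him.symm hij.symm
  rw [mul_one] at h
  rw [← h, map_commutatorElement, sd_w_jm hij him hjm, sd_w_mi hij him hjm,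
    isStFam_stx.bra i m j _ _ him hjm.symm hij]
  congr 1; ring

theorem sd_w_out {i j k l : ι} (hij : i ≠ j) (hkl : k ≠ l) (hik : i ≠ k) (hjk : j ≠ k)
    (hil : i ≠ l) (hjl : j ≠ l) (u : Rˣ) (a : R) :
    MulAut.conj (stw i j u : St ι R) (stx k l a) = stx k l a := by
  rw [stw, map_mul MulAut.conj, map_mul MulAut.conj, MulAut.mul_apply, MulAut.mul_apply, sd_conj_comm hij hkl hjk hil,
    sd_conj_comm hij.symm hkl hik hjl, sd_conj_comm hij hkl hjk hil]

theorem sd_w_neg {i j : ι} (hij : i ≠ j) (u : Rˣ) : (stw i j (-u) : St ι R) = (stw i j u)⁻¹ := by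
  simp only [stw, inv_neg, Units.val_neg, sd_neg hij, sd_neg hij.symm]
  group

theorem sd_w_swap {i j m : ι} (hij : i ≠ j) (him : i ≠ m) (hjm : j ≠ m) (u : Rˣ) :
    (stw i j u : St ι R) = stx j i (-((u⁻¹ : Rˣ) : R)) * stx i j (u : R) * stx j i (-((u⁻¹ : Rˣ) : R)) := by
  have h : MulAut.conj (stw i j u : St ι R) (stw i j u) = stw i j u := by simp
  rw [← h]
  conv_lhs => arg 2; rw [stw]
  rw [map_mul, map_mul, sd_w_ij hij him hjm, sd_w_ji hij him hjm]
  simp

theorem sd_w_steinberg {i j m : ι} (hij : i ≠ j) (him : i ≠ m) (hjm : j ≠ m) {u v : Rˣ}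
    (h : (u : R) + v = 1) : (stw i j u * stw i j (-1) * stw i j v : St ι R) = stw i j (u * v) := by
  have h1 : (stw i j (-1) : St ι R) = stx j i 1 * stx i j (-1) * stx j i 1 := by
    simpa using sd_w_swap (R := R) hij him hjm (-1)
  have h2 := sd_w_ji hij him hjm u 1
  have h3 := sd_w_ji hij him hjm (-v) 1
  rw [MulAut.conj_apply, mul_inv_eq_iff_eq_mul] at h2
  rw [MulAut.conj_apply, sd_w_neg hij, inv_inv, mul_assoc, inv_mul_eq_iff_eq_mul] at h3
  have a := fun r s => (isStFam_stx (R := R)).add i j r s hij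
  have b := fun r s => (isStFam_stx (R := R)).add j i r s hij.symm
  calc (stw i j u * stw i j (-1) * stw i j v : St ι R)
      = (stw i j u * stx j i 1) * stx i j (-1) * (stx j i 1 * stw i j v) := by rw [h1]; group
    _ = stx i j (-((u : R) * 1 * u) + u) * stx j i (-((u⁻¹ : Rˣ) : R)) * stx i j ((u : R) + -1 + v) *
          stx j i (-((v⁻¹ : Rˣ) : R)) * stx i j ((v : R) + -(((-v : Rˣ) : R) * 1 * (-v : Rˣ))) := by
        rw [h2, h3, a, a, a, a, stw, stw]; group
    _ = stw i j (u * v) := by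
        rw [show (u : R) + -1 + v = 0 by linear_combination h, sd_zero hij, mul_one,
          mul_assoc (stx i j _), ← b, stw]
        have hu := u.inv_mul
        have hv := v.inv_mul
        congr 3
        · simp only [Units.val_mul]; linear_combination (-(u : R)) * h
        · simp only [mul_inv_rev, Units.val_mul]
          linear_combination ((v⁻¹ : Rˣ) : R) * hu + ((u⁻¹ : Rˣ) : R) * hv -
            ((u⁻¹ : Rˣ) : R) * ((v⁻¹ : Rˣ) : R) * h
        · simp only [Units.val_mul, Units.val_neg]; linear_combination (-(v : R)) * h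

end W

theorem sd_exists {n : ℕ} (s : Finset (Fin n)) (h : s.card < n) : ∃ m, m ∉ s := by
  by_contra h1
  push Not at h1
  rw [Finset.eq_univ_iff_forall.2 h1, Finset.card_univ, Fintype.card_fin] at h
  exact lt_irrefl _ h

theorem sd_third (hn : 3 ≤ n) (i j : Fin n) : ∃ m, i ≠ m ∧ j ≠ m := by
  obtain ⟨m, hm⟩ := sd_exists {i, j} (Finset.card_le_two.trans_lt hn)
  simp only [Finset.mem_insert, Finset.mem_singleton, not_or] at hm
  exact ⟨m, Ne.symm hm.1, Ne.symm hm.2⟩

theorem sd_fourth (hn : 4 ≤ n) (i j k : Fin n) : ∃ m, i ≠ m ∧ j ≠ m ∧ k ≠ m := by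
  obtain ⟨m, hm⟩ := sd_exists {i, j, k} (Finset.card_le_three.trans_lt hn)
  simp only [Finset.mem_insert, Finset.mem_singleton, not_or] at hm
  exact ⟨m, Ne.symm hm.1, Ne.symm hm.2.1, Ne.symm hm.2.2⟩

theorem isDiagSt_sth (hn : 3 ≤ n) {i j : Fin n} (hij : i ≠ j) (u : Rˣ) :
    IsDiagSt (sth i j u) (fun k => if k = i then u else if k = j then u⁻¹ else 1) := by
  intro k l r hkl
  obtain ⟨m, him, hjm⟩ := sd_third hn i j
  rw [← MulAut.conj_apply, sth, map_mul, MulAut.mul_apply]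
  by_cases hki : k = i
  · subst hki
    by_cases hlj : l = j
    · subst hlj
      rw [sd_w_ij hij him hjm, sd_w_ji hij him hjm]
      simp [hij.symm]
    · rw [sd_w_im hij hkl (Ne.symm hlj), sd_w_jm hij hkl (Ne.symm hlj)]
      simp [hkl.symm, hlj]
  by_cases hkj : k = j
  · subst hkj
    by_cases hli : l = i
    · subst hli
      rw [sd_w_ji hij him hjm, sd_w_ij hij him hjm]
      simp [hij.symm]
    · rw [sd_w_jm hij (Ne.symm hli) hkl, sd_w_im hij (Ne.symm hli) hkl]
      simp [hkl.symm, hli, hki]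
  by_cases hli : l = i
  · subst hli
    rw [sd_w_mi hij (Ne.symm hki) (Ne.symm hkj), sd_w_mj hij (Ne.symm hki) (Ne.symm hkj)]
    simp [hki, hkj]
  by_cases hlj : l = j
  · subst hlj
    rw [sd_w_mj hij (Ne.symm hki) (Ne.symm hkj), sd_w_mi hij (Ne.symm hki) (Ne.symm hkj)]
    simp [hki, hkj, hli]
  rw [sd_w_out hij hkl (Ne.symm hki) (Ne.symm hkj) (Ne.symm hli) (Ne.symm hlj),
    sd_w_out hij hkl (Ne.symm hki) (Ne.symm hkj) (Ne.symm hli) (Ne.symm hlj)]
  simp [hki, hkj, hli, hlj]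

theorem IsDiagSt.conj_stw {D : St (Fin n) R} {lam : Fin n → Rˣ} (h : IsDiagSt D lam)
    {k l : Fin n} (hkl : k ≠ l) (t : Rˣ) :
    MulAut.conj D (stw k l t) = stw k l (lam k * (lam l)⁻¹ * t) := by
  rw [stw, map_mul, map_mul, MulAut.conj_apply, MulAut.conj_apply, h k l _ hkl, h l k _ hkl.symm,
    stw]
  simp only [mul_inv_rev, inv_inv, Units.val_mul]
  rw [mul_right_comm (lam k : R) t]
  congr 3
  ring

/-- The symbol attached to a pair of indices. -/
def sdC (k l : Fin n) (a t : Rˣ) : St (Fin n) R :=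
  stw k l (a * t) * stw k l (a * -1) * (sth k l t)⁻¹

theorem IsDiagSt.comm_sth {D : St (Fin n) R} {lam : Fin n → Rˣ} (h : IsDiagSt D lam)
    {k l : Fin n} (hkl : k ≠ l) (t : Rˣ) : ⁅D, sth k l t⁆ = sdC k l (lam k * (lam l)⁻¹) t := by
  rw [commutatorElement_def, ← MulAut.conj_apply, sdC]
  conv_lhs => arg 1; rw [sth, map_mul, h.conj_stw hkl, h.conj_stw hkl]

theorem IsDiagSt.comm_central {D E : St (Fin n) R} {lam mu : Fin n → Rˣ} (h : IsDiagSt D lam)
    (h' : IsDiagSt E mu) : ⁅D, E⁆ ∈ Subgroup.center (St (Fin n) R) := by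
  have h1 := (h.mul h').mul h.inv
  rw [mul_inv_cancel_comm] at h1
  exact h'.central h1

theorem sd_comm_mul_right {G : Type*} [Group G] {D a b : G} (h : ⁅D, b⁆ ∈ Subgroup.center G) :
    ⁅D, a * b⁆ = ⁅D, a⁆ * ⁅D, b⁆ := by
  have h1 := Subgroup.mem_center_iff.1 h a
  calc ⁅D, a * b⁆ = ⁅D, a⁆ * (a * ⁅D, b⁆) * a⁻¹ := by
        simp only [commutatorElement_def]; group
    _ = _ := by rw [h1]; group

theorem sd_comm_mul_left {G : Type*} [Group G] {D D' a : G} (h : ⁅D', a⁆ ∈ Subgroup.center G) :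
    ⁅D * D', a⁆ = ⁅D, a⁆ * ⁅D', a⁆ := by
  have h1 := Subgroup.mem_center_iff.1 h D
  have h2 := Subgroup.mem_center_iff.1 h ⁅D, a⁆
  calc ⁅D * D', a⁆ = (D * ⁅D', a⁆) * D⁻¹ * ⁅D, a⁆ := by
        simp only [commutatorElement_def]; group
    _ = _ := by rw [h1, h2]; group

theorem sdC_one {k l : Fin n} (hkl : k ≠ l) (t : Rˣ) : sdC k l 1 t = 1 := by
  simpa using (IsDiagSt.one.comm_sth hkl t).symm

theorem sdC_tri (hn : 3 ≤ n) {D : St (Fin n) R} {lam : Fin n → Rˣ} (h : IsDiagSt D lam)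
    {k l m : Fin n} (hkl : k ≠ l) (hlm : l ≠ m) (hkm : k ≠ m) (t : Rˣ) :
    sdC k m (lam k * (lam m)⁻¹) t = sdC k l (lam k * (lam l)⁻¹) t * sdC l m (lam l * (lam m)⁻¹) t := by
  have h1 := (isDiagSt_sth hn hkl t).mul (isDiagSt_sth hn hlm t)
  have h2 := isDiagSt_sth hn hkm t
  have e : ((fun a => if a = k then t else if a = l then t⁻¹ else 1) *
      fun a => if a = l then t else if a = m then t⁻¹ else 1) =
      fun a => if a = k then t else if a = m then t⁻¹ else 1 := by
    funext a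
    simp only [Pi.mul_apply]
    by_cases a1 : a = k
    · simp [a1, hkl, hkm]
    · by_cases a2 : a = l
      · simp [a2, hkl.symm, hlm]
      · simp [a1, a2]
  rw [e] at h1
  have h3 := h1.central h2
  have h4 : ⁅D, sth k m t * (sth k l t * sth l m t)⁻¹⁆ = 1 :=
    commutatorElement_eq_one_iff_mul_comm.2 (Subgroup.mem_center_iff.1 h3 D)
  rw [← h.comm_sth hkm, ← h.comm_sth hkl, ← h.comm_sth hlm,
    ← sd_comm_mul_right (h.comm_central (isDiagSt_sth hn hlm t)),
    ← one_mul ⁅D, sth k l t * sth l m t⁆, ← h4, ← sd_comm_mul_right (h.comm_central h1),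
    inv_mul_cancel_right]

theorem sdC_right (hn : 4 ≤ n) {k l m : Fin n} (hkl : k ≠ l) (hkm : k ≠ m) (a t : Rˣ) :
    sdC k m a t = sdC k l a t := by
  by_cases hlm : l = m
  · rw [hlm]
  obtain ⟨q, h1, h2, h3⟩ := sd_fourth hn k l m
  simpa [hkl.symm, hkm.symm, h2, h3, sdC_one hlm] using
    sdC_tri (by omega) (isDiagSt_sth (by omega) h1 a) hkl hlm hkm t

theorem sdC_left (hn : 4 ≤ n) {k l m : Fin n} (hlm : l ≠ m) (hkm : k ≠ m) (a t : Rˣ) :
    sdC k m a t = sdC l m a t := by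
  by_cases hkl : k = l
  · rw [hkl]
  obtain ⟨q, h1, h2, h3⟩ := sd_fourth hn k l m
  simpa [hlm, hkm, h1, h2, sdC_one hkl] using
    sdC_tri (by omega) (isDiagSt_sth (by omega) h3 a⁻¹) hkl hlm hkm t

theorem sdC_eq (hn : 4 ≤ n) {k l i j : Fin n} (hkl : k ≠ l) (hij : i ≠ j) (a t : Rˣ) :
    sdC k l a t = sdC i j a t := by
  obtain ⟨m, h1, h2⟩ := sd_third (by omega) k i
  rw [sdC_right hn h1 hkl, sdC_left hn h2 h1, sdC_right hn hij h2]

/-- The Steinberg symbol: a bimultiplicative skew pairing with central values which computes all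
commutators of diagonal elements with the `h k l t`. -/
theorem exists_symbol (hn : 4 ≤ n) :
    ∃ c : Rˣ → Rˣ → St (Fin n) R,
      (∀ a t, c a t ∈ Subgroup.center (St (Fin n) R)) ∧
      (∀ a a' t, c (a * a') t = c a t * c a' t) ∧
      (∀ a t, c a t * c t a = 1) ∧
      (∀ (D : St (Fin n) R) (lam : Fin n → Rˣ), IsDiagSt D lam → ∀ k l, k ≠ l → ∀ t,
        ⁅D, sth k l t⁆ = c (lam k * (lam l)⁻¹) t) ∧
      (∀ a t : Rˣ, (a : R) + (t : R) = 1 → c a t = 1) := by
  have h3 : 3 ≤ n := by omega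
  let i : Fin n := ⟨0, by omega⟩
  let j : Fin n := ⟨1, by omega⟩
  have hij : i ≠ j := by simp [i, j]
  obtain ⟨m, him, hjm⟩ := sd_third h3 i j
  have key : ∀ a t : Rˣ, ⁅sth i m a, sth i j t⁆ = sdC i j a t := by
    intro a t
    simpa [hij.symm, hjm] using (isDiagSt_sth h3 him a).comm_sth hij t
  have hc : ∀ a t : Rˣ, ⁅sth i m a, sth i j t⁆ ∈ Subgroup.center (St (Fin n) R) := fun a t =>
    (isDiagSt_sth h3 him a).comm_central (isDiagSt_sth h3 hij t)
  refine ⟨sdC i j, fun a t => key a t ▸ hc a t, fun a a' t => ?_, fun a t => ?_,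
    fun D lam hD k l hkl t => ?_, fun a t h => ?_⟩
  · rw [← key a, ← key a', ← sd_comm_mul_left (hc a' t)]
    simpa [hij.symm, hjm] using
      (((isDiagSt_sth h3 him a).mul (isDiagSt_sth h3 him a')).comm_sth hij t).symm
  · have h1 : ⁅sth i j t, sth i m a⁆ = sdC i m t a := by
      simpa [him.symm, hjm.symm] using (isDiagSt_sth h3 hij t).comm_sth him a
    rw [← key a, sdC_eq hn hij him, ← h1, ← commutatorElement_inv (sth i m a), mul_inv_cancel]
  · rw [hD.comm_sth hkl, sdC_eq hn hkl hij]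
  · rw [sdC, mul_neg, mul_one, sd_w_neg hij, mul_comm a t,
      ← sd_w_steinberg hij him hjm (by rw [add_comm]; exact h), sth]
    group

theorem isDiagSt_dA (u : Rˣ) : IsDiagSt (dA u) (fun k => u ^ expA k) := by
  have h := (isDiagSt_sth (by norm_num) (show (0 : Fin 7) ≠ 3 by decide) u).mul
    (isDiagSt_sth (by norm_num) (show (1 : Fin 7) ≠ 2 by decide) u)
  convert h using 1
  · rfl
  funext k
  fin_cases k <;> simp [expA]
theorem isDiagSt_dB (u : Rˣ) : IsDiagSt (dB u) (fun k => u ^ expB k) := by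
  have h := (isDiagSt_sth (by norm_num) (show (0 : Fin 7) ≠ 3 by decide) u).mul
    (isDiagSt_sth (by norm_num) (show (2 : Fin 7) ≠ 1 by decide) u)
  convert h using 1
  · rfl
  funext k
  fin_cases k <;> simp [expB]
theorem isDiagSt_dC (u : Rˣ) : IsDiagSt (dC u) (fun k => u ^ expC k) := by
  have h := (isDiagSt_sth (by norm_num) (show (0 : Fin 7) ≠ 1 by decide) u).mul
    (isDiagSt_sth (by norm_num) (show (3 : Fin 7) ≠ 2 by decide) u)
  convert h using 1
  · rfl
  funext k
  fin_cases k <;> simp [expC]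

theorem sd_commute {D : St (Fin 7) R} {lam : Fin 7 → Rˣ} (h : IsDiagSt D lam)
    {i j k l : Fin 7} (hij : i ≠ j) (hkl : k ≠ l)
    (e : lam i * (lam j)⁻¹ * (lam k * (lam l)⁻¹) = 1) (t : Rˣ) :
    Commute D (sth i j t * sth k l t) := by
  obtain ⟨c, -, h2, -, h4, -⟩ := exists_symbol (R := R) (n := 7) (by norm_num)
  have h1 : c 1 t = 1 := by
    have := h2 1 1 t
    rw [one_mul] at this
    exact left_eq_mul.1 this
  rw [← commutatorElement_eq_one_iff_commute,
    sd_comm_mul_right (h.comm_central (isDiagSt_sth (by norm_num) hkl t)), h4 D lam h i j hij,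
    h4 D lam h k l hkl, ← h2, e, h1]

theorem commute_dA_dB (u t : Rˣ) : Commute (dA u) (dB t) :=
  sd_commute (isDiagSt_dA u) (by decide) (by decide) (by simp [expA]) t
theorem commute_dA_dC (u t : Rˣ) : Commute (dA u) (dC t) :=
  sd_commute (isDiagSt_dA u) (by decide) (by decide) (by simp [expA]) t
theorem commute_dB_dC (u t : Rˣ) : Commute (dB u) (dC t) :=
  sd_commute (isDiagSt_dB u) (by decide) (by decide) (by simp [expB]) t

end Vale.Agent.P178
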