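import Vale.Agent.P178.Hat

/-!
P178: the steps of the obstruction theory.  A *loop family* on a semi-simplicial set `S` is a
family of singular simplices `F y : Δ^{n+1} → X` (`y ∈ Y n`) with constant face `0` and
`d_{i+1} (F y) = F (d_i y)`.
-/

namespace Vale.Agent.P178

open scoped unitInterval

universe u v w

variable {X : Type u} [TopologicalSpace X]

/-- Loop families. -/
structure IsLoopFam (S : SSS.{w}) (x₀ : X) (F : ∀ n, S.Y n → C(Dl (n + 1), X)) : Prop where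
  face0 : ∀ n y, dS 0 (F n y) = ContinuousMap.const _ x₀
  faceS : ∀ n (i : Fin (n + 2)) y, dS i.succ (F (n + 1) y) = F n (S.d i y)

/-- Homotopies of loop families, constant on the faces `0`. -/
structure IsLoopHtpy (S : SSS.{w}) (x₀ : X) (F F' : ∀ n, S.Y n → C(Dl (n + 1), X))
    (H : ∀ n, S.Y n → C(Dl (n + 1) × I, X)) : Prop where
  bot : ∀ n y p, H n y (p, 0) = F n y p
  top : ∀ n y p, H n y (p, 1) = F' n y p
  face0 : ∀ n y p s, H n y (face 0 p, s) = x₀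
  faceS : ∀ n (i : Fin (n + 2)) y p s, H (n + 1) y (face i.succ p, s) = H n (S.d i y) (p, s)

/-- Pairs of cones with the same base. -/
structure IsDCone (S : SSS.{w}) (x₀ : X) (a b : ∀ n, S.Y n → C(Dl (n + 1), X)) : Prop where
  ha : ∀ n (i : Fin (n + 2)) y, dS i.succ (a (n + 1) y) = a n (S.d i y)
  hb : ∀ n (i : Fin (n + 2)) y, dS i.succ (b (n + 1) y) = b n (S.d i y)
  hab : ∀ n y, dS 0 (a n y) = dS 0 (b n y)
  ha0 : ∀ n y, a n y (stdSimplex.vertex 0) = x₀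

/-- The end of a homotopy. -/
def sgTop {A : Type v} [TopologicalSpace A] (H : C(A × I, X)) : C(A, X) :=
  ⟨fun p => H (p, 1), by fun_prop⟩

theorem sg_ext_loop (S : SSS.{w}) [Subsingleton (S.Y 0)] {x₀ : X}
    {F : ∀ n, S.Y n → C(Dl (n + 1), X)} (hF : IsLoopFam S x₀ F)
    (P : ∀ n, S.Y n → Prop) (hP0 : ∀ y, P 0 y)
    (hPd : ∀ n (i : Fin (n + 2)) y, P (n + 1) y → P n (S.d i y))
    (H₀ : ∀ n, S.Y n → C(Dl (n + 1) × I, X))
    (b0 : ∀ n y, P n y → ∀ p, H₀ n y (p, 0) = F n y p)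
    (bK : ∀ n y, P n y → ∀ p s, H₀ n y (face 0 p, s) = x₀)
    (bd : ∀ n (i : Fin (n + 2)) y, P (n + 1) y → ∀ p s,
      H₀ (n + 1) y (face i.succ p, s) = H₀ n (S.d i y) (p, s)) :
    ∃ (F' : ∀ n, S.Y n → C(Dl (n + 1), X)) (H : ∀ n, S.Y n → C(Dl (n + 1) × I, X)),
      IsLoopFam S x₀ F' ∧ IsLoopHtpy S x₀ F F' H ∧
      ∀ n y, P n y → ∀ p, F' n y p = H₀ n y (p, 1) := by
  obtain ⟨H, h1, h2, h3, h4⟩ := ext_homotopy S F hF.faceS (fun _ _ => ContinuousMap.const _ x₀)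
    (fun _ _ _ _ _ => rfl) (fun n y p => (DFunLike.congr_fun (hF.face0 n y) p).symm) P hP0 hPd
    H₀ b0 bK bd
  exact ⟨fun n y => sgTop (H n y), H, ⟨fun n y => ContinuousMap.ext fun p => h3 n y p 1,
    fun n i y => ContinuousMap.ext fun p => h4 n i y p 1⟩, ⟨h2, fun _ _ _ => rfl, h3, h4⟩,
    fun n y h p => by rw [← h1 n y h]; rfl⟩

theorem sg_sph {S : SSS.{w}} {x₀ : X} {F : ∀ n, S.Y n → C(Dl (n + 1), X)}
    (hF : IsLoopFam S x₀ F) {k : ℕ} (h : ∀ y, F k y = ContinuousMap.const _ x₀)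
    (y : S.Y (k + 1)) : Spherical x₀ (F (k + 1) y) := fun i =>
  Fin.cases (hF.face0 _ y) (fun j => (hF.faceS k j y).trans (h _)) i

theorem sg_cons {Z : Type u} {m : ℕ} (a : Z) (f : Fin m → Z) :
    ∃ x : Fin (m + 1) → Z, x 0 = a ∧ ∀ i, x i.succ = f i :=
  ⟨Fin.cons a f, rfl, fun _ => rfl⟩

theorem sg_snoc {Z : Type u} {m : ℕ} (a : Z) (f : Fin m → Z) (c : Z) :
    ∃ x : Fin (m + 2) → Z, x 0 = a ∧ (∀ i : Fin m, x i.succ.castSucc = f i) ∧
      x (Fin.last _) = c :=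
  ⟨Fin.snoc (α := fun _ => Z) (Fin.cons a f) c,
    by rw [← Fin.castSucc_zero, Fin.snoc_castSucc, Fin.cons_zero],
    fun i => by rw [Fin.snoc_castSucc, Fin.cons_succ], by rw [Fin.snoc_last]⟩

theorem sg_coc {S : SSS.{w}} {x₀ : X} {F : ∀ n, S.Y n → C(Dl (n + 1), X)}
    (hF : IsLoopFam S x₀ F) {k : ℕ} (D : PiData (Sph.pt x₀ k) (Fillable x₀ k))
    (o : S.Y k → Sph x₀ k) (ho : ∀ y, (o y).1 = F k y) (y : S.Y (k + 1)) :
    S.cob (fun y => D.cls (o y)) y = 0 := by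
  obtain ⟨x, x0, xs⟩ := sg_cons (Sph.pt x₀ k) fun i => o (S.d i y)
  have h := (D.fl_iff x).1 ⟨F (k + 1) y, fun i => Fin.cases (by rw [x0]; exact hF.face0 _ y)
    (fun j => by rw [xs, ho]; exact hF.faceS k j y) i⟩
  rw [Fin.sum_univ_succ] at h
  simp only [x0, xs, D.cls_pt, smul_zero, zero_add, Fin.val_succ, pow_succ,
    mul_neg, mul_one, neg_smul, Finset.sum_neg_distrib, neg_eq_zero] at h
  exact h

theorem sg_vertex {n : ℕ} {x₀ : X} {w : C(Dl (n + 1), X)}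
    (h : dS 0 w = ContinuousMap.const _ x₀) : w (stdSimplex.vertex (Fin.last (n + 1))) = x₀ := by
  obtain ⟨q, hq⟩ := (mem_range_face (n := n) 0 (stdSimplex.vertex (Fin.last (n + 1)))).2
    (by simp)
  rw [← hq]
  exact DFunLike.congr_fun h q

/-- One step of obstruction theory, relative to a face closed family `P` on which the loop family
is already trivial in dimension `k + 1`. -/
theorem stage_step (S : SSS.{w}) [Subsingleton (S.Y 0)] (x₀ : X) (k : ℕ)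
    (F : ∀ n, S.Y n → C(Dl (n + 1), X)) (hF : IsLoopFam S x₀ F)
    (htriv : ∀ n ≤ k, ∀ y, F n y = ContinuousMap.const _ x₀)
    (P : ∀ n, S.Y n → Prop) (hPd : ∀ n (i : Fin (n + 2)) y, P (n + 1) y → P n (S.d i y))
    (hPtriv : ∀ y, P (k + 1) y → F (k + 1) y = ContinuousMap.const _ x₀)
    (hcoh : ∀ (M : Type u) [AddCommGroup M] (o : S.Y (k + 1) → M), (∀ y, S.cob o y = 0) →
      (∀ y, P (k + 1) y → o y = 0) →
      ∃ b : S.Y k → M, (∀ y, P k y → b y = 0) ∧ ∀ y, o y = S.cob b y) :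
    ∃ (F' : ∀ n, S.Y n → C(Dl (n + 1), X)) (H : ∀ n, S.Y n → C(Dl (n + 1) × I, X)),
      IsLoopFam S x₀ F' ∧ IsLoopHtpy S x₀ F F' H ∧ (∀ n ≤ k + 1, ∀ y, F' n y = ContinuousMap.const _ x₀) ∧
      ∀ n y, P n y → F' n y = F n y := by
  classical
  obtain ⟨D⟩ := exists_piData x₀ k
  obtain ⟨κ, κ0, κ1, κd⟩ := exists_coneLast
  obtain ⟨o, ho⟩ : ∃ o : S.Y (k + 1) → Sph x₀ (k + 1), ∀ y, (o y).1 = F (k + 1) y :=
    ⟨fun y => ⟨_, sg_sph hF (htriv k le_rfl) y⟩, fun _ => rfl⟩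
  obtain ⟨b, hb, hob⟩ := hcoh D.G (fun y => D.cls (o y)) (sg_coc hF D o ho)
    fun y hy => (congrArg D.cls (Subtype.ext ((ho y).trans (hPtriv y hy)))).trans D.cls_pt
  have h1 : ∀ y, ∃ β : Sph x₀ (k + 1), D.cls β = (-1 : ℤ) ^ (k + 3) • b y ∧
      (P k y → β = Sph.pt x₀ (k + 1)) := fun y => by
    by_cases h : P k y
    · exact ⟨_, by rw [D.cls_pt, hb y h, smul_zero], fun _ => rfl⟩
    · obtain ⟨β, hβ⟩ := D.surj ((-1 : ℤ) ^ (k + 3) • b y)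
      exact ⟨β, hβ, fun h' => (h h').elim⟩
  choose β hβ hβP using h1
  have h2 : ∀ y : S.Y (k + 1), ∃ W : C(Dl (k + 3), X), dS 0 W = ContinuousMap.const _ x₀ ∧
      (∀ i : Fin (k + 2), dS i.succ.castSucc W = (β (S.d i y)).1) ∧
      dS (Fin.last _) W = F (k + 1) y ∧ (P (k + 1) y → W = ContinuousMap.const _ x₀) := fun y => by
    by_cases h : P (k + 1) y
    · exact ⟨ContinuousMap.const _ x₀, rfl, fun i => by rw [hβP _ (hPd k i y h)]; rfl,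
        (hPtriv y h).symm, fun _ => rfl⟩
    obtain ⟨x, x0, xs, xl⟩ := sg_snoc (Sph.pt x₀ (k + 1)) (fun i => β (S.d i y)) (o y)
    obtain ⟨W, hW⟩ := (D.fl_iff x).2 (by
      rw [Fin.sum_univ_castSucc, Fin.sum_univ_succ]
      simp only [Fin.castSucc_zero, x0, xs, xl, D.cls_pt, smul_zero, zero_add, Fin.val_castSucc,
        Fin.val_succ, Fin.val_last, hβ, hob y, SSS.cob, Finset.smul_sum, ← Finset.sum_add_distrib]
      refine Finset.sum_eq_zero fun i _ => ?_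
      rw [pow_succ _ (i : ℕ), smul_comm, ← smul_add, mul_neg, mul_one, neg_smul,
        neg_add_cancel, smul_zero])
    exact ⟨W, by rw [hW, x0]; rfl, fun i => by rw [hW, xs], by rw [hW, xl, ho],
      fun h' => (h h').elim⟩
  choose W W0 Ws Wl WP using h2
  obtain ⟨H₀, e1, e2, e3⟩ : ∃ H₀ : ∀ n, S.Y n → C(Dl (n + 1) × I, X),
      (∀ y, H₀ k y = (β y).1.comp (κ (k + 1))) ∧ (∀ y, H₀ (k + 1) y = (W y).comp (κ (k + 2))) ∧
      ∀ n, n ≠ k → n ≠ k + 1 → ∀ y, H₀ n y = (F n y).comp ContinuousMap.fst :=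
    ⟨Function.update (Function.update (fun n y => (F n y).comp ContinuousMap.fst) k
      fun y => (β y).1.comp (κ (k + 1))) (k + 1) fun y => (W y).comp (κ (k + 2)),
      fun y => by rw [Function.update_of_ne k.succ_ne_self.symm, Function.update_self],
      fun y => by rw [Function.update_self],
      fun n h h' y => by rw [Function.update_of_ne h', Function.update_of_ne h]⟩
  have βf : ∀ y i q, (β y).1 (face i q) = x₀ := fun y i q => DFunLike.congr_fun ((β y).2 i) q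
  obtain ⟨F', H, g1, g2, g3⟩ := sg_ext_loop S hF (fun n y => P n y ∨ n ≤ k + 1)
    (fun _ => Or.inr (Nat.zero_le _))
    (fun n i y h => h.imp (hPd n i y) fun h => by omega) H₀
    (fun n y _ p => by
      rcases eq_or_ne n k with rfl | h
      · rw [e1, ContinuousMap.comp_apply, κ0, βf, htriv n le_rfl]; rfl
      rcases eq_or_ne n (k + 1) with rfl | h'
      · rw [e2, ContinuousMap.comp_apply, κ0, ← Wl]; rfl
      · rw [e3 n h h']; rfl)
    (fun n y _ p s => by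
      rcases eq_or_ne n k with rfl | h
      · rw [e1, ContinuousMap.comp_apply, κd, βf]
      rcases eq_or_ne n (k + 1) with rfl | h'
      · rw [e2, ContinuousMap.comp_apply, κd]
        exact DFunLike.congr_fun (W0 y) _
      · rw [e3 n h h']
        exact DFunLike.congr_fun (hF.face0 n y) p)
    (fun n i y hy p s => by
      rcases eq_or_ne (n + 1) k with rfl | h
      · rw [e1, ContinuousMap.comp_apply, κd, βf, e3 n (by omega) (by omega),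
          htriv n (by omega)]; rfl
      rcases eq_or_ne n k with rfl | h'
      · rw [e2, e1, ContinuousMap.comp_apply, κd, ← Ws]; rfl
      rw [e3 (n + 1) h (by omega)]
      refine (DFunLike.congr_fun (hF.faceS n i y) p).trans ?_
      rcases eq_or_ne n (k + 1) with rfl | h''
      · have hy' := hPd _ i y (hy.resolve_right (by omega))
        rw [e2, WP _ hy', hPtriv _ hy']; rfl
      · rw [e3 n h' h'']; rfl)
  have g4 : ∀ n ≤ k + 1, ∀ y, F' n y = ContinuousMap.const _ x₀ := fun n hn y => by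
    ext p
    rw [g3 n y (Or.inr hn)]
    rcases eq_or_ne n k with rfl | h
    · rw [e1, ContinuousMap.comp_apply, κ1]
      exact sg_vertex ((β y).2 0)
    rcases eq_or_ne n (k + 1) with rfl | h'
    · rw [e2, ContinuousMap.comp_apply, κ1]
      exact sg_vertex (W0 y)
    · rw [e3 n h h', htriv n (by omega)]; rfl
  refine ⟨F', H, g1, g2, g4, fun n y hy => ?_⟩
  rcases lt_trichotomy n (k + 1) with h | rfl | h
  · rw [g4 n h.le, htriv n (by omega)]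
  · rw [g4 _ le_rfl, hPtriv y hy]
  · ext p
    rw [g3 n y (Or.inl hy), e3 n (by omega) (by omega)]; rfl

/-- Pairing of a chain with a cochain. -/
noncomputable def pairing {Y : Type w} {M : Type v} [AddCommGroup M] (z : Y →₀ ℤ) (o : Y → M) : M :=
  z.sum fun y m => m • o y

theorem sg_map {Y : Type w} {M : Type*} {N : Type*} [AddCommGroup M] [AddCommGroup N]
    (f : M →+ N) (z : Y →₀ ℤ) (o : Y → M) : f (pairing z o) = pairing z fun y => f (o y) := by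
  simp only [pairing, Finsupp.sum, map_sum, map_zsmul]

theorem sg_add {Y : Type w} {M : Type v} [AddCommGroup M] (z : Y →₀ ℤ) (o o' : Y → M) :
    pairing z (fun y => o y + o' y) = pairing z o + pairing z o' := by
  simp only [pairing, Finsupp.sum, smul_add, Finset.sum_add_distrib]

/-- Cycles. -/
def SSS.IsCycle (S : SSS.{w}) {n : ℕ} (z : S.Y (n + 1) →₀ ℤ) : Prop :=
  pairing z (S.cob fun y : S.Y n => Finsupp.single y (1 : ℤ)) = 0

theorem SSS.IsCycle.pairing_cob {S : SSS.{w}} {n : ℕ} {z : S.Y (n + 1) →₀ ℤ} (hz : S.IsCycle z)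
    {M : Type v} [AddCommGroup M] (η : S.Y n → M) : pairing z (S.cob η) = 0 := by
  have h := congrArg (Finsupp.linearCombination ℤ η).toAddMonoidHom hz
  rw [sg_map, map_zero] at h
  unfold SSS.cob
  simpa [SSS.cob] using h

theorem sg_prism {M : Type v} [AddCommGroup M] (c : C(Dl 4, X) → M) (hc : IsSingCoc c) :
    ∃ P : C(Dl 3 × I, X) → M, (∀ x, P (ContinuousMap.const _ x) = 0) ∧
      ∀ (S : SSS.{w}) (H3 : S.Y 3 → C(Dl 4 × I, X)) (H2 : S.Y 2 → C(Dl 3 × I, X)) (y : S.Y 3)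
        (f g : C(Dl 4, X)) (K : C(Dl 3 × I, X)), (∀ p, H3 y (p, 0) = f p) →
        (∀ p, H3 y (p, 1) = g p) → (∀ p s, H3 y (face 0 p, s) = K (p, s)) →
        (∀ (i : Fin 4) p s, H3 y (face i.succ p, s) = H2 (S.d i y) (p, s)) →
        c g = c f + P K + S.cob (fun y => -P (H2 y)) y := by
  obtain ⟨P, hP, h⟩ := prism4 c hc
  refine ⟨P, hP, fun S H3 H2 y f g K h0 h1 h2 h3 => ?_⟩
  have h4 := h (H3 y) f g h0 h1
  have h5 : (H3 y).comp ((face 0).prodMap (ContinuousMap.id I)) = K :=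
    ContinuousMap.ext fun q => h2 q.1 q.2
  have h6 : ∀ i : Fin 4, (H3 y).comp ((face i.succ).prodMap (ContinuousMap.id I)) =
      H2 (S.d i y) := fun i => ContinuousMap.ext fun q => h3 i q.1 q.2
  rw [Fin.sum_univ_succ, h5, sub_eq_iff_eq_add'] at h4
  simp only [h6, Fin.val_succ, pow_succ, mul_neg, mul_one, neg_smul, Fin.val_zero, pow_zero,
    one_smul] at h4
  simp only [h4, SSS.cob, smul_neg, add_assoc]

/-- Homotopic loop families give the same values on cycles. -/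
theorem IsLoopHtpy.pairing_eq {S : SSS.{w}} {x₀ : X} {F F' : ∀ n, S.Y n → C(Dl (n + 1), X)}
    {H : ∀ n, S.Y n → C(Dl (n + 1) × I, X)} (h : IsLoopHtpy S x₀ F F' H)
    {z : S.Y 3 →₀ ℤ} (hz : S.IsCycle z) {M : Type v} [AddCommGroup M] (c : C(Dl 4, X) → M)
    (hc : IsSingCoc c) : pairing z (fun y => c (F' 3 y)) = pairing z (fun y => c (F 3 y)) := by
  obtain ⟨P, hP, h1⟩ := sg_prism c hc
  have h2 := fun y => h1 S (H 3) (H 2) y _ _ (ContinuousMap.const _ x₀) (h.bot 3 y) (h.top 3 y)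
    (h.face0 3 y) fun i => h.faceS 2 i y
  simp only [h2, hP, add_zero]
  rw [sg_add, hz.pairing_cob, add_zero]

section rel
variable {X₀ : Type u} [TopologicalSpace X₀] {S₀ S : SSS.{w}}

/-- Injective maps of semi-simplicial sets. -/
structure SSSEmb (S₀ S : SSS.{w}) where
  j : ∀ n, S₀.Y n → S.Y n
  inj : ∀ n, Function.Injective (j n)
  d_j : ∀ n (i : Fin (n + 2)) y, S.d i (j (n + 1) y) = j n (S₀.d i y)
  surj0 : Function.Surjective (j 0)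

theorem sg_ext_rel [Subsingleton (S.Y 0)] (e : SSSEmb S₀ S) (φ : C(X₀, X))
    (H₀ : ∀ n, S₀.Y n → C(Dl (n + 1) × I, X₀))
    (hd : ∀ n (i : Fin (n + 2)) y p s, H₀ (n + 1) y (face i.succ p, s) = H₀ n (S₀.d i y) (p, s))
    (G : ∀ n, S.Y n → C(Dl (n + 1), X))
    (hG : ∀ n (i : Fin (n + 2)) y, dS i.succ (G (n + 1) y) = G n (S.d i y))
    (K : ∀ n, S.Y n → C(Dl n × I, X))
    (hK : ∀ n (i : Fin (n + 2)) y p s, K (n + 1) y (face i p, s) = K n (S.d i y) (p, s))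
    (hK0 : ∀ n y p, K n y (p, 0) = G n y (face 0 p))
    (b0 : ∀ n y p, φ (H₀ n y (p, 0)) = G n (e.j n y) p)
    (bK : ∀ n y p s, φ (H₀ n y (face 0 p, s)) = K n (e.j n y) (p, s)) :
    ∃ H : ∀ n, S.Y n → C(Dl (n + 1) × I, X), (∀ n y, H n (e.j n y) = φ.comp (H₀ n y)) ∧
      (∀ n y p s, H n y (face 0 p, s) = K n y (p, s)) ∧
      ∀ n (i : Fin (n + 2)) y p s, H (n + 1) y (face i.succ p, s) = H n (S.d i y) (p, s) := by
  obtain ⟨H₁, h1⟩ : ∃ H₁ : ∀ n, S.Y n → C(Dl (n + 1) × I, X),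
      ∀ n y, H₁ n (e.j n y) = φ.comp (H₀ n y) :=
    ⟨fun n => Function.extend (e.j n) (fun y => φ.comp (H₀ n y))
      fun y => (G n y).comp ContinuousMap.fst, fun n y => (e.inj n).extend_apply _ _ y⟩
  obtain ⟨H, g1, -, g3, g4⟩ := ext_homotopy S G hG K hK hK0 (fun n y => ∃ y₀, e.j n y₀ = y)
    e.surj0 (by rintro n i _ ⟨y, rfl⟩; exact ⟨_, (e.d_j n i y).symm⟩) H₁
    (by rintro n _ ⟨y, rfl⟩ p; rw [h1]; exact b0 n y p)
    (by rintro n _ ⟨y, rfl⟩ p s; rw [h1]; exact bK n y p s)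
    (by rintro n i _ ⟨y, rfl⟩ p s; rw [e.d_j, h1, h1]; exact congrArg φ (hd n i y p s))
  exact ⟨H, fun n y => (g1 n _ ⟨y, rfl⟩).trans (h1 n y), g3, g4⟩

theorem sg_face0 {n : ℕ} (i : Fin (n + 2)) (p : Dl n) :
    face 0 (face i p) = face i.succ (face 0 p) :=
  face_face (by funext j; simp) p

/-- First step: contract the cones `a`; the cones `b` become loop families, compatibly. -/
theorem stage_zero [Subsingleton (S₀.Y 0)] [Subsingleton (S.Y 0)] (e : SSSEmb S₀ S)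
    (φ : C(X₀, X)) (x₀ : X₀) (a₀ b₀ : ∀ n, S₀.Y n → C(Dl (n + 1), X₀))
    (a b : ∀ n, S.Y n → C(Dl (n + 1), X)) (h₀ : IsDCone S₀ x₀ a₀ b₀) (h : IsDCone S (φ x₀) a b)
    (ea : ∀ n y, a n (e.j n y) = φ.comp (a₀ n y)) (eb : ∀ n y, b n (e.j n y) = φ.comp (b₀ n y)) :
    ∃ (F₀ : ∀ n, S₀.Y n → C(Dl (n + 1), X₀)) (F : ∀ n, S.Y n → C(Dl (n + 1), X)),
      IsLoopFam S₀ x₀ F₀ ∧ IsLoopFam S (φ x₀) F ∧ (∀ y, F₀ 0 y = ContinuousMap.const _ x₀) ∧
      (∀ n y, F n (e.j n y) = φ.comp (F₀ n y)) ∧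
      ∀ (z : S₀.Y 3 →₀ ℤ), S₀.IsCycle z → ∀ (M : Type v) [AddCommGroup M] (c : C(Dl 4, X₀) → M),
        IsSingCoc c → c (ContinuousMap.const _ x₀) = 0 →
        pairing z (fun y => c (F₀ 3 y)) = pairing z (fun y => c (b₀ 3 y) - c (a₀ 3 y)) := by
  obtain ⟨κ, κ0, κ1, κd⟩ := exists_contr0
  have a0 : ∀ (n : ℕ) (y : S₀.Y n), ∃ H : C(Dl (n + 1) × I, X₀), n = 0 →
      (∀ p, H (p, 0) = b₀ n y p) ∧ (∀ p, H (p, 1) = x₀) ∧
      ∀ p s, H (face 0 p, s) = a₀ n y (κ (n + 1) (face 0 p, s)) := fun n y => by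
    rcases eq_or_ne n 0 with rfl | hn
    · obtain ⟨H, hH⟩ := square_fill (b₀ 0 y)
        (((a₀ 0 y).comp (κ 1)).comp ((face 0).prodMap (ContinuousMap.id I))) x₀
        (fun p => (congrArg (a₀ 0 y) (κ0 1 _)).trans (DFunLike.congr_fun (h₀.hab 0 y) p))
        (fun p => (congrArg (a₀ 0 y) (κ1 1 _)).trans (h₀.ha0 0 y))
      exact ⟨H, fun _ => hH⟩
    · exact ⟨ContinuousMap.const _ x₀, fun h => (hn h).elim⟩
  choose H0 hH0 using a0
  obtain ⟨H₀, g1, g2, g3, g4⟩ := ext_homotopy S₀ b₀ h₀.hb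
    (fun n y => ((a₀ n y).comp (κ (n + 1))).comp ((face 0).prodMap (ContinuousMap.id I)))
    (fun n i y p s => by
      change a₀ (n + 1) y (κ (n + 2) (face 0 (face i p), s)) = _
      rw [sg_face0, κd]
      exact DFunLike.congr_fun (h₀.ha n i y) _)
    (fun n y p => (congrArg (a₀ n y) (κ0 _ _)).trans (DFunLike.congr_fun (h₀.hab n y) p))
    (fun n _ => n = 0) (fun _ => rfl) (fun n _ _ h => by omega) H0
    (fun n y h => (hH0 n y h).1) (fun n y h => (hH0 n y h).2.2) (fun n _ _ h => by omega)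
  obtain ⟨H, k1, k2, k3⟩ := sg_ext_rel e φ H₀ g4 b h.hb
    (fun n y => ((a n y).comp (κ (n + 1))).comp ((face 0).prodMap (ContinuousMap.id I)))
    (fun n i y p s => by
      change a (n + 1) y (κ (n + 2) (face 0 (face i p), s)) = _
      rw [sg_face0, κd]
      exact DFunLike.congr_fun (h.ha n i y) _)
    (fun n y p => (congrArg (a n y) (κ0 _ _)).trans (DFunLike.congr_fun (h.hab n y) p))
    (fun n y p => by rw [g2, eb]; rfl) (fun n y p s => by rw [g3, ea]; rfl)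
  refine ⟨fun n y => sgTop (H₀ n y), fun n y => sgTop (H n y),
    ⟨fun n y => ContinuousMap.ext fun p => (g3 n y p 1).trans
      ((congrArg (a₀ n y) (κ1 _ _)).trans (h₀.ha0 n y)),
      fun n i y => ContinuousMap.ext fun p => g4 n i y p 1⟩,
    ⟨fun n y => ContinuousMap.ext fun p => (k2 n y p 1).trans
      ((congrArg (a n y) (κ1 _ _)).trans (h.ha0 n y)),
      fun n i y => ContinuousMap.ext fun p => k3 n i y p 1⟩,
    fun y => ContinuousMap.ext fun p => by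
      beta_reduce; rw [g1 0 y rfl]; exact (hH0 0 y rfl).2.1 p,
    fun n y => by beta_reduce; rw [k1]; rfl, fun z hz M _ c hc hc0 => ?_⟩
  obtain ⟨P, -, h1⟩ := sg_prism c hc
  have h2 := fun y => h1 S₀ (H₀ 3) (H₀ 2) y _ (sgTop (H₀ 3 y)) _ (g2 3 y) (fun _ => rfl)
    (g3 3 y) fun i => g4 2 i y
  have h3 := fun y => h1 S₀ (fun y => (a₀ 3 y).comp (κ 4)) (fun y => (a₀ 2 y).comp (κ 3)) y
    (a₀ 3 y) (ContinuousMap.const _ x₀)
    (((a₀ 3 y).comp (κ 4)).comp ((face 0).prodMap (ContinuousMap.id I)))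
    (fun p => congrArg (a₀ 3 y) (κ0 _ _))
    (fun p => (congrArg (a₀ 3 y) (κ1 _ _)).trans (h₀.ha0 3 y)) (fun _ _ => rfl) fun i p s =>
      (congrArg (a₀ 3 y) (κd 3 i p s)).trans (DFunLike.congr_fun (h₀.ha 2 i y) _)
  have h4 : ∀ y, c (sgTop (H₀ 3 y)) = c (b₀ 3 y) - c (a₀ 3 y) +
      S₀.cob (fun y => P ((a₀ 2 y).comp (κ 3)) - P (H₀ 2 y)) y := fun y => by
    have h5 := h3 y
    rw [hc0] at h5
    rw [h2 y, ← sub_eq_zero, h5]
    simp only [SSS.cob, smul_sub, smul_neg, Finset.sum_sub_distrib, Finset.sum_neg_distrib]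
    abel
  simp only [h4]
  rw [sg_add, hz.pairing_cob, add_zero]

/-- A homotopy on the subcomplex extends. -/
theorem stage_extend [Subsingleton (S.Y 0)] (e : SSSEmb S₀ S) (φ : C(X₀, X)) (x₀ : X₀)
    {F₀ F₀' : ∀ n, S₀.Y n → C(Dl (n + 1), X₀)} {H₀ : ∀ n, S₀.Y n → C(Dl (n + 1) × I, X₀)}
    (h₀ : IsLoopHtpy S₀ x₀ F₀ F₀' H₀) (F : ∀ n, S.Y n → C(Dl (n + 1), X))
    (hF : IsLoopFam S (φ x₀) F) (eF : ∀ n y, F n (e.j n y) = φ.comp (F₀ n y)) :
    ∃ F' : ∀ n, S.Y n → C(Dl (n + 1), X), IsLoopFam S (φ x₀) F' ∧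
      ∀ n y, F' n (e.j n y) = φ.comp (F₀' n y) := by
  obtain ⟨H, k1, k2, k3⟩ := sg_ext_rel e φ H₀ h₀.faceS F hF.faceS
    (fun _ _ => ContinuousMap.const _ (φ x₀)) (fun _ _ _ _ _ => rfl)
    (fun n y p => (DFunLike.congr_fun (hF.face0 n y) p).symm)
    (fun n y p => by rw [h₀.bot, eF]; rfl) (fun n y p s => by rw [h₀.face0]; rfl)
  exact ⟨fun n y => sgTop (H n y), ⟨fun n y => ContinuousMap.ext fun p => k2 n y p 1,
    fun n i y => ContinuousMap.ext fun p => k3 n i y p 1⟩,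
    fun n y => ContinuousMap.ext fun p => by
      beta_reduce; rw [k1]; exact congrArg φ (h₀.top n y p)⟩

/-- Main topological theorem. -/
theorem top_main [Subsingleton (S₀.Y 0)] [Subsingleton (S.Y 0)] (e : SSSEmb S₀ S)
    (φ : C(X₀, X)) (x₀ : X₀) (a₀ b₀ : ∀ n, S₀.Y n → C(Dl (n + 1), X₀))
    (a b : ∀ n, S.Y n → C(Dl (n + 1), X)) (h₀ : IsDCone S₀ x₀ a₀ b₀) (h : IsDCone S (φ x₀) a b)
    (ea : ∀ n y, a n (e.j n y) = φ.comp (a₀ n y)) (eb : ∀ n y, b n (e.j n y) = φ.comp (b₀ n y))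
    (A1 : ∀ (M : Type u) [AddCommGroup M] (o : S₀.Y 1 → M), (∀ y, S₀.cob o y = 0) → ∀ y, o y = 0)
    (A2 : ∀ (M : Type u) [AddCommGroup M] (o : S₀.Y 2 → M), (∀ y, S₀.cob o y = 0) →
      ∃ β : S₀.Y 1 → M, ∀ y, o y = S₀.cob β y)
    (F1 : ∀ (M : Type u) [AddCommGroup M] (o : S.Y 1 → M), (∀ y, S.cob o y = 0) → ∀ y, o y = 0)
    (F2 : ∀ (M : Type u) [AddCommGroup M] (o : S.Y 2 → M), (∀ y, S.cob o y = 0) →
      (∀ y, o (e.j 2 y) = 0) → ∃ β : S.Y 1 → M, (∀ y, β (e.j 1 y) = 0) ∧ ∀ y, o y = S.cob β y)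
    (z : S₀.Y 3 →₀ ℤ) (hz : S₀.IsCycle z)
    (F3 : ∀ (M : Type u) [AddCommGroup M] (o : S.Y 3 → M), (∀ y, S.cob o y = 0) →
      pairing z (fun y => o (e.j 3 y)) = 0) :
    ∃ γ : C(Dl 4, X₀), Spherical x₀ γ ∧
      (∃ W : C(Dl 5, X), dS 0 W = φ.comp γ ∧
        ∀ i : Fin 5, dS i.succ W = ContinuousMap.const _ (φ x₀)) ∧
      ∀ (M : Type v) [AddCommGroup M] (c : C(Dl 4, X₀) → M), IsSingCoc c →
        c (ContinuousMap.const _ x₀) = 0 →
        c γ = pairing z (fun y => c (b₀ 3 y) - c (a₀ 3 y)) := by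
  obtain ⟨F₀, F, l₀, l, t₀, eF, hp⟩ := stage_zero.{u, v, w} e φ x₀ a₀ b₀ a b h₀ h ea eb
  obtain ⟨G₁, H₁, l₁, p₁, t₁, -⟩ := stage_step S₀ x₀ 0 F₀ l₀
    (fun n hn y => by obtain rfl := Nat.le_zero.1 hn; exact t₀ y) (fun _ _ => False)
    (fun _ _ _ h => h) (fun _ h => h.elim)
    fun M _ o ho _ => ⟨0, fun _ _ => rfl, fun y => by simp [A1 M o ho y, SSS.cob]⟩
  obtain ⟨G₂, H₂, l₂, p₂, t₂, -⟩ := stage_step S₀ x₀ 1 G₁ l₁ t₁ (fun _ _ => False)
    (fun _ _ _ h => h) (fun _ h => h.elim)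
    fun M _ o ho _ => (A2 M o ho).imp fun _ hβ => ⟨fun _ h => h.elim, hβ⟩
  obtain ⟨E₁, m₁, e₁⟩ := stage_extend e φ x₀ p₁ F l eF
  obtain ⟨E₂, m₂, e₂⟩ := stage_extend e φ x₀ p₂ E₁ m₁ e₁
  have hPd : ∀ n (i : Fin (n + 2)) y, (∃ y₀, e.j (n + 1) y₀ = y) → ∃ y₀, e.j n y₀ = S.d i y := by
    rintro n i _ ⟨y, rfl⟩; exact ⟨_, (e.d_j n i y).symm⟩
  obtain ⟨E₃, -, m₃, -, s₃, e₃⟩ := stage_step S (φ x₀) 0 E₂ m₂
    (fun n hn y => by
      obtain rfl := Nat.le_zero.1 hn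
      obtain ⟨y, rfl⟩ := e.surj0 y
      rw [e₂, t₂ 0 (by norm_num)]; rfl) (fun n y => ∃ y₀, e.j n y₀ = y) hPd
    (by rintro _ ⟨y, rfl⟩; rw [e₂, t₂ _ (by norm_num)]; rfl)
    fun M _ o ho _ => ⟨0, fun _ _ => rfl, fun y => by simp [F1 M o ho y, SSS.cob]⟩
  obtain ⟨E₄, -, m₄, -, s₄, e₄⟩ := stage_step S (φ x₀) 1 E₃ m₃ s₃
    (fun n y => ∃ y₀, e.j n y₀ = y) hPd
    (by rintro _ ⟨y, rfl⟩; rw [e₃ _ _ ⟨y, rfl⟩, e₂, t₂ _ (by norm_num)]; rfl)
    fun M _ o ho hP => (F2 M o ho fun y => hP _ ⟨y, rfl⟩).imp fun _ hβ =>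
      ⟨by rintro _ ⟨y, rfl⟩; exact hβ.1 y, hβ.2⟩
  obtain ⟨D⟩ := exists_piData (φ x₀) 2
  obtain ⟨D₀⟩ := exists_piData x₀ 2
  obtain ⟨o, ho⟩ : ∃ o : S.Y 3 → Sph (φ x₀) 3, ∀ y, (o y).1 = E₄ 3 y :=
    ⟨fun y => ⟨_, sg_sph m₄ (s₄ 2 le_rfl) y⟩, fun _ => rfl⟩
  obtain ⟨o₀, ho₀⟩ : ∃ o : S₀.Y 3 → Sph x₀ 3, ∀ y, (o y).1 = G₂ 3 y :=
    ⟨fun y => ⟨_, sg_sph l₂ (t₂ 2 le_rfl) y⟩, fun _ => rfl⟩
  have h3 := F3 D.G _ (sg_coc m₄ D o ho)
  obtain ⟨γ, hγ⟩ := D₀.surj (pairing z fun y => D₀.cls (o₀ y))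
  refine ⟨γ.1, γ.2, ?_, fun M _ c hc hc0 => ?_⟩
  · obtain ⟨Φ, hΦ⟩ : ∃ Φ : Sph x₀ 3 → Sph (φ x₀) 3, ∀ w, (Φ w).1 = φ.comp w.1 :=
      ⟨fun w => ⟨φ.comp w.1, fun i => congrArg φ.comp (w.2 i)⟩, fun _ => rfl⟩
    obtain ⟨f, hf⟩ := PiData.lift (m := 3) D₀ (fun w => D.cls (Φ w))
      ((congrArg D.cls (Subtype.ext (hΦ _))).trans D.cls_pt)
      fun x ⟨W, hW⟩ => (D.fl_iff fun i => Φ (x i)).1
        ⟨φ.comp W, fun i => (congrArg φ.comp (hW i)).trans (hΦ _).symm⟩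
    have h4 : D.cls (Φ γ) = 0 := by
      rw [← hf, hγ, sg_map, ← h3]
      congr 1
      funext y
      rw [hf]
      refine congrArg D.cls (Subtype.ext ?_)
      rw [hΦ, ho, ho₀, e₄ _ _ ⟨y, rfl⟩, e₃ _ _ ⟨y, rfl⟩, e₂]
    obtain ⟨x, x0, xs⟩ := sg_cons (Φ γ) fun _ : Fin 5 => Sph.pt (φ x₀) 3
    obtain ⟨W, hW⟩ := (D.fl_iff x).2 (by
      rw [Fin.sum_univ_succ]
      simp only [x0, xs, h4, D.cls_pt, smul_zero, Finset.sum_const_zero, add_zero])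
    exact ⟨W, by rw [hW, x0, hΦ], fun i => by rw [hW, xs]; rfl⟩
  · obtain ⟨f, hf⟩ := PiData.lift (m := 3) D₀ (fun w => c w.1) hc0
      fun x ⟨W, hW⟩ => by simpa only [hW] using hc W
    rw [← hp z hz M c hc hc0, ← p₁.pairing_eq hz c hc, ← p₂.pairing_eq hz c hc, ← hf, hγ, sg_map]
    simp only [hf, ho₀]

end rel

end Vale.Agent.P178
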