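import Vale.Agent.P178.QDefs

/-!
P178: the trace of an endomorphism on the kernel of a morphism of `Q` is additive.
-/

namespace Vale.Agent.P178

open CategoryTheory

variable {B : Type} [CommRing B] {M N P : Type} [AddCommGroup M] [Module B M] [AddCommGroup N]
  [Module B N] [AddCommGroup P] [Module B P]

/-- The kernel of a linear relation. -/
def relKer (Γ : Submodule B (N × M)) : Submodule B N := Γ.comap (LinearMap.inl B N M)

/-- A pair of endomorphisms preserving a relation. -/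
def RelEnd (Γ : Submodule B (N × M)) (φ : N →ₗ[B] N) (ψ : M →ₗ[B] M) : Prop :=
  ∀ x ∈ Γ, (φ x.1, ψ x.2) ∈ Γ

open Classical in
/-- Trace of an endomorphism on an invariant submodule (zero if not invariant). -/
noncomputable def trOn (W : Submodule B N) (φ : N →ₗ[B] N) : B :=
  if h : ∀ x ∈ W, φ x ∈ W then LinearMap.trace B W (φ.restrict h) else 0

theorem RelEnd.ker {Γ : Submodule B (N × M)} {φ : N →ₗ[B] N} {ψ : M →ₗ[B] M}
    (h : RelEnd Γ φ ψ) : ∀ x ∈ relKer Γ, φ x ∈ relKer Γ := by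
  intro x hx
  have := h (x, 0) hx
  rwa [map_zero] at this

theorem RelEnd.mul {Γ : Submodule B (N × M)} {φ φ' : N →ₗ[B] N} {ψ ψ' : M →ₗ[B] M}
    (h : RelEnd Γ φ ψ) (h' : RelEnd Γ φ' ψ') : RelEnd Γ (φ * φ') (ψ * ψ') := by
  exact fun x hx => h _ (h' x hx)

theorem trOn_zero (W : Submodule B N) : trOn W 0 = 0 := by
  have h : ∀ x ∈ W, (0 : N →ₗ[B] N) x ∈ W := fun _ _ => W.zero_mem
  rw [trOn, dif_pos h]
  exact (congrArg _ (LinearMap.ext fun _ => rfl)).trans (map_zero _)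

theorem trOn_add {W : Submodule B N} {φ φ' : N →ₗ[B] N} (h : ∀ x ∈ W, φ x ∈ W)
    (h' : ∀ x ∈ W, φ' x ∈ W) : trOn W (φ + φ') = trOn W φ + trOn W φ' := by
  have h2 : ∀ x ∈ W, (φ + φ') x ∈ W := fun x hx => W.add_mem (h x hx) (h' x hx)
  rw [trOn, trOn, trOn, dif_pos h, dif_pos h', dif_pos h2, ← map_add]
  rfl

theorem trOn_bot (φ : N →ₗ[B] N) : trOn ⊥ φ = 0 := by
  have h : ∀ x ∈ (⊥ : Submodule B N), φ x ∈ (⊥ : Submodule B N) := fun x hx => by
    rw [(Submodule.mem_bot B).1 hx, map_zero]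
    exact Submodule.zero_mem _
  rw [trOn, dif_pos h, Subsingleton.elim (φ.restrict h) 0, map_zero]

theorem trOn_top (φ : N →ₗ[B] N) : trOn ⊤ φ = LinearMap.trace B N φ := by
  have h : ∀ x ∈ (⊤ : Submodule B N), φ x ∈ (⊤ : Submodule B N) := fun _ _ => trivial
  rw [trOn, dif_pos h, ← LinearMap.trace_conj' (φ.restrict h) Submodule.topEquiv]
  rfl

/-- The trace on a direct summand, computed with a projection. -/
theorem trOn_proj [IsLocalRing B] [Module.Finite B N] [Module.Projective B N] {W : Submodule B N}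
    {φ e : N →ₗ[B] N} (h : ∀ x ∈ W, φ x ∈ W) (he : ∀ x, e x ∈ W) (he' : ∀ x ∈ W, e x = x) :
    trOn W φ = LinearMap.trace B N (φ ∘ₗ e) := by
  have hs : e.codRestrict W he ∘ₗ W.subtype = LinearMap.id :=
    LinearMap.ext fun x => Subtype.ext (he' x.1 x.2)
  have : Module.Projective B W := .of_split _ _ hs
  have : Module.Finite B W :=
    .of_surjective (e.codRestrict W he) fun x => ⟨x.1, LinearMap.congr_fun hs x⟩
  have : Module.Free B W := Module.free_of_flat_of_isLocalRing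
  have : Module.Free B N := Module.free_of_flat_of_isLocalRing
  have h1 : φ.restrict h = e.codRestrict W he ∘ₗ (φ ∘ₗ W.subtype) :=
    LinearMap.ext fun x => Subtype.ext (he' _ (h x.1 x.2)).symm
  rw [trOn, dif_pos h, h1, LinearMap.trace_comp_comm']
  rfl

/-- Additivity under composition in `Q`. -/
theorem trOn_comp [IsLocalRing B] [Module.Finite B M] [Module.Projective B M] [Module.Finite B N]
    [Module.Projective B N] [Module.Finite B P] [Module.Projective B P]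
    {Γ : Submodule B (N × M)} {Γ' : Submodule B (P × N)} (h : IsQRel Γ) (h' : IsQRel Γ')
    {φM : M →ₗ[B] M} {φN : N →ₗ[B] N} {φP : P →ₗ[B] P} (r : RelEnd Γ φN φM)
    (r' : RelEnd Γ' φP φN) :
    trOn (relKer (relComp Γ Γ')) φP = trOn (relKer Γ') φP + trOn (relKer Γ) φN := by
  have : Module.Free B N := Module.free_of_flat_of_isLocalRing
  have : Module.Free B P := Module.free_of_flat_of_isLocalRing
  obtain ⟨p, Q, h1, h2⟩ := qaux_nf h.graph h.adm
  obtain ⟨p', Q', h1', h2'⟩ := qaux_nf h'.graph h'.adm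
  obtain ⟨t, ht⟩ := qaux_sec h.surj
  obtain ⟨t', ht'⟩ := qaux_sec h'.surj
  have k1 : ∀ n, ((p - t ∘ₗ Q) n, (0 : M)) ∈ Γ := fun n => by
    simpa using Γ.sub_mem (h1 n) (ht (Q n))
  have k2 : ∀ n ∈ relKer Γ, (p - t ∘ₗ Q) n = n := fun n hn => by
    have := h2 (n, 0) hn
    simp_all
  have k1' : ∀ n, ((p' - t' ∘ₗ Q') n, (0 : N)) ∈ Γ' := fun n => by
    simpa using Γ'.sub_mem (h1' n) (ht' (Q' n))
  have k2' : ∀ n ∈ relKer Γ', (p' - t' ∘ₗ Q') n = n := fun n hn => by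
    have := h2' (n, 0) hn
    simp_all
  have rc : RelEnd (relComp Γ Γ') φP φM := fun x ⟨n, a, b⟩ => ⟨φN n, r' _ a, r _ b⟩
  have k3 : ∀ x, ((p' - t' ∘ₗ Q') + (t' ∘ₗ (p - t ∘ₗ Q)) ∘ₗ Q') x ∈ relKer (relComp Γ Γ') :=
    fun x => ⟨(p - t ∘ₗ Q) (Q' x), by
      simpa using Γ'.add_mem (k1' x) (ht' ((p - t ∘ₗ Q) (Q' x))), k1 _⟩
  have k4 : ∀ x ∈ relKer (relComp Γ Γ'),
      ((p' - t' ∘ₗ Q') + (t' ∘ₗ (p - t ∘ₗ Q)) ∘ₗ Q') x = x := by
    rintro x ⟨n, a, b⟩
    obtain ⟨a1, a2⟩ : p' x = x ∧ Q' x = n := h2' _ a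
    show p' x - t' (Q' x) + t' ((p - t ∘ₗ Q) (Q' x)) = x
    rw [a1, a2, k2 n b, sub_add_cancel]
  rw [trOn_proj rc.ker k3 k4, trOn_proj r'.ker k1' k2', trOn_proj r.ker k1 k2, LinearMap.comp_add,
    map_add, ← LinearMap.comp_assoc Q', LinearMap.trace_comp_comm' Q']
  exact congrArg _ (congrArg _ (LinearMap.ext fun n => (h2' _ (r' _ (ht' _))).2))

end Vale.Agent.P178
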